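import Vale.Agent.ThorpA.Level

/-!
# P162 module G6: the left regular representation and the trace bound (proofs)
-/

namespace Vale.Agent.ThorpA

open Finset
open scoped InnerProductSpace Nat

/-- The left regular representation of the symmetric group on functions on the group. -/
noncomputable def reg (n : ℕ) :
    Equiv.Perm (Fin n) →* (EuclideanSpace ℝ (Equiv.Perm (Fin n)) →L[ℝ]
      EuclideanSpace ℝ (Equiv.Perm (Fin n))) where
  toFun σ := LinearMap.toContinuousLinearMap
    { toFun := fun f => WithLp.toLp 2 (fun g => f (σ⁻¹ * g))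
      map_add' := by
        intro f g
        ext x
        simp
      map_smul' := by
        intro c f
        ext x
        simp }
  map_one' := by
    ext f g
    simp
  map_mul' := by
    intro σ τ
    ext f g
    simp [mul_assoc]

theorem reg_apply (n : ℕ) (σ : Equiv.Perm (Fin n)) (f : EuclideanSpace ℝ (Equiv.Perm (Fin n)))
    (g : Equiv.Perm (Fin n)) : reg n σ f g = f (σ⁻¹ * g) := rfl

theorem reg_orth (n : ℕ) : IsOrth (reg n) := by
  intro σ x
  rw [EuclideanSpace.norm_eq, EuclideanSpace.norm_eq]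
  congr 1
  simp only [reg_apply]
  exact Equiv.sum_comp (Equiv.mulLeft σ⁻¹) (fun g => ‖x g‖ ^ 2)

/-- invariance under all permutations supported in `S` -/
theorem fixS_ofSubtype {n : ℕ} {S : Finset (Fin n)} {f : EuclideanSpace ℝ (Equiv.Perm (Fin n))}
    (hf : f ∈ fixS (reg n) S) (τ : Equiv.Perm {x // x ∈ S}) :
    ∀ g : Equiv.Perm (Fin n), f (Equiv.Perm.ofSubtype τ * g) = f g := by
  induction τ using Equiv.Perm.swap_induction_on with
  | one => intro g; simp
  | swap_mul τ x y hxy ih =>
    intro g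
    rw [map_mul, Equiv.Perm.ofSubtype_swap_eq, mul_assoc]
    have h1 := hf x.1 x.2 y.1 y.2
    have h2 := congrArg (fun v : EuclideanSpace ℝ (Equiv.Perm (Fin n)) =>
      v (Equiv.Perm.ofSubtype τ * g)) h1
    simp only [tr, reg_apply, Equiv.swap_inv] at h2
    rw [h2, ih]

theorem fixS_eq_of_agree {n : ℕ} {S : Finset (Fin n)}
    {f : EuclideanSpace ℝ (Equiv.Perm (Fin n))}
    (hf : f ∈ fixS (reg n) S) {g g' : Equiv.Perm (Fin n)}
    (h : ∀ x, x ∉ S → g⁻¹ x = g'⁻¹ x) : f g = f g' := by
  set σ : Equiv.Perm (Fin n) := g' * g⁻¹ with hσ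
  have hfix : ∀ x, x ∉ S → σ x = x := by
    intro x hx
    rw [hσ, Equiv.Perm.mul_apply, h x hx]
    simp
  have h1 : ∀ x, σ x ∈ S ↔ x ∈ S := by
    intro x
    constructor
    · intro hx
      by_contra hx'
      rw [hfix x hx'] at hx
      exact hx' hx
    · intro hx
      by_contra hx'
      have h3 := hfix _ hx'
      have h4 := σ.injective h3
      rw [h4] at hx'
      exact hx' hx
  have h2 : ∀ x, σ x ≠ x → x ∈ S := by
    intro x hx
    by_contra hx'
    exact hx (hfix x hx')
  have h5 := fixS_ofSubtype hf (Equiv.Perm.subtypePerm σ h1) g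
  rw [Equiv.Perm.ofSubtype_subtypePerm h1 h2] at h5
  have h6 : σ * g = g' := by rw [hσ]; group
  rw [← h5, h6]

/-- Dimension of the functions of `n - |S|` cards. -/
theorem finrank_fixS (n : ℕ) (S : Finset (Fin n)) :
    Module.finrank ℝ (fixS (reg n) S) ≤ n ^ (n - S.card) := by
  classical
  -- restriction of `g⁻¹` to the complement
  let r : Equiv.Perm (Fin n) → ({x // x ∈ Sᶜ} → Fin n) := fun g x => g⁻¹ x
  let T : fixS (reg n) S →ₗ[ℝ] (({x // x ∈ Sᶜ} → Fin n) → ℝ) :=
    { toFun := fun f w => if h : ∃ g, r g = w then (f : EuclideanSpace ℝ (Equiv.Perm (Fin n)))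
        h.choose else 0
      map_add' := by
        intro f f'
        funext w
        simp only [Pi.add_apply]
        split_ifs <;> simp
      map_smul' := by
        intro c f
        funext w
        simp only [Pi.smul_apply]
        split_ifs <;> simp }
  have hinj : Function.Injective T := by
    rw [← LinearMap.ker_eq_bot, LinearMap.ker_eq_bot']
    intro f hf
    apply Subtype.ext
    ext g
    have h1 := congrFun hf (r g)
    have hex : ∃ g', r g' = r g := ⟨g, rfl⟩
    have h2 : T f (r g) = (f : EuclideanSpace ℝ (Equiv.Perm (Fin n))) hex.choose := by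
      change (if h : ∃ g', r g' = r g then (f : EuclideanSpace ℝ (Equiv.Perm (Fin n)))
        h.choose else 0) = _
      rw [dif_pos hex]
    rw [h2] at h1
    have h3 : (f : EuclideanSpace ℝ (Equiv.Perm (Fin n))) g =
        (f : EuclideanSpace ℝ (Equiv.Perm (Fin n))) hex.choose := by
      apply fixS_eq_of_agree f.2
      intro x hx
      have := congrFun hex.choose_spec ⟨x, by simpa using hx⟩
      exact this.symm
    rw [h3, h1]
    simp
  have h := LinearMap.finrank_le_finrank_of_injective hinj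
  refine h.trans ?_
  rw [Module.finrank_fintype_fun_eq_card, Fintype.card_fun, Fintype.card_fin, Fintype.card_coe,
    Finset.card_compl, Fintype.card_fin]

theorem fixS_anti {n : ℕ} {S S' : Finset (Fin n)} (h : S' ⊆ S) :
    fixS (reg n) S ≤ fixS (reg n) S' := by
  intro x hx a ha b hb
  exact hx a (h ha) b (h hb)

theorem hs_adjoint {E : Type*} [NormedAddCommGroup E] [InnerProductSpace ℝ E]
    [FiniteDimensional ℝ E] {ι κ : Type*} [Fintype ι] [Fintype κ] (b : OrthonormalBasis ι ℝ E)
    (c : OrthonormalBasis κ ℝ E) (A : E →L[ℝ] E) :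
    ∑ i, ‖A (b i)‖ ^ 2 = ∑ j, ‖(ContinuousLinearMap.adjoint A) (c j)‖ ^ 2 := by
  calc ∑ i, ‖A (b i)‖ ^ 2 = ∑ i, ∑ j, ⟪c j, A (b i)⟫_ℝ ^ 2 := by
        refine Finset.sum_congr rfl fun i _ => ?_
        rw [← c.sum_sq_inner_right (A (b i))]
    _ = ∑ j, ∑ i, ⟪c j, A (b i)⟫_ℝ ^ 2 := Finset.sum_comm
    _ = ∑ j, ‖(ContinuousLinearMap.adjoint A) (c j)‖ ^ 2 := by
        refine Finset.sum_congr rfl fun j _ => ?_
        rw [← b.sum_sq_inner_right ((ContinuousLinearMap.adjoint A) (c j))]
        refine Finset.sum_congr rfl fun i _ => ?_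
        rw [ContinuousLinearMap.adjoint_inner_right, real_inner_comm]

/-- Hilbert-Schmidt norm is independent of the basis. -/
theorem hs_indep {E : Type*} [NormedAddCommGroup E] [InnerProductSpace ℝ E]
    [FiniteDimensional ℝ E] {ι κ : Type*} [Fintype ι] [Fintype κ] (b : OrthonormalBasis ι ℝ E)
    (c : OrthonormalBasis κ ℝ E) (A : E →L[ℝ] E) :
    ∑ i, ‖A (b i)‖ ^ 2 = ∑ j, ‖A (c j)‖ ^ 2 := by
  exact (hs_adjoint b c A).trans (hs_adjoint c c A).symm

/-- Counting small eigenvalues. -/
theorem count_small {n : ℕ} {ι : Type*} [Fintype ι] [DecidableEq ι]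
    (e : OrthonormalBasis ι ℝ (EuclideanSpace ℝ (Equiv.Perm (Fin n)))) (l : ι → ℝ)
    (he : ∀ i, Lap (reg n) univ (e i) = l i • e i) (k : ℕ) (hk : 1 ≤ k) (hkn : k ≤ n) :
    (univ.filter (fun i => l i < n * k / 2)).card ≤ n ^ (2 * (k - 1)) := by
  classical
  set I := univ.filter (fun i => l i < n * k / 2) with hI
  set P := (univ : Finset (Fin n)).powersetCard (n - k + 1) with hP
  have hPcard : P.card ≤ n ^ (k - 1) := by
    rw [hP, Finset.card_powersetCard, Finset.card_univ, Fintype.card_fin,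
      ← Nat.choose_symm (by omega : n - k + 1 ≤ n)]
    have : n - (n - k + 1) = k - 1 := by omega
    rw [this]
    exact Nat.choose_le_pow n (k - 1)
  have hdim : ∀ S ∈ P, Module.finrank ℝ (fixS (reg n) S) ≤ n ^ (k - 1) := by
    intro S hS
    have h1 := finrank_fixS n S
    rw [(Finset.mem_powersetCard.mp hS).2] at h1
    have : n - (n - k + 1) = k - 1 := by omega
    rwa [this] at h1
  by_contra hcon
  push Not at hcon
  -- the linear map to the projections
  let Φ : (I → ℝ) →ₗ[ℝ] ((S : P) → fixS (reg n) (S : Finset (Fin n))) :=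
    LinearMap.pi fun S => ((fixS (reg n) (S : Finset (Fin n))).orthogonalProjectionOnto.toLinearMap).comp
      (Fintype.linearCombination ℝ (fun i : I => e i))
  have hlt : Module.finrank ℝ ((S : P) → fixS (reg n) (S : Finset (Fin n))) <
      Module.finrank ℝ (I → ℝ) := by
    rw [Module.finrank_fintype_fun_eq_card, Fintype.card_coe, Module.finrank_pi_fintype]
    refine lt_of_le_of_lt ?_ hcon
    calc ∑ S : P, Module.finrank ℝ (fixS (reg n) (S : Finset (Fin n)))
        ≤ ∑ S : P, n ^ (k - 1) := Finset.sum_le_sum fun S _ => hdim S.1 S.2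
      _ = P.card * n ^ (k - 1) := by
          rw [Finset.sum_const, Finset.card_univ, Fintype.card_coe, smul_eq_mul]
      _ ≤ n ^ (k - 1) * n ^ (k - 1) := Nat.mul_le_mul_right _ hPcard
      _ = n ^ (2 * (k - 1)) := by rw [← pow_add]; congr 1; ring
  have hker := LinearMap.ker_ne_bot_of_finrank_lt (f := Φ) hlt
  obtain ⟨c, hc, hc0⟩ := Submodule.exists_mem_ne_zero_of_ne_bot hker
  set g : EuclideanSpace ℝ (Equiv.Perm (Fin n)) := ∑ i : I, c i • e i with hg
  have hgl : Fintype.linearCombination ℝ (fun i : I => e i) c = g := by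
    rw [Fintype.linearCombination_apply]
  have horth : ∀ S : Finset (Fin n), n - k < S.card → ∀ x ∈ fixS (reg n) S, ⟪g, x⟫_ℝ = 0 := by
    intro S hS x hx
    obtain ⟨S', hS'S, hS'c⟩ := Finset.exists_subset_card_eq (s := S) (n := n - k + 1) (by omega)
    have hS'P : S' ∈ P := Finset.mem_powersetCard.mpr ⟨Finset.subset_univ _, hS'c⟩
    have h1 : Φ c ⟨S', hS'P⟩ = 0 := by
      rw [LinearMap.mem_ker.mp hc]; rfl
    have h2 : (fixS (reg n) S').orthogonalProjectionOnto g = 0 := by
      have : Φ c ⟨S', hS'P⟩ = (fixS (reg n) S').orthogonalProjectionOnto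
        (Fintype.linearCombination ℝ (fun i : I => e i) c) := rfl
      rw [this, hgl] at h1
      exact h1
    rw [Submodule.orthogonalProjectionOnto_eq_zero_iff] at h2
    exact (Submodule.mem_orthogonal' _ _).mp h2 x (fixS_anti hS'S hx)
  have hlev := level_bound (reg_orth n) (univ : Finset (Fin n)) (n - k) g
    (fun S _ hS x hx => horth S hS x hx)
  -- compute norm and quadratic form
  have hortho : Orthonormal ℝ (fun i : I => e i) := e.orthonormal.comp _ Subtype.val_injective
  have hnorm : ‖g‖ ^ 2 = ∑ i : I, c i ^ 2 := by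
    rw [← real_inner_self_eq_norm_sq, hg, hortho.inner_sum]
    refine Finset.sum_congr rfl fun i _ => ?_
    simp [sq]
  have hL : Lap (reg n) univ g = ∑ i : I, (c i * l i) • e i := by
    rw [hg, map_sum]
    refine Finset.sum_congr rfl fun i _ => ?_
    rw [map_smul, he, smul_smul]
  have hquad : ⟪g, Lap (reg n) univ g⟫_ℝ = ∑ i : I, l i * c i ^ 2 := by
    rw [hL, hg, hortho.inner_sum]
    refine Finset.sum_congr rfl fun i _ => ?_
    simp only [RCLike.conj_to_real]
    ring
  have hcne : ∃ i, c i ≠ 0 := by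
    by_contra h
    push Not at h
    exact hc0 (funext h)
  obtain ⟨i0, hi0⟩ := hcne
  have hlt2 : ∑ i : I, l i * c i ^ 2 < ∑ i : I, (n * k / 2 : ℝ) * c i ^ 2 := by
    apply Finset.sum_lt_sum
    · intro i _
      have := (Finset.mem_filter.mp i.2).2
      exact mul_le_mul_of_nonneg_right this.le (sq_nonneg _)
    · refine ⟨i0, Finset.mem_univ _, ?_⟩
      have := (Finset.mem_filter.mp i0.2).2
      exact mul_lt_mul_of_pos_right this (by positivity)
  rw [← Finset.mul_sum, ← hnorm] at hlt2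
  rw [hquad, Finset.card_univ, Fintype.card_fin] at hlev
  have hcast : ((n - k : ℕ) : ℝ) = (n : ℝ) - k := by rw [Nat.cast_sub hkn]
  rw [hcast] at hlev
  have e1 : ((n : ℝ) * ((n : ℝ) - ((n : ℝ) - k)) / 2) = n * k / 2 := by ring
  rw [e1] at hlev
  linarith

/-- The trace bound. -/
theorem hs_bound (n : ℕ) (hn : 1 ≤ n)
    (A : EuclideanSpace ℝ (Equiv.Perm (Fin n)) →L[ℝ] EuclideanSpace ℝ (Equiv.Perm (Fin n)))
    (θ : ℝ)
    (hA : ∀ (x : EuclideanSpace ℝ (Equiv.Perm (Fin n))) (l : ℝ),
      Lap (reg n) univ x = l • x → ‖A x‖ ^ 2 ≤ Real.exp (-(θ * l)) * ‖x‖ ^ 2)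
    (hθ : (n : ℝ) ^ 2 * Real.exp (-(θ * n / 2)) ≤ 1 / 8) :
    ∑ g : Equiv.Perm (Fin n), ‖A (EuclideanSpace.single g 1)‖ ^ 2 ≤ 5 / 4 := by
  classical
  have hn0 : (0 : ℝ) < n := by exact_mod_cast hn
  have hn1 : (1 : ℝ) ≤ n := by exact_mod_cast hn
  have hsym : (Lap (reg n) univ : EuclideanSpace ℝ (Equiv.Perm (Fin n)) →L[ℝ]
      EuclideanSpace ℝ (Equiv.Perm (Fin n))).toLinearMap.IsSymmetric := by
    intro x y
    exact Lap_symm (reg_orth n) univ x y
  set N := Module.finrank ℝ (EuclideanSpace ℝ (Equiv.Perm (Fin n))) with hN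
  set e := hsym.eigenvectorBasis (n := N) rfl with he
  set l : Fin N → ℝ := hsym.eigenvalues rfl with hl
  have heig : ∀ i, Lap (reg n) univ (e i) = l i • e i := by
    intro i
    exact hsym.apply_eigenvectorBasis rfl i
  have hl0 : ∀ i, 0 ≤ l i := by
    intro i
    have h1 := Lap_nonneg (reg_orth n) univ (e i)
    rw [heig, inner_smul_right, real_inner_self_eq_norm_sq, e.orthonormal.1 i] at h1
    simpa using h1
  -- positivity of theta
  have hθ0 : 0 < θ := by
    by_contra hcon
    push Not at hcon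
    have h1 : (1 : ℝ) ≤ Real.exp (-(θ * n / 2)) := by
      apply Real.one_le_exp
      nlinarith
    have h2 : (1 : ℝ) ≤ (n : ℝ) ^ 2 := one_le_pow₀ hn1
    nlinarith
  have hN' : N = n ! := by
    rw [hN, finrank_euclideanSpace, Fintype.card_perm, Fintype.card_fin]
  set r : ℝ := (n : ℝ) ^ 2 * Real.exp (-(θ * n / 2)) with hr
  have hr0 : 0 ≤ r := by positivity
  -- the classes
  set κ : Fin N → ℕ := fun i => ⌊2 * l i / n⌋₊ with hκ
  have hκ1 : ∀ i, (n : ℝ) * κ i / 2 ≤ l i := by
    intro i
    have h1 : (κ i : ℝ) ≤ 2 * l i / n := Nat.floor_le (by have := hl0 i; positivity)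
    rw [le_div_iff₀ hn0] at h1
    linarith
  have hκ2 : ∀ i, l i < (n : ℝ) * ((κ i + 1 : ℕ) : ℝ) / 2 := by
    intro i
    have h1 : 2 * l i / n < κ i + 1 := Nat.lt_floor_add_one _
    rw [div_lt_iff₀ hn0] at h1
    push_cast
    linarith
  have hclass : ∀ k : ℕ, ((univ.filter (fun i => κ i = k)).card : ℝ) ≤ (n : ℝ) ^ (2 * k) := by
    intro k
    by_cases hk : k + 1 ≤ n
    · have h1 := count_small e l heig (k + 1) (by omega) hk
      have h2 : (univ.filter (fun i => κ i = k)).card ≤
          (univ.filter (fun i => l i < n * ((k + 1 : ℕ) : ℝ) / 2)).card := by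
        apply Finset.card_le_card
        intro i hi
        rw [Finset.mem_filter] at hi ⊢
        refine ⟨Finset.mem_univ _, ?_⟩
        have := hκ2 i
        rw [hi.2] at this
        exact this
      have h3 := h2.trans h1
      simp only [Nat.add_sub_cancel] at h3
      exact_mod_cast h3
    · have h1 : (univ.filter (fun i => κ i = k)).card ≤ N := by
        refine (Finset.card_le_univ _).trans ?_
        rw [Fintype.card_fin]
      have h2 : n ! ≤ n ^ n := Nat.factorial_le_pow n
      have h3 : n ^ n ≤ n ^ (2 * k) := Nat.pow_le_pow_right hn (by omega)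
      have h4 : (univ.filter (fun i => κ i = k)).card ≤ n ^ (2 * k) :=
        h1.trans ((le_of_eq hN').trans (h2.trans h3))
      exact_mod_cast h4
  have hbasis : ∑ g : Equiv.Perm (Fin n), ‖A (EuclideanSpace.single g 1)‖ ^ 2 =
      ∑ i, ‖A (e i)‖ ^ 2 := by
    have := hs_indep (EuclideanSpace.basisFun (Equiv.Perm (Fin n)) ℝ) e A
    simpa using this
  rw [hbasis]
  have hterm : ∀ i, ‖A (e i)‖ ^ 2 ≤ Real.exp (-(θ * n / 2)) ^ κ i := by
    intro i
    have h1 := hA (e i) (l i) (heig i)
    rw [e.orthonormal.1 i] at h1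
    refine h1.trans ?_
    rw [one_pow, mul_one, ← Real.exp_nat_mul]
    apply Real.exp_le_exp.mpr
    have := hκ1 i
    nlinarith [mul_le_mul_of_nonneg_left this hθ0.le]
  obtain ⟨K, hK⟩ : ∃ K : ℕ, ∀ i, κ i < K := by
    refine ⟨(∑ i, κ i) + 1, fun i => Nat.lt_succ_of_le ?_⟩
    exact Finset.single_le_sum (f := κ) (fun _ _ => Nat.zero_le _) (Finset.mem_univ i)
  calc ∑ i, ‖A (e i)‖ ^ 2 ≤ ∑ i, Real.exp (-(θ * n / 2)) ^ κ i :=
        Finset.sum_le_sum fun i _ => hterm i
    _ = ∑ k ∈ range K, ∑ i ∈ univ.filter (fun i => κ i = k), Real.exp (-(θ * n / 2)) ^ κ i := by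
        rw [Finset.sum_fiberwise_of_maps_to]
        intro i _
        exact Finset.mem_range.mpr (hK i)
    _ = ∑ k ∈ range K, ((univ.filter (fun i => κ i = k)).card : ℝ) *
          Real.exp (-(θ * n / 2)) ^ k := by
        refine Finset.sum_congr rfl fun k _ => ?_
        rw [Finset.sum_congr rfl (g := fun _ => Real.exp (-(θ * n / 2)) ^ k)]
        · rw [Finset.sum_const, nsmul_eq_mul]
        · intro i hi
          rw [(Finset.mem_filter.mp hi).2]
    _ ≤ ∑ k ∈ range K, r ^ k := by
        refine Finset.sum_le_sum fun k _ => ?_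
        calc _ ≤ (n : ℝ) ^ (2 * k) * Real.exp (-(θ * n / 2)) ^ k :=
              mul_le_mul_of_nonneg_right (hclass k) (by positivity)
          _ = r ^ k := by rw [hr, mul_pow, ← pow_mul]
    _ ≤ 5 / 4 := by
        have h1 := geom_sum_mul_neg r K
        have h2 : 0 ≤ r ^ K := pow_nonneg hr0 K
        have h3 : 0 ≤ ∑ k ∈ range K, r ^ k := Finset.sum_nonneg fun k _ => pow_nonneg hr0 k
        nlinarith

end Vale.Agent.ThorpA
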