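import Mathlib

/-!
# P162 module G3: operator exponentials in a finite-dimensional real inner product space
-/

namespace Vale.Agent.ThorpA

open Finset
open scoped InnerProductSpace Nat

set_option linter.unusedSectionVars false

variable {E : Type*} [NormedAddCommGroup E] [InnerProductSpace ℝ E] [FiniteDimensional ℝ E]

/-- `exp(A) y` is the sum of `A^k y / k!`. -/
theorem hasSum_exp_apply (A : E →L[ℝ] E) (y : E) :
    HasSum (fun k : ℕ => ((k ! : ℝ))⁻¹ • (A ^ k) y) (NormedSpace.exp A y) := by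
  have := FiniteDimensional.complete ℝ E
  have h := NormedSpace.exp_series_hasSum_exp' (𝕂 := ℝ) A
  have h2 := h.mapL (ContinuousLinearMap.apply ℝ E y)
  simpa using h2

/-- `⟨x, exp(A) y⟩` is the sum of `⟨x, A^k y⟩ / k!`. -/
theorem hasSum_exp (A : E →L[ℝ] E) (x y : E) :
    HasSum (fun k : ℕ => ((k ! : ℝ))⁻¹ * ⟪x, (A ^ k) y⟫_ℝ) ⟪x, NormedSpace.exp A y⟫_ℝ := by
  have h := (hasSum_exp_apply A y).mapL (innerSL ℝ x)
  simpa [inner_smul_right] using h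

theorem pow_symm {A : E →L[ℝ] E} (hA : ∀ x y, ⟪A x, y⟫_ℝ = ⟪x, A y⟫_ℝ) (k : ℕ) (x y : E) :
    ⟪(A ^ k) x, y⟫_ℝ = ⟪x, (A ^ k) y⟫_ℝ := by
  induction k generalizing x y with
  | zero => simp
  | succ k ih =>
    rw [pow_succ']
    change ⟪A ((A ^ k) x), y⟫_ℝ = ⟪x, A ((A ^ k) y)⟫_ℝ
    have h : (A ^ k) (A y) = A ((A ^ k) y) := by
      have := congrArg (fun T : E →L[ℝ] E => T y) ((pow_succ A k).symm.trans (pow_succ' A k))
      simpa using this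
    rw [hA, ih, h]

theorem exp_symm {A : E →L[ℝ] E} (hA : ∀ x y, ⟪A x, y⟫_ℝ = ⟪x, A y⟫_ℝ) (x y : E) :
    ⟪NormedSpace.exp A x, y⟫_ℝ = ⟪x, NormedSpace.exp A y⟫_ℝ := by
  have h1 := hasSum_exp A y x
  have h2 := hasSum_exp A x y
  have h3 : (fun k : ℕ => ((k ! : ℝ))⁻¹ * ⟪y, (A ^ k) x⟫_ℝ) =
      fun k : ℕ => ((k ! : ℝ))⁻¹ * ⟪x, (A ^ k) y⟫_ℝ := by
    ext k
    rw [← pow_symm hA, real_inner_comm]
  rw [h3] at h1
  rw [real_inner_comm]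
  exact h1.unique h2

theorem exp_add_apply {A B : E →L[ℝ] E} (h : Commute A B) :
    NormedSpace.exp (A + B) = NormedSpace.exp A * NormedSpace.exp B := by
  have := FiniteDimensional.complete ℝ E
  let _ : NormedAlgebra ℚ (E →L[ℝ] E) := NormedAlgebra.restrictScalars ℚ ℝ (E →L[ℝ] E)
  exact NormedSpace.exp_add_of_commute h

theorem smul_symm {A : E →L[ℝ] E} (hA : ∀ x y, ⟪A x, y⟫_ℝ = ⟪x, A y⟫_ℝ) (c : ℝ) (x y : E) :
    ⟪(c • A) x, y⟫_ℝ = ⟪x, (c • A) y⟫_ℝ := by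
  change ⟪c • A x, y⟫_ℝ = ⟪x, c • A y⟫_ℝ
  rw [real_inner_smul_left, real_inner_smul_right, hA]

/-- `‖exp(A/2) x‖^2 = ⟨x, exp(A) x⟩` for symmetric `A`. -/
theorem norm_exp_half {A : E →L[ℝ] E} (hA : ∀ x y, ⟪A x, y⟫_ℝ = ⟪x, A y⟫_ℝ) (x : E) :
    ‖NormedSpace.exp ((1 / 2 : ℝ) • A) x‖ ^ 2 = ⟪x, NormedSpace.exp A x⟫_ℝ := by
  rw [← real_inner_self_eq_norm_sq, exp_symm (smul_symm hA (1 / 2))]
  have h : NormedSpace.exp A =
      NormedSpace.exp ((1 / 2 : ℝ) • A) * NormedSpace.exp ((1 / 2 : ℝ) • A) := by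
    rw [← exp_add_apply (Commute.refl _), ← add_smul]
    norm_num
  conv_rhs => rw [h]
  rfl

theorem pow_eig {A : E →L[ℝ] E} {x : E} {l : ℝ} (h : A x = l • x) (k : ℕ) :
    (A ^ k) x = l ^ k • x := by
  induction k with
  | zero => simp
  | succ k ih =>
    rw [pow_succ']
    change A ((A ^ k) x) = _
    rw [ih, map_smul, h, smul_smul, pow_succ]

theorem exp_eig {A : E →L[ℝ] E} {x : E} {l : ℝ} (h : A x = l • x) :
    NormedSpace.exp A x = Real.exp l • x := by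
  have h1 := hasSum_exp_apply A x
  have h2 : HasSum (fun k : ℕ => ((k ! : ℝ))⁻¹ • l ^ k) (Real.exp l) := by
    rw [Real.exp_eq_exp_ℝ]
    exact NormedSpace.exp_series_hasSum_exp' (𝕂 := ℝ) l
  have h3 := h2.smul_const x
  have h4 : (fun k : ℕ => ((k ! : ℝ))⁻¹ • (A ^ k) x) =
      fun k : ℕ => (((k ! : ℝ))⁻¹ • l ^ k) • x := by
    ext k
    rw [pow_eig h, smul_assoc]
  rw [h4] at h1
  exact h1.unique h3

theorem pow_mem {A : E →L[ℝ] E} {V : Submodule ℝ E} (hV : ∀ x ∈ V, A x ∈ V) {x : E}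
    (hx : x ∈ V) (k : ℕ) : (A ^ k) x ∈ V := by
  induction k with
  | zero => simpa using hx
  | succ k ih =>
    rw [pow_succ']
    exact hV _ ih

/-- A closed (finite-dimensional) subspace stable under `A` is stable under `exp A`. -/
theorem exp_mem {A : E →L[ℝ] E} {V : Submodule ℝ E} (hV : ∀ x ∈ V, A x ∈ V) {x : E}
    (hx : x ∈ V) : NormedSpace.exp A x ∈ V := by
  have h1 := (hasSum_exp_apply A x).tendsto_sum_nat
  refine (Submodule.closed_of_finiteDimensional V).mem_of_tendsto h1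
    (Filter.Eventually.of_forall fun n => ?_)
  exact V.sum_mem fun k _ => V.smul_mem _ (pow_mem hV hx k)

theorem pow_nonneg' {A : E →L[ℝ] E} (hA : ∀ x y, ⟪A x, y⟫_ℝ = ⟪x, A y⟫_ℝ)
    (hA0 : ∀ x, 0 ≤ ⟪x, A x⟫_ℝ) (k : ℕ) (x : E) : 0 ≤ ⟪x, (A ^ k) x⟫_ℝ := by
  rcases Nat.even_or_odd' k with ⟨j, rfl | rfl⟩
  · rw [two_mul, pow_add]
    change 0 ≤ ⟪x, (A ^ j) ((A ^ j) x)⟫_ℝ
    rw [← pow_symm hA]
    exact real_inner_self_nonneg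
  · rw [show 2 * j + 1 = j + (1 + j) by ring, pow_add, pow_add, pow_one]
    change 0 ≤ ⟪x, (A ^ j) (A ((A ^ j) x))⟫_ℝ
    rw [← pow_symm hA]
    exact hA0 _

/-- `1 + A ≤ exp A` for `A` symmetric and nonnegative. -/
theorem one_add_le_exp {A : E →L[ℝ] E} (hA : ∀ x y, ⟪A x, y⟫_ℝ = ⟪x, A y⟫_ℝ)
    (hA0 : ∀ x, 0 ≤ ⟪x, A x⟫_ℝ) (x : E) :
    ‖x‖ ^ 2 + ⟪x, A x⟫_ℝ ≤ ⟪x, NormedSpace.exp A x⟫_ℝ := by
  have h := sum_le_hasSum (range 2) (fun k _ => mul_nonneg (by positivity)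
    (pow_nonneg' hA hA0 k x)) (hasSum_exp A x x)
  simpa [sum_range_succ, real_inner_self_eq_norm_sq] using h

/-- The series estimate. `∑_{q≥0} s^(q+2)/(q+2)! (12m)^q q! 2B = 2 s^2 B ∑ (12ms)^q/((q+1)(q+2))
≤ 2 s^2 B` because `12 m s ≤ 1/2`. -/
theorem exp_series_bound (X : E →L[ℝ] E) (v : E) (m B s : ℝ) (hm : 0 ≤ m) (hB : 0 ≤ B)
    (h1 : ⟪v, X v⟫_ℝ = 0)
    (h2 : ∀ q : ℕ, ⟪v, (X ^ (q + 2)) v⟫_ℝ ≤ (12 * m) ^ q * (q ! : ℝ) * (2 * B))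
    (hs0 : 0 ≤ s) (hs : 24 * m * s ≤ 1) :
    ⟪v, NormedSpace.exp (s • X) v⟫_ℝ ≤ ‖v‖ ^ 2 + 2 * s ^ 2 * B := by
  have h := hasSum_exp (s • X) v v
  have h3 := (hasSum_nat_add_iff' 2).mpr h
  have h4 : HasSum (fun n : ℕ => s ^ 2 * B * (1 / 2 : ℝ) ^ n) (s ^ 2 * B * 2) :=
    hasSum_geometric_two.mul_left _
  have hpow : ∀ k : ℕ, ⟪v, ((s • X) ^ k) v⟫_ℝ = s ^ k * ⟪v, (X ^ k) v⟫_ℝ := by
    intro k
    rw [smul_pow]
    change ⟪v, s ^ k • (X ^ k) v⟫_ℝ = _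
    rw [real_inner_smul_right]
  have h5 := hasSum_le (fun n => ?_) h3 h4
  · have h6 : ∑ i ∈ range 2, ((i ! : ℝ))⁻¹ * ⟪v, ((s • X) ^ i) v⟫_ℝ = ‖v‖ ^ 2 := by
      simp only [hpow, sum_range_succ, sum_range_zero, pow_one, h1]
      simp
    rw [h6] at h5
    linarith
  · rw [hpow]
    have hf : (0 : ℝ) < ((n + 2) ! : ℝ) := by positivity
    have hfac : (((n + 2) ! : ℕ) : ℝ) = (n + 2) * ((n + 1) * (n ! : ℝ)) := by
      rw [Nat.factorial_succ, Nat.factorial_succ]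
      push_cast
      ring
    have hn0 : (0 : ℝ) ≤ n := Nat.cast_nonneg n
    have hn1 : (0 : ℝ) < (n ! : ℝ) := by positivity
    have h7 : (12 * m * s) ^ n ≤ (1 / 2 : ℝ) ^ n := by
      apply pow_le_pow_left₀ (by positivity)
      linarith
    calc (((n + 2) ! : ℕ) : ℝ)⁻¹ * (s ^ (n + 2) * ⟪v, (X ^ (n + 2)) v⟫_ℝ)
        ≤ (((n + 2) ! : ℕ) : ℝ)⁻¹ * (s ^ (n + 2) * ((12 * m) ^ n * (n ! : ℝ) * (2 * B))) := by
          gcongr
          exact h2 n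
      _ = 2 * (s ^ 2 * B) * ((12 * m * s) ^ n) / ((n + 2) * (n + 1)) := by
          rw [hfac, mul_pow, mul_pow]
          field_simp
          ring
      _ ≤ 2 * (s ^ 2 * B) * ((1 / 2 : ℝ) ^ n) / 2 := by
          have h8 : (2 : ℝ) ≤ (n + 2) * (n + 1) := by nlinarith
          gcongr
      _ = s ^ 2 * B * (1 / 2 : ℝ) ^ n := by ring

/-- The abstract step. `exp(-s(L/2 - X)) = exp(-(s/2) L) exp(s X)`; with
`w = exp(-(s/4) L) v ∈ V`: `⟨w, exp(sX) w⟩ ≤ ‖w‖^2 + 2 s^2 ⟨w, L w⟩ ≤ ⟨w, exp((s/2 - s') L) w⟩`. -/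
theorem exp_step (L X : E →L[ℝ] E) (hL : ∀ x y, ⟪L x, y⟫_ℝ = ⟪x, L y⟫_ℝ)
    (hL0 : ∀ x, 0 ≤ ⟪x, L x⟫_ℝ) (hc : Commute L X) (V : Submodule ℝ E)
    (hV : ∀ x ∈ V, L x ∈ V) (m : ℝ) (hm : 0 ≤ m)
    (h1 : ∀ v ∈ V, ⟪v, X v⟫_ℝ = 0)
    (h2 : ∀ v ∈ V, ∀ q : ℕ,
      ⟪v, (X ^ (q + 2)) v⟫_ℝ ≤ (12 * m) ^ q * (q ! : ℝ) * (2 * ⟪v, L v⟫_ℝ))
    (s s' : ℝ) (hs0 : 0 ≤ s) (hs : 24 * m * s ≤ 1) (hs' : 2 * s ^ 2 ≤ s / 2 - s')
    (v : E) (hv : v ∈ V) :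
    ⟪v, NormedSpace.exp (-s • ((1 / 2 : ℝ) • L - X)) v⟫_ℝ ≤
      ⟪v, NormedSpace.exp (-s' • L) v⟫_ℝ := by
  set w := NormedSpace.exp ((-(s / 4)) • L) v with hw
  have hwV : w ∈ V := exp_mem (fun x hx => V.smul_mem _ (hV x hx)) hv
  have hsL : ∀ c : ℝ, ∀ x y, ⟪(c • L) x, y⟫_ℝ = ⟪x, (c • L) y⟫_ℝ := fun c => smul_symm hL c
  have hcL : ∀ a b : ℝ, Commute (a • L) (b • L) := fun a b =>
    ((Commute.refl L).smul_left a).smul_right b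
  have hcX : ∀ a b : ℝ, Commute (a • L) (b • X) := fun a b => (hc.smul_left a).smul_right b
  have e1 : NormedSpace.exp (-s • ((1 / 2 : ℝ) • L - X)) =
      NormedSpace.exp ((-(s / 4)) • L) * (NormedSpace.exp (s • X) *
        NormedSpace.exp ((-(s / 4)) • L)) := by
    rw [← exp_add_apply ((hcX (-(s / 4)) s).symm), ← exp_add_apply]
    · congr 1
      rw [smul_sub, smul_smul]
      rw [show (-(s / 4)) • L + (s • X + (-(s / 4)) • L) =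
        ((-(s / 4)) • L + (-(s / 4)) • L) + s • X by abel, ← add_smul]
      rw [show -s * (1 / 2) = -(s / 4) + -(s / 4) by ring, neg_smul s X]
      abel
    · exact (hcX _ _).add_right (hcL _ _)
  have e2 : NormedSpace.exp (-s' • L) =
      NormedSpace.exp ((-(s / 4)) • L) * (NormedSpace.exp ((s / 2 - s') • L) *
        NormedSpace.exp ((-(s / 4)) • L)) := by
    rw [← exp_add_apply (hcL _ _), ← exp_add_apply]
    · congr 1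
      rw [← add_smul, ← add_smul]
      congr 1
      ring
    · exact (hcL _ _).add_right (hcL _ _)
  have e3 : ⟪v, NormedSpace.exp (-s • ((1 / 2 : ℝ) • L - X)) v⟫_ℝ =
      ⟪w, NormedSpace.exp (s • X) w⟫_ℝ := by
    rw [e1]
    change ⟪v, NormedSpace.exp ((-(s / 4)) • L) (NormedSpace.exp (s • X) w)⟫_ℝ = _
    rw [← exp_symm (hsL _)]
  have e4 : ⟪v, NormedSpace.exp (-s' • L) v⟫_ℝ =
      ⟪w, NormedSpace.exp ((s / 2 - s') • L) w⟫_ℝ := by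
    rw [e2]
    change ⟪v, NormedSpace.exp ((-(s / 4)) • L)
      (NormedSpace.exp ((s / 2 - s') • L) w)⟫_ℝ = _
    rw [← exp_symm (hsL _)]
  rw [e3, e4]
  have hB := hL0 w
  have h3 := exp_series_bound X w m ⟪w, L w⟫_ℝ s hm hB (h1 w hwV) (h2 w hwV) hs0 hs
  have hs2 : 0 ≤ s / 2 - s' := le_trans (by positivity) hs'
  have h4 := one_add_le_exp (hsL (s / 2 - s')) (fun x => by
    change 0 ≤ ⟪x, (s / 2 - s') • L x⟫_ℝ
    rw [real_inner_smul_right]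
    exact mul_nonneg hs2 (hL0 x)) w
  have h5 : ⟪w, ((s / 2 - s') • L) w⟫_ℝ = (s / 2 - s') * ⟪w, L w⟫_ℝ := by
    change ⟪w, (s / 2 - s') • L w⟫_ℝ = _
    rw [real_inner_smul_right]
  rw [h5] at h4
  have h6 : 2 * s ^ 2 * ⟪w, L w⟫_ℝ ≤ (s / 2 - s') * ⟪w, L w⟫_ℝ :=
    mul_le_mul_of_nonneg_right hs' hB
  linarith

end Vale.Agent.ThorpA
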