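import Vale.Agent.ThorpA.Pair
import Vale.Agent.ThorpA.ExpBound

/-!
# P162 module G4: one pass of the butterfly network against the interchange process

`‖pass d b x‖^2 ≤ ⟨x, exp(-(c_d / 2^d) Lap (blk d b)) x⟩`, `c_d = 1/36 + (1/72) / 2^d`.

## Proof of the step
`m = 2^d`, `x₀ i = b i`, `x₁ i = b (i + m)` (`i : Fin m`), `S₀ = blk d b`, `S₁ = blk d (b (· + m))`,
`S = blk (d+1) b = S₀ ∪ S₁`. `g = layer x`. `V = {v | tr (x₀ y) (x₁ y) v = v for all y}`.
`g ∈ V`, `‖exp(A) ..‖`: layer is a self-adjoint contraction commuting with `Lap S`, so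
`⟨g, exp(-s' Lap S) g⟩ ≤ ⟨x, exp(-s' Lap S) x⟩` (write it as `‖exp(-(s'/2) Lap S) g‖^2 =
‖layer exp(-(s'/2) Lap S) x‖^2`).
`‖P₀ P₁ g‖^2 ≤ ⟨P₁ g, exp(-s L₀) P₁ g⟩ = ‖exp(-(s/2) L₀) P₁ g‖^2 = ‖P₁ exp(-(s/2) L₀) g‖^2
≤ ⟨exp(-(s/2) L₀) g, exp(-s L₁) exp(-(s/2) L₀) g⟩ = ⟨g, exp(-s (L₀ + L₁)) g⟩` with `s = c_d / m`,
and `exp_step` with `X = Dop + Nop` (`L₀ + L₁ = (1/2) L - X` is `pair_identity`) gives
`≤ ⟨g, exp(-s' L) g⟩`, `s' = c_{d+1} / 2^{d+1}`; numerically
`s/2 - s' = (c_d - c_{d+1}) / 2^{d+1} = (1/144) / (2^d 2^{d+1}) ≥ 2 s^2` since `c_d ≤ 1/24`.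
-/

namespace Vale.Agent.ThorpA

open Finset
open scoped InnerProductSpace Nat

noncomputable def cc (d : ℕ) : ℝ := 1 / 36 + (1 / 72) / 2 ^ d

variable {α : Type*} [DecidableEq α] {E : Type*} [NormedAddCommGroup E] [InnerProductSpace ℝ E]
variable {ρ : Equiv.Perm α →* (E →L[ℝ] E)}

theorem blk_succ (d : ℕ) (b : ℕ → α) :
    blk (d + 1) b = blk d b ∪ blk d (fun i => b (i + 2 ^ d)) := by
  unfold blk
  ext a
  simp only [mem_image, mem_range, mem_union]
  constructor
  · rintro ⟨i, hi, rfl⟩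
    by_cases h : i < 2 ^ d
    · exact Or.inl ⟨i, h, rfl⟩
    · right
      refine ⟨i - 2 ^ d, ?_, ?_⟩
      · rw [pow_succ] at hi; omega
      · congr 1; omega
  · rintro (⟨i, hi, rfl⟩ | ⟨i, hi, rfl⟩)
    · exact ⟨i, by rw [pow_succ]; omega, rfl⟩
    · exact ⟨i + 2 ^ d, by rw [pow_succ]; omega, rfl⟩

/-- One factor of the layer. -/
theorem half_norm_le (hρ : IsOrth ρ) (a c : α) (x : E) :
    ‖((1 / 2 : ℝ) • (1 + tr ρ a c)) x‖ ≤ ‖x‖ := by
  have h1 : ((1 / 2 : ℝ) • (1 + tr ρ a c)) x = (1 / 2 : ℝ) • (x + tr ρ a c x) := by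
    simp
  rw [h1, norm_smul]
  have h2 := norm_add_le x (tr ρ a c x)
  rw [tr_norm hρ] at h2
  rw [Real.norm_of_nonneg (by norm_num)]
  linarith

theorem layer_norm_le (hρ : IsOrth ρ) (m : ℕ) (b : ℕ → α) (x : E) :
    ‖layer ρ m b x‖ ≤ ‖x‖ := by
  unfold layer
  generalize List.range m = l
  induction l generalizing x with
  | nil => simp
  | cons i l ih =>
    simp only [List.map_cons, List.prod_cons]
    have e : ∀ (S T : E →L[ℝ] E), (S * T) x = S (T x) := fun _ _ => rfl
    rw [e]
    exact (half_norm_le hρ _ _ _).trans (ih x)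

theorem layer_comm (m : ℕ) (b : ℕ → α) (A : E →L[ℝ] E)
    (hA : ∀ i < m, Commute A (tr ρ (b i) (b (i + m)))) : Commute A (layer ρ m b) := by
  unfold layer
  apply Commute.list_prod_right
  intro x hx
  simp only [List.mem_map, List.mem_range] at hx
  obtain ⟨i, hi, rfl⟩ := hx
  exact ((Commute.one_right A).add_right (hA i hi)).smul_right _

theorem tr_comm_disj {a b c d : α} (h1 : a ≠ c) (h2 : a ≠ d) (h3 : b ≠ c) (h4 : b ≠ d) :
    Commute (tr ρ a b) (tr ρ c d) := by
  unfold Commute SemiconjBy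
  have h := rho_mul_tr (ρ := ρ) (Equiv.swap a b) c d
  rw [Equiv.swap_apply_of_ne_of_ne h1.symm h3.symm,
    Equiv.swap_apply_of_ne_of_ne h2.symm h4.symm] at h
  exact h

theorem layer_fixed (m : ℕ) (b : ℕ → α) (hb : Set.InjOn b (range (2 * m)))
    (i : ℕ) (hi : i < m) (x : E) :
    tr ρ (b i) (b (i + m)) (layer ρ m b x) = layer ρ m b x := by
  have key : tr ρ (b i) (b (i + m)) * layer ρ m b = layer ρ m b := by
    unfold layer
    have hmem : i ∈ List.range m := List.mem_range.mpr hi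
    have hcomm : ∀ j ∈ List.range m,
        tr ρ (b i) (b (i + m)) * ((1 / 2 : ℝ) • (1 + tr ρ (b j) (b (j + m)))) =
        ((1 / 2 : ℝ) • (1 + tr ρ (b j) (b (j + m)))) * tr ρ (b i) (b (i + m)) := by
      intro j hj
      have hj' := List.mem_range.mp hj
      by_cases hij : i = j
      · subst hij
        rw [mul_smul_comm, smul_mul_assoc, mul_add, add_mul, mul_one, one_mul]
      · have hinj : ∀ p q : ℕ, p < 2 * m → q < 2 * m → p ≠ q → b p ≠ b q := by
          intro p q hp hq hpq he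
          exact hpq (hb (by simpa using hp) (by simpa using hq) he)
        have hc : Commute (tr ρ (b i) (b (i + m))) (tr ρ (b j) (b (j + m))) :=
          tr_comm_disj (hinj _ _ (by omega) (by omega) (by omega))
            (hinj _ _ (by omega) (by omega) (by omega))
            (hinj _ _ (by omega) (by omega) (by omega))
            (hinj _ _ (by omega) (by omega) (by omega))
        exact (((Commute.one_right _).add_right hc).smul_right _).eq
    have hfac : tr ρ (b i) (b (i + m)) * ((1 / 2 : ℝ) • (1 + tr ρ (b i) (b (i + m)))) =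
        ((1 / 2 : ℝ) • (1 + tr ρ (b i) (b (i + m)))) := by
      rw [mul_smul_comm, mul_add, mul_one, tr_mul_self, add_comm]
    clear hb hi
    generalize List.range m = l at hmem hcomm
    induction l with
    | nil => simp at hmem
    | cons j l ih =>
      simp only [List.map_cons, List.prod_cons]
      rcases List.mem_cons.mp hmem with rfl | h
      · rw [← mul_assoc, hfac]
      · rw [← mul_assoc, hcomm j (by simp), mul_assoc,
          ih h (fun k hk => hcomm k (by simp [hk]))]
  have := congrArg (fun T : E →L[ℝ] E => T x) key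
  simpa using this

theorem pass_comm (d : ℕ) (b : ℕ → α) (A : E →L[ℝ] E)
    (hA : ∀ i < 2 ^ d, ∀ j < 2 ^ d, Commute A (tr ρ (b i) (b j))) :
    Commute A (pass ρ d b) := by
  induction d generalizing b with
  | zero => exact Commute.one_right A
  | succ d ih =>
    rw [pass_succ]
    refine Commute.mul_right (Commute.mul_right ?_ ?_) ?_
    · exact ih b (fun i hi j hj => hA i (by rw [pow_succ]; omega) j (by rw [pow_succ]; omega))
    · exact ih _ (fun i hi j hj => hA _ (by rw [pow_succ]; omega) _ (by rw [pow_succ]; omega))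
    · exact layer_comm _ _ _ (fun i hi => hA _ (by rw [pow_succ]; omega) _
        (by rw [pow_succ]; omega))


/-- A product of commuting pieces under the norm. -/
theorem step_product [FiniteDimensional ℝ E] (P₀ P₁ A B : E →L[ℝ] E) (s : ℝ)
    (hA : ∀ x y, ⟪A x, y⟫_ℝ = ⟪x, A y⟫_ℝ) (hAB : Commute A B) (hP : Commute A P₁)
    (h0 : ∀ x, ‖P₀ x‖ ^ 2 ≤ ⟪x, NormedSpace.exp (-s • A) x⟫_ℝ)
    (h1 : ∀ x, ‖P₁ x‖ ^ 2 ≤ ⟪x, NormedSpace.exp (-s • B) x⟫_ℝ) (g : E) :
    ‖P₀ (P₁ g)‖ ^ 2 ≤ ⟪g, NormedSpace.exp (-s • (A + B)) g⟫_ℝ := by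
  have hsA : ∀ x y, ⟪(-s • A) x, y⟫_ℝ = ⟪x, (-s • A) y⟫_ℝ := by
    intro x y
    simp only [ContinuousLinearMap.smul_apply, real_inner_smul_left, real_inner_smul_right, hA]
  have hhA : ∀ x y, ⟪((1 / 2 : ℝ) • (-s • A)) x, y⟫_ℝ = ⟪x, ((1 / 2 : ℝ) • (-s • A)) y⟫_ℝ := by
    intro x y
    have e1 : ((1 / 2 : ℝ) • (-s • A)) x = (1 / 2 : ℝ) • ((-s • A) x) := rfl
    have e2 : ((1 / 2 : ℝ) • (-s • A)) y = (1 / 2 : ℝ) • ((-s • A) y) := rfl
    rw [e1, e2, real_inner_smul_left, real_inner_smul_right, hsA]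
  have cP : Commute (NormedSpace.exp ((1 / 2 : ℝ) • (-s • A))) P₁ :=
    ((hP.smul_left _).smul_left _).exp_left
  set R := NormedSpace.exp ((1 / 2 : ℝ) • (-s • A)) with hR
  have e1 : ‖R (P₁ g)‖ ^ 2 = ⟪P₁ g, NormedSpace.exp (-s • A) (P₁ g)⟫_ℝ := norm_exp_half hsA _
  have e2 : R (P₁ g) = P₁ (R g) := by
    have := congrArg (fun T : E →L[ℝ] E => T g) cP.eq
    simpa using this
  have e3 := h0 (P₁ g)
  have e4 := h1 (R g)
  rw [← e1, e2] at e3
  have cAB : Commute ((1 / 2 : ℝ) • (-s • A)) (-s • B) :=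
    ((hAB.smul_left _).smul_left _).smul_right _
  have e5 : NormedSpace.exp (-s • (A + B)) = R * NormedSpace.exp (-s • B) * R := by
    have c2 : Commute ((1 / 2 : ℝ) • (-s • A) + -s • B) ((1 / 2 : ℝ) • (-s • A)) :=
      (Commute.refl _).add_left cAB.symm
    rw [hR, ← exp_add_apply cAB, ← exp_add_apply c2]
    congr 1
    rw [smul_add]
    have : (-s • A) = (1 / 2 : ℝ) • (-s • A) + (1 / 2 : ℝ) • (-s • A) := by
      rw [← add_smul]; norm_num
    nth_rewrite 1 [this]
    abel
  have e6 : ⟪g, NormedSpace.exp (-s • (A + B)) g⟫_ℝ =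
      ⟪R g, NormedSpace.exp (-s • B) (R g)⟫_ℝ := by
    rw [e5]
    have : (R * NormedSpace.exp (-s • B) * R) g = R (NormedSpace.exp (-s • B) (R g)) := rfl
    rw [this, hR, ← exp_symm hhA]
  rw [e6]
  exact e3.trans e4

theorem cc_pos (d : ℕ) : 0 < cc d := by
  unfold cc; positivity

theorem cc_le (d : ℕ) : cc d ≤ 1 / 24 := by
  unfold cc
  have h1 : (1 : ℝ) ≤ 2 ^ d := one_le_pow₀ (by norm_num)
  have : (1 / 72 : ℝ) / 2 ^ d ≤ 1 / 72 := div_le_self (by norm_num) h1
  linarith

theorem cc_step (d : ℕ) :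
    2 * (cc d / 2 ^ d) ^ 2 ≤ (cc d / 2 ^ d) / 2 - cc (d + 1) / 2 ^ (d + 1) := by
  have h1 : (0 : ℝ) < 2 ^ d := by positivity
  have h2 := cc_le d
  have h3 := cc_pos d
  have e : (cc d / 2 ^ d) / 2 - cc (d + 1) / 2 ^ (d + 1) = (1 / 288) / (2 ^ d) ^ 2 := by
    unfold cc
    rw [pow_succ]
    field_simp
    ring
  rw [e, div_pow, mul_div_assoc']
  apply div_le_div_of_nonneg_right _ (by positivity)
  nlinarith

theorem image_blk (d : ℕ) (b : ℕ → α) :
    (univ : Finset (Fin (2 ^ d))).image (fun i : Fin (2 ^ d) => b i) = blk d b := by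
  unfold blk
  ext a
  simp only [mem_image, mem_univ, true_and, mem_range]
  constructor
  · rintro ⟨i, rfl⟩
    exact ⟨i, i.2, rfl⟩
  · rintro ⟨i, hi, rfl⟩
    exact ⟨⟨i, hi⟩, rfl⟩

theorem injOn_left {d : ℕ} {b : ℕ → α} (hb : Set.InjOn b (range (2 ^ (d + 1)))) :
    Set.InjOn b (range (2 ^ d)) := by
  intro i hi j hj h
  simp only [coe_range, Set.mem_Iio] at hi hj
  exact hb (by simp only [coe_range, Set.mem_Iio]; rw [pow_succ]; omega)
    (by simp only [coe_range, Set.mem_Iio]; rw [pow_succ]; omega) h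

theorem injOn_right {d : ℕ} {b : ℕ → α} (hb : Set.InjOn b (range (2 ^ (d + 1)))) :
    Set.InjOn (fun i => b (i + 2 ^ d)) (range (2 ^ d)) := by
  intro i hi j hj h
  simp only [coe_range, Set.mem_Iio] at hi hj
  have := hb (by simp only [coe_range, Set.mem_Iio]; rw [pow_succ]; omega)
    (by simp only [coe_range, Set.mem_Iio]; rw [pow_succ]; omega) h
  omega

theorem blk_disj {d : ℕ} {b : ℕ → α} (hb : Set.InjOn b (range (2 ^ (d + 1)))) :
    Disjoint (blk d b) (blk d (fun i => b (i + 2 ^ d))) := by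
  rw [Finset.disjoint_left]
  intro a h1 h2
  unfold blk at h1 h2
  simp only [mem_image, mem_range] at h1 h2
  obtain ⟨i, hi, rfl⟩ := h1
  obtain ⟨j, hj, h⟩ := h2
  have := hb (by simp only [coe_range, Set.mem_Iio]; rw [pow_succ]; omega)
    (by simp only [coe_range, Set.mem_Iio]; rw [pow_succ]; omega) h
  omega

/-- **Main inequality.** -/
theorem pass_le [FiniteDimensional ℝ E] (hρ : IsOrth ρ) (d : ℕ) (b : ℕ → α)
    (hb : Set.InjOn b (range (2 ^ d))) (x : E) :
    ‖pass ρ d b x‖ ^ 2 ≤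
      ⟪x, NormedSpace.exp (-(cc d / 2 ^ d) • Lap ρ (blk d b)) x⟫_ℝ := by
  induction d generalizing b x with
  | zero =>
    have h1 : Lap ρ (blk 0 b) = 0 := by
      unfold Lap blk
      simp
    rw [h1, smul_zero, NormedSpace.exp_zero]
    simp [pass_zero]
  | succ d ih =>
    set b' : ℕ → α := fun i => b (i + 2 ^ d) with hb'
    set L := Lap ρ (blk (d + 1) b) with hL
    set L₀ := Lap ρ (blk d b) with hL0
    set L₁ := Lap ρ (blk d b') with hL1
    set s := cc d / 2 ^ d with hs
    set g := layer ρ (2 ^ d) b x with hg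
    set x₀ : Fin (2 ^ d) → α := fun i => b i with hx0
    set x₁ : Fin (2 ^ d) → α := fun i => b (i + 2 ^ d) with hx1
    have him0 : univ.image x₀ = blk d b := image_blk d b
    have him1 : univ.image x₁ = blk d b' := image_blk d b'
    have himS : univ.image x₀ ∪ univ.image x₁ = blk (d + 1) b := by
      rw [him0, him1, blk_succ]
    have inj0 : Function.Injective x₀ := by
      intro i j h
      apply Fin.ext
      exact injOn_left hb (by simp) (by simp) h
    have inj1 : Function.Injective x₁ := by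
      intro i j h
      apply Fin.ext
      exact injOn_right hb (by simp) (by simp) h
    have inj01 : ∀ y z, x₀ y ≠ x₁ z := by
      intro y z h
      have hy := y.2
      have hz := z.2
      have := hb (by simp only [coe_range, Set.mem_Iio]; rw [pow_succ]; omega)
        (by simp only [coe_range, Set.mem_Iio]; rw [pow_succ]; omega) h
      omega
    set X := Dop (dOp ρ x₀ x₁) + Nop (nOp ρ x₀ x₁) with hX
    have hid : L₀ + L₁ = (1 / 2 : ℝ) • L - X := by
      have := pair_identity (ρ := ρ) inj0 inj1 inj01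
      rw [himS, him0, him1] at this
      exact this
    have hcX : Commute L X := by
      have := pair_comm (ρ := ρ) x₀ x₁
      rw [himS] at this
      exact this
    -- the two half passes
    have hstep : ‖pass ρ d b (pass ρ d b' g)‖ ^ 2 ≤
        ⟪g, NormedSpace.exp (-s • (L₀ + L₁)) g⟫_ℝ := by
      refine step_product _ _ L₀ L₁ s (Lap_symm hρ _) (Lap_comm_disj (blk_disj hb)) ?_
        (fun y => ?_) (fun y => ?_) g
      · apply pass_comm
        intro i hi j hj
        have hd := blk_disj hb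
        apply Commute.symm
        have hns : ∀ k < 2 ^ d, b' k ∉ blk d b := by
          intro k hk hmem
          exact (Finset.disjoint_left.mp hd hmem)
            (mem_image.mpr ⟨k, mem_range.mpr hk, rfl⟩)
        apply Lap_comm_rho
        intro a
        by_cases ha : a = b' i
        · subst ha
          rw [Equiv.swap_apply_left]
          exact ⟨fun h => absurd h (hns i hi), fun h => absurd h (hns j hj)⟩
        · by_cases ha2 : a = b' j
          · subst ha2
            rw [Equiv.swap_apply_right]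
            exact ⟨fun h => absurd h (hns j hj), fun h => absurd h (hns i hi)⟩
          · rw [Equiv.swap_apply_of_ne_of_ne ha ha2]
      · exact ih b (injOn_left hb) y
      · exact ih b' (injOn_right hb) y
    rw [hid] at hstep
    -- the subspace of vectors fixed by the switches
    set V : Submodule ℝ E :=
      { carrier := {v | ∀ y, tr ρ (x₀ y) (x₁ y) v = v}
        add_mem' := by
          intro u v hu hv y
          rw [map_add, hu y, hv y]
        zero_mem' := by
          intro y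
          exact map_zero _
        smul_mem' := by
          intro c v hv y
          rw [map_smul, hv y] } with hV
    have hgV : g ∈ V := by
      intro y
      exact layer_fixed (2 ^ d) b (by rw [pow_succ, mul_comm] at hb; exact hb) y y.2 x
    have memS0 : ∀ y, x₀ y ∈ blk (d + 1) b := by
      intro y
      rw [← himS]
      exact mem_union_left _ (mem_image_of_mem _ (mem_univ y))
    have memS1 : ∀ y, x₁ y ∈ blk (d + 1) b := by
      intro y
      rw [← himS]
      exact mem_union_right _ (mem_image_of_mem _ (mem_univ y))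
    have hVL : ∀ v ∈ V, L v ∈ V := by
      intro v hv y
      have hc : Commute (tr ρ (x₀ y) (x₁ y)) L := Lap_comm_tr (memS0 y) (memS1 y)
      have h1 := congrArg (fun T : E →L[ℝ] E => T v) hc.eq
      have h2 : tr ρ (x₀ y) (x₁ y) (L v) = L (tr ρ (x₀ y) (x₁ y) v) := by simpa using h1
      rw [h2, hv y]
    have hn0 : ∀ v ∈ V, ∀ y, nOp ρ x₀ x₁ y v = 0 := by
      intro v hv y
      unfold nOp
      simp only [ContinuousLinearMap.smul_apply, ContinuousLinearMap.sub_apply,
        ContinuousLinearMap.one_apply]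
      rw [hv y, sub_self, smul_zero]
    have hG := pair_graded hρ inj0 inj1 inj01
    have hmain : ⟪g, NormedSpace.exp (-s • ((1 / 2 : ℝ) • L - X)) g⟫_ℝ ≤
        ⟪g, NormedSpace.exp (-(cc (d + 1) / 2 ^ (d + 1)) • L) g⟫_ℝ := by
      refine exp_step L X (Lap_symm hρ _) (Lap_nonneg hρ _) hcX V hVL (2 ^ d) (by positivity)
        (fun v hv => graded_first hG v (hn0 v hv)) ?_ s _
        (div_nonneg (cc_pos d).le (by positivity)) ?_ (cc_step d) g hgV
      · intro v hv q
        have h1 := graded_moment hG v (hn0 v hv) q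
        have h2 := pair_D_le hρ inj0 inj1 inj01 v hv
        rw [himS] at h2
        simp only [Fintype.card_fin, Nat.cast_pow, Nat.cast_ofNat] at h1
        exact h1.trans (mul_le_mul_of_nonneg_left h2 (by positivity))
      · rw [hs]
        have h3 := cc_le d
        have h4 : (0 : ℝ) < 2 ^ d := by positivity
        have : 24 * (2 : ℝ) ^ d * (cc d / 2 ^ d) = 24 * cc d := by
          field_simp
        rw [this]
        linarith
    -- remove the layer
    have hlast : ⟪g, NormedSpace.exp (-(cc (d + 1) / 2 ^ (d + 1)) • L) g⟫_ℝ ≤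
        ⟪x, NormedSpace.exp (-(cc (d + 1) / 2 ^ (d + 1)) • L) x⟫_ℝ := by
      set t := cc (d + 1) / 2 ^ (d + 1)
      have hsym : ∀ u v, ⟪(-t • L) u, v⟫_ℝ = ⟪u, (-t • L) v⟫_ℝ := by
        intro u v
        simp only [ContinuousLinearMap.smul_apply, real_inner_smul_left, real_inner_smul_right]
        rw [Lap_symm hρ]
      rw [← norm_exp_half hsym, ← norm_exp_half hsym]
      have hc : Commute L (layer ρ (2 ^ d) b) := by
        apply layer_comm
        intro i hi
        have := (Lap_comm_tr (ρ := ρ) (memS0 ⟨i, hi⟩) (memS1 ⟨i, hi⟩)).symm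
        exact this
      have hc2 : Commute (NormedSpace.exp ((1 / 2 : ℝ) • (-t • L))) (layer ρ (2 ^ d) b) :=
        ((hc.smul_left _).smul_left _).exp_left
      have e := congrArg (fun T : E →L[ℝ] E => T x) hc2.eq
      have e' : NormedSpace.exp ((1 / 2 : ℝ) • (-t • L)) g =
          layer ρ (2 ^ d) b (NormedSpace.exp ((1 / 2 : ℝ) • (-t • L)) x) := by
        simpa using e
      rw [e']
      gcongr
      exact layer_norm_le hρ _ _ _
    have hfin : pass ρ (d + 1) b x = pass ρ d b (pass ρ d b' g) := by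
      rw [hg]
      rfl
    rw [hfin]
    exact hstep.trans (hmain.trans hlast)

/-- On an eigenvector. -/
theorem pass_eig [FiniteDimensional ℝ E] (hρ : IsOrth ρ) (d : ℕ) (b : ℕ → α)
    (hb : Set.InjOn b (range (2 ^ d))) (x : E) (l : ℝ)
    (hx : Lap ρ (blk d b) x = l • x) :
    ‖pass ρ d b x‖ ^ 2 ≤ Real.exp (-(l / (36 * 2 ^ d))) * ‖x‖ ^ 2 := by
  have h1 := pass_le hρ d b hb x
  have h2 : (-(cc d / 2 ^ d) • Lap ρ (blk d b)) x = (-(cc d / 2 ^ d) * l) • x := by
    rw [ContinuousLinearMap.smul_apply, hx, smul_smul]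
  rw [exp_eig h2, real_inner_smul_right, real_inner_self_eq_norm_sq] at h1
  by_cases hx0 : x = 0
  · subst hx0
    simp
  have hl : 0 ≤ l := by
    have h3 := Lap_nonneg hρ (blk d b) x
    rw [hx, real_inner_smul_right, real_inner_self_eq_norm_sq] at h3
    have : 0 < ‖x‖ ^ 2 := by positivity
    by_contra hneg
    push_neg at hneg
    nlinarith
  refine h1.trans (mul_le_mul_of_nonneg_right ?_ (by positivity))
  apply Real.exp_le_exp.mpr
  have h4 : (1 : ℝ) / 36 ≤ cc d := by
    unfold cc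
    have : (0 : ℝ) < (1 / 72) / 2 ^ d := by positivity
    linarith
  have h5 : (0 : ℝ) < 2 ^ d := by positivity
  have h6 : l / (36 * 2 ^ d) = (1 / 36) / 2 ^ d * l := by field_simp
  rw [h6, neg_mul]
  apply neg_le_neg
  apply mul_le_mul_of_nonneg_right _ hl
  exact div_le_div_of_nonneg_right h4 h5.le

end Vale.Agent.ThorpA
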