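import Vale.Agent.ThorpA.BridgeB
import Vale.Agent.ThorpA.Count
import Vale.Agent.ThorpA.Induct

/-!
# P162 module G7: `d` Thorp shuffles of `2^d` cards = one pass of the butterfly network

`opOf μ = ∑_σ μ σ • reg σ` (left convolution by `μ`).

## Proof of `opOf_thorp`
`m = 2^(d-1)`, `n = 2 m`. Let `π` be the permutation `i ↦ 2 i`, `m + i ↦ 2 i + 1` (`i < m`).
The permutation of the coin vector `c` is `π * ∏_{i : c i} swap i (m+i)`, so
`opOf thorpLaw = reg π * layer m id` (`thorp_op`).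
Hence `(opOf thorpLaw)^j = E_0 E_1 ... E_{j-1} reg (π^j)` where `E_r = reg (π^(r+1)) * layer m id *
reg (π^(r+1))⁻¹` is the layer of the pairs `(π^(r+1) i, π^(r+1) (i+m))`, `i < m`.
`π^j (a 2^(d-j) + k) = k 2^j + a` for `a < 2^j`, `k < 2^(d-j)` (rotation of the binary digits;
induction on `j`), so `π^d = 1` and `E_r` is the layer of the pairs
`(k 2^(r+1) + a, k 2^(r+1) + a + 2^r)`, `k < 2^(d-r-1)`, `a < 2^r`, i.e. bit `r`.
-/

namespace Vale.Agent.ThorpA

open Finset
open scoped InnerProductSpace Nat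

variable {E : Type*} [NormedAddCommGroup E] [InnerProductSpace ℝ E]

theorem half_two_pow (e : ℕ) : 2 ^ (e + 1) / 2 = 2 ^ e := by
  rw [pow_succ]; exact Nat.mul_div_cancel _ (by norm_num)

/-- Powers of the perfect shuffle rotate the binary digits. -/
theorem rot_pow (e : ℕ) (hn : 2 * (2 ^ (e + 1) / 2) = 2 ^ (e + 1)) (j : ℕ) (hj : j ≤ e + 1)
    (i : ℕ) (hi : i < 2 ^ (e + 1)) :
    (rot (2 ^ (e + 1)) hn ^ j) (posn (2 ^ (e + 1)) i) =
      posn (2 ^ (e + 1)) ((i % 2 ^ (e + 1 - j)) * 2 ^ j + i / 2 ^ (e + 1 - j)) := by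
  induction j with
  | zero =>
    simp only [pow_zero, Equiv.Perm.one_apply, mul_one, Nat.sub_zero]
    rw [Nat.mod_eq_of_lt hi, Nat.div_eq_of_lt hi, add_zero]
  | succ j ih =>
    rw [pow_succ' (rot (2 ^ (e + 1)) hn) j, Equiv.Perm.mul_apply, ih (by omega)]
    obtain ⟨f, hf⟩ : ∃ f, e = j + f := ⟨e - j, by omega⟩
    have e1 : e + 1 - j = f + 1 := by omega
    have e2 : e + 1 - (j + 1) = f := by omega
    rw [e1, e2]
    have hN : 0 < 2 ^ f := by positivity
    have hJ : 0 < 2 ^ j := by positivity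
    have hpow : 2 ^ e = 2 ^ f * 2 ^ j := by rw [hf, pow_add, mul_comm]
    have hpow1 : 2 ^ (e + 1) = 2 * (2 ^ f * 2 ^ j) := by rw [pow_succ, hpow]; ring
    set q := i / 2 ^ (f + 1) with hq
    set u := i % 2 ^ (f + 1) with hu
    have hi2 : i = 2 ^ (f + 1) * q + u := (Nat.div_add_mod i _).symm
    have hu2 : u < 2 * 2 ^ f := by
      have := Nat.mod_lt i (show 0 < 2 ^ (f + 1) by positivity)
      rw [pow_succ] at this
      omega
    have hq2 : q < 2 ^ j := by
      rw [hq, Nat.div_lt_iff_lt_mul (by positivity)]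
      calc i < 2 ^ (e + 1) := hi
        _ = 2 ^ j * 2 ^ (f + 1) := by rw [hpow1, pow_succ]; ring
    have hhalf := half_two_pow e
    by_cases hlt : u < 2 ^ f
    · have h1 : i / 2 ^ f = 2 * q := by
        have : i = u + 2 ^ f * (2 * q) := by rw [hi2, pow_succ]; ring
        rw [this, Nat.add_mul_div_left _ _ hN, Nat.div_eq_of_lt hlt, zero_add]
      have h2 : i % 2 ^ f = u := by
        have : i = u + 2 ^ f * (2 * q) := by rw [hi2, pow_succ]; ring
        rw [this, Nat.add_mul_mod_self_left, Nat.mod_eq_of_lt hlt]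
      have hb : u * 2 ^ j + q < 2 ^ (e + 1) / 2 := by
        rw [hhalf, hpow]
        calc u * 2 ^ j + q < u * 2 ^ j + 2 ^ j := by omega
          _ = (u + 1) * 2 ^ j := by ring
          _ ≤ 2 ^ f * 2 ^ j := Nat.mul_le_mul_right _ hlt
      rw [rot_low hn hb, h1, h2]
      congr 1
      rw [pow_succ]
      ring
    · obtain ⟨v, hv⟩ : ∃ v, u = 2 ^ f + v := ⟨u - 2 ^ f, by omega⟩
      have hv2 : v < 2 ^ f := by omega
      have h1 : i / 2 ^ f = 2 * q + 1 := by
        have : i = v + 2 ^ f * (2 * q + 1) := by rw [hi2, hv, pow_succ]; ring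
        rw [this, Nat.add_mul_div_left _ _ hN, Nat.div_eq_of_lt hv2, zero_add]
      have h2 : i % 2 ^ f = v := by
        have : i = v + 2 ^ f * (2 * q + 1) := by rw [hi2, hv, pow_succ]; ring
        rw [this, Nat.add_mul_mod_self_left, Nat.mod_eq_of_lt hv2]
      have hb : v * 2 ^ j + q < 2 ^ (e + 1) / 2 := by
        rw [hhalf, hpow]
        calc v * 2 ^ j + q < v * 2 ^ j + 2 ^ j := by omega
          _ = (v + 1) * 2 ^ j := by ring
          _ ≤ 2 ^ f * 2 ^ j := Nat.mul_le_mul_right _ hv2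
      have h3 : u * 2 ^ j + q = 2 ^ (e + 1) / 2 + (v * 2 ^ j + q) := by
        rw [hhalf, hpow, hv]; ring
      rw [h3, rot_high hn hb, h1, h2]
      congr 1
      rw [pow_succ]
      ring

theorem rot_pow_full (e : ℕ) (hn : 2 * (2 ^ (e + 1) / 2) = 2 ^ (e + 1)) :
    rot (2 ^ (e + 1)) hn ^ (e + 1) = 1 := by
  apply Equiv.ext
  intro x
  have h := rot_pow e hn (e + 1) le_rfl x x.2
  rw [posn_coe] at h
  rw [h, Nat.sub_self, pow_zero, Nat.mod_one, zero_mul, zero_add, Nat.div_one, posn_coe]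
  rfl

theorem thorp_pow_layers {n : ℕ} [NeZero n] (ρ : Equiv.Perm (Fin n) →* (E →L[ℝ] E))
    (hn : 2 * (n / 2) = n) (j : ℕ) :
    (opG ρ (thorpLaw n)) ^ j = ((List.range j).map (fun r => layer ρ (n / 2)
      (fun i => (rot n hn ^ (r + 1)) (posn n i)))).prod * ρ (rot n hn ^ j) := by
  induction j with
  | zero => simp
  | succ j ih =>
    rw [pow_succ, ih, thorp_op ρ hn, List.range_succ, List.map_append, List.prod_append]
    simp only [List.map_cons, List.map_nil, List.prod_singleton]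
    have h : ρ (rot n hn ^ j) * (ρ (rot n hn) * layer ρ (n / 2) (posn n)) =
        layer ρ (n / 2) (fun i => (rot n hn ^ (j + 1)) (posn n i)) *
          ρ (rot n hn ^ (j + 1)) := by
      rw [← mul_assoc, ← map_mul, ← pow_succ, rho_mul_layer]
    rw [mul_assoc, h, mul_assoc]

theorem posn_injOn (n : ℕ) [NeZero n] : Set.InjOn (posn n) (range n) := by
  intro i hi j hj h
  exact posn_inj (by simpa using hi) (by simpa using hj) h

/-- The layer number `r` is the bit layer `r`. -/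
theorem layer_rot (e : ℕ) (ρ : Equiv.Perm (Fin (2 ^ (e + 1))) →* (E →L[ℝ] E))
    (hn : 2 * (2 ^ (e + 1) / 2) = 2 ^ (e + 1)) (r : ℕ) (hr : r < e + 1) :
    layer ρ (2 ^ (e + 1) / 2) (fun i => (rot (2 ^ (e + 1)) hn ^ (r + 1)) (posn (2 ^ (e + 1)) i)) =
      (bitList ρ r (e + 1) (posn (2 ^ (e + 1)))).prod := by
  rw [layer_eq]
  apply prod_eq_of_mem_iff
  · intro x hx y hy
    exact (bitList_comm hr (posn_injOn _) hx hy).eq
  · intro x hx
    exact bitList_idem hx
  · obtain ⟨f, hf⟩ : ∃ f, e = r + f := ⟨e - r, by omega⟩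
    have e1 : e + 1 - (r + 1) = f := by omega
    have hN : 0 < 2 ^ f := by positivity
    have hJ : 0 < 2 ^ r := by positivity
    have hpow : 2 ^ e = 2 ^ r * 2 ^ f := by rw [hf, pow_add]
    have hpow1 : 2 ^ (e + 1) = 2 * (2 ^ r * 2 ^ f) := by rw [pow_succ, hpow]; ring
    have hhalf := half_two_pow e
    have main : ∀ a k, a < 2 ^ r → k < 2 ^ f →
        (rot (2 ^ (e + 1)) hn ^ (r + 1)) (posn (2 ^ (e + 1)) (a * 2 ^ f + k)) =
          posn (2 ^ (e + 1)) (k * 2 ^ (r + 1) + a) ∧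
        (rot (2 ^ (e + 1)) hn ^ (r + 1)) (posn (2 ^ (e + 1)) (a * 2 ^ f + k + 2 ^ e)) =
          posn (2 ^ (e + 1)) (k * 2 ^ (r + 1) + a + 2 ^ r) := by
      intro a k ha hk
      have hlt : a * 2 ^ f + k < 2 ^ e := by
        rw [hpow]
        calc a * 2 ^ f + k < a * 2 ^ f + 2 ^ f := by omega
          _ = (a + 1) * 2 ^ f := by ring
          _ ≤ 2 ^ r * 2 ^ f := Nat.mul_le_mul_right _ ha
      have hp : 2 ^ (e + 1) = 2 ^ e + 2 ^ e := by rw [pow_succ]; ring
      constructor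
      · rw [rot_pow e hn (r + 1) (by omega) _ (by omega), e1]
        have h1 : (a * 2 ^ f + k) % 2 ^ f = k := by
          rw [add_comm, Nat.add_mul_mod_self_right, Nat.mod_eq_of_lt hk]
        have h2 : (a * 2 ^ f + k) / 2 ^ f = a := by
          rw [add_comm, Nat.add_mul_div_right _ _ hN, Nat.div_eq_of_lt hk, zero_add]
        rw [h1, h2]
      · rw [rot_pow e hn (r + 1) (by omega) _ (by omega), e1]
        have h0 : a * 2 ^ f + k + 2 ^ e = k + (a + 2 ^ r) * 2 ^ f := by rw [hpow]; ring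
        have h1 : (a * 2 ^ f + k + 2 ^ e) % 2 ^ f = k := by
          rw [h0, Nat.add_mul_mod_self_right, Nat.mod_eq_of_lt hk]
        have h2 : (a * 2 ^ f + k + 2 ^ e) / 2 ^ f = a + 2 ^ r := by
          rw [h0, Nat.add_mul_div_right _ _ hN, Nat.div_eq_of_lt hk, zero_add]
        rw [h1, h2, add_assoc]
    intro T
    rw [mem_bitList]
    simp only [List.mem_map, List.mem_range]
    rw [hhalf]
    constructor
    · rintro ⟨i, hi, rfl⟩
      set a := i / 2 ^ f with ha
      set k := i % 2 ^ f with hk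
      have hi2 : i = a * 2 ^ f + k := by
        have := Nat.div_add_mod i (2 ^ f)
        rw [mul_comm] at this
        exact this.symm
      have ha2 : a < 2 ^ r := by
        rw [ha, Nat.div_lt_iff_lt_mul hN, ← hpow]; exact hi
      have hk2 : k < 2 ^ f := Nat.mod_lt _ hN
      obtain ⟨m1, m2⟩ := main a k ha2 hk2
      refine ⟨k * 2 ^ (r + 1) + a, ?_, ?_, ?_⟩
      · rw [hpow1]
        calc k * 2 ^ (r + 1) + a < k * 2 ^ (r + 1) + 2 ^ (r + 1) := by
              rw [pow_succ]; omega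
          _ = (k + 1) * 2 ^ (r + 1) := by ring
          _ ≤ 2 ^ f * 2 ^ (r + 1) := Nat.mul_le_mul_right _ hk2
          _ = 2 * (2 ^ r * 2 ^ f) := by rw [pow_succ]; ring
      · have : k * 2 ^ (r + 1) + a = a + 2 ^ r * (2 * k) := by rw [pow_succ]; ring
        rw [this, Nat.add_mul_div_left _ _ hJ, Nat.div_eq_of_lt ha2, zero_add]
        exact Nat.mul_mod_right 2 k
      · rw [hi2, m1, m2]
    · rintro ⟨x, hx, hx2, rfl⟩
      have hx3 := bit_lt hr hx hx2
      set k := x / 2 ^ (r + 1) with hk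
      set a := x % 2 ^ (r + 1) with ha
      have hx4 : x = k * 2 ^ (r + 1) + a := by
        have := Nat.div_add_mod x (2 ^ (r + 1))
        rw [mul_comm] at this
        exact this.symm
      have ha2 : a < 2 ^ r := by
        have ha3 : a < 2 ^ r * 2 := by
          have := Nat.mod_lt x (show 0 < 2 ^ (r + 1) by positivity)
          rw [pow_succ] at this
          exact this
        by_contra hcon
        have hc2 : 2 ^ r ≤ a := by omega
        obtain ⟨v, hv⟩ : ∃ v, a = 2 ^ r + v := ⟨a - 2 ^ r, by omega⟩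
        have hv2 : v < 2 ^ r := by omega
        have hx5 : x = v + 2 ^ r * (2 * k + 1) := by rw [hx4, hv, pow_succ]; ring
        rw [hx5, Nat.add_mul_div_left _ _ hJ, Nat.div_eq_of_lt hv2, zero_add] at hx2
        omega
      have hk2 : k < 2 ^ f := by
        rw [hk, Nat.div_lt_iff_lt_mul (by positivity)]
        calc x < 2 ^ (e + 1) := hx
          _ = 2 ^ f * 2 ^ (r + 1) := by rw [hpow1, pow_succ]; ring
      obtain ⟨m1, m2⟩ := main a k ha2 hk2
      refine ⟨a * 2 ^ f + k, ?_, ?_⟩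
      · rw [hpow]
        calc a * 2 ^ f + k < a * 2 ^ f + 2 ^ f := by omega
          _ = (a + 1) * 2 ^ f := by ring
          _ ≤ 2 ^ r * 2 ^ f := Nat.mul_le_mul_right _ ha2
      · rw [m1, m2, ← hx4]

/-- `d` Thorp shuffles of `2^d` cards make one pass, in every representation. -/
theorem opG_thorp (d : ℕ) (hd : 1 ≤ d) (ρ : Equiv.Perm (Fin (2 ^ d)) →* (E →L[ℝ] E)) :
    opG ρ (thorpLaw (2 ^ d)) ^ d = pass ρ d (posn (2 ^ d)) := by
  obtain ⟨e, rfl⟩ : ∃ e, d = e + 1 := ⟨d - 1, by omega⟩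
  have hn : 2 * (2 ^ (e + 1) / 2) = 2 ^ (e + 1) := by rw [half_two_pow, pow_succ]; ring
  rw [thorp_pow_layers ρ hn, rot_pow_full, map_one, mul_one, pass_eq_bits _ _ (posn_injOn _)]
  congr 1
  apply List.map_congr_left
  intro r hr
  rw [List.mem_range] at hr
  exact layer_rot e ρ hn r hr

/-- Left convolution by `μ`. -/
noncomputable def opOf {n : ℕ} (μ : Equiv.Perm (Fin n) → ℝ) :
    EuclideanSpace ℝ (Equiv.Perm (Fin n)) →L[ℝ] EuclideanSpace ℝ (Equiv.Perm (Fin n)) :=
  opG (reg n) μ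

theorem opOf_conv {n : ℕ} (μ ν : Equiv.Perm (Fin n) → ℝ) :
    opOf (conv μ ν) = opOf μ * opOf ν := opG_conv (reg n) μ ν

theorem opOf_thorpPow (n t : ℕ) : opOf (thorpPow n t) = opOf (thorpLaw n) ^ t :=
  opG_thorpPow (reg n) t

/-- Positions of the whole deck. -/
def pos (d : ℕ) : ℕ → Fin (2 ^ d) := fun i => Fin.ofNat (2 ^ d) i

theorem pos_injOn (d : ℕ) : Set.InjOn (pos d) (range (2 ^ d)) := posn_injOn (2 ^ d)

theorem blk_pos (d : ℕ) : blk d (pos d) = univ := by
  ext x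
  unfold blk
  simp only [mem_image, mem_range, mem_univ, iff_true]
  exact ⟨x, x.2, posn_coe x⟩

/-- `d` shuffles make one pass. -/
theorem opOf_thorp (d : ℕ) (hd : 1 ≤ d) :
    opOf (thorpLaw (2 ^ d)) ^ d = pass (reg (2 ^ d)) d (pos d) :=
  opG_thorp d hd (reg (2 ^ d))

end Vale.Agent.ThorpA
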