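import Vale.Agent.ThorpA.Pair

/-!
# P162 module G7a: the pass as a product of bit layers
-/

namespace Vale.Agent.ThorpA

open Finset
open scoped InnerProductSpace Nat

/-! ### Lists of commuting idempotents -/

section Lists

variable {M : Type*} [Monoid M]

theorem mul_prod_of_mem {l : List M} (hc : ∀ x ∈ l, ∀ y ∈ l, x * y = y * x)
    (hi : ∀ x ∈ l, x * x = x) {x : M} (hx : x ∈ l) : x * l.prod = l.prod := by
  induction l with
  | nil => simp at hx
  | cons y l ih =>
    rw [List.prod_cons]
    by_cases hxl : x ∈ l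
    · rw [← mul_assoc, hc x hx y (by simp), mul_assoc,
        ih (fun a ha b hb => hc a (by simp [ha]) b (by simp [hb]))
          (fun a ha => hi a (by simp [ha])) hxl]
    · have : x = y := by
        rcases List.mem_cons.mp hx with h | h
        · exact h
        · exact absurd h hxl
      subst this
      rw [← mul_assoc, hi x (by simp)]

theorem prod_mul_eq_of_subset {l l' : List M} (hc : ∀ x ∈ l', ∀ y ∈ l', x * y = y * x)
    (hi : ∀ x ∈ l', x * x = x) (hs : ∀ x ∈ l, x ∈ l') : l.prod * l'.prod = l'.prod := by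
  induction l with
  | nil => simp
  | cons y l ih =>
    rw [List.prod_cons, mul_assoc, ih (fun x hx => hs x (by simp [hx])),
      mul_prod_of_mem hc hi (hs y (by simp))]

/-- Products of commuting idempotents depend only on the set of factors. -/
theorem prod_eq_of_mem_iff {l l' : List M} (hc : ∀ x ∈ l', ∀ y ∈ l', x * y = y * x)
    (hi : ∀ x ∈ l', x * x = x) (hs : ∀ x, x ∈ l ↔ x ∈ l') : l.prod = l'.prod := by
  have h1 : l.prod * l'.prod = l'.prod := prod_mul_eq_of_subset hc hi fun x hx => (hs x).mp hx
  have h2 : l'.prod * l.prod = l.prod :=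
    prod_mul_eq_of_subset (fun x hx y hy => hc x ((hs x).mp hx) y ((hs y).mp hy))
      (fun x hx => hi x ((hs x).mp hx)) fun x hx => (hs x).mpr hx
  have h3 : Commute l.prod l'.prod := by
    apply Commute.list_prod_right
    intro y hy
    apply Commute.list_prod_left
    intro x hx
    exact hc x ((hs x).mp hx) y hy
  rw [← h2, ← h3.eq, h1]

theorem prod_map_mul {l : List ℕ} {f g : ℕ → M}
    (h : ∀ r ∈ l, ∀ s ∈ l, Commute (f r) (g s)) :
    (l.map f).prod * (l.map g).prod = (l.map (fun r => f r * g r)).prod := by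
  induction l with
  | nil => simp
  | cons a l ih =>
    simp only [List.map_cons, List.prod_cons]
    rw [← ih (fun r hr s hs => h r (by simp [hr]) s (by simp [hs]))]
    have hc : Commute (l.map f).prod (g a) := by
      apply Commute.list_prod_left
      intro x hx
      rw [List.mem_map] at hx
      obtain ⟨r, hr, rfl⟩ := hx
      exact h r (by simp [hr]) a (by simp)
    calc f a * (l.map f).prod * (g a * (l.map g).prod)
        = f a * ((l.map f).prod * g a) * (l.map g).prod := by simp only [mul_assoc]
      _ = f a * (g a * (l.map f).prod) * (l.map g).prod := by rw [hc.eq]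
      _ = f a * g a * ((l.map f).prod * (l.map g).prod) := by simp only [mul_assoc]

end Lists

variable {α : Type*} [DecidableEq α] {E : Type*} [NormedAddCommGroup E] [InnerProductSpace ℝ E]
variable {ρ : Equiv.Perm α →* (E →L[ℝ] E)}

/-- One switch. -/
noncomputable def half (ρ : Equiv.Perm α →* (E →L[ℝ] E)) (a c : α) : E →L[ℝ] E :=
  (1 / 2 : ℝ) • (1 + tr ρ a c)

theorem half_idem (a c : α) : half ρ a c * half ρ a c = half ρ a c := by
  unfold half
  have h := tr_mul_self (ρ := ρ) a c
  rw [smul_mul_smul_comm]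
  have e : (1 + tr ρ a c) * (1 + tr ρ a c) = (2 : ℝ) • (1 + tr ρ a c) := by
    rw [mul_add, add_mul, add_mul, h, one_mul, mul_one, two_smul]
    simp only [one_mul]
    abel
  rw [e, smul_smul]
  norm_num

theorem half_comm {a b c d : α} (h : Commute (tr ρ a b) (tr ρ c d)) :
    Commute (half ρ a b) (half ρ c d) := by
  unfold half
  apply Commute.smul_left
  apply Commute.smul_right
  exact (Commute.one_left _).add_left ((Commute.one_right _).add_right h)

theorem layer_eq (m : ℕ) (b : ℕ → α) :
    layer ρ m b = ((List.range m).map (fun i => half ρ (b i) (b (i + m)))).prod := rfl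

/-- The switches of bit `r` in a block of length `2^d`. -/
noncomputable def bitList (ρ : Equiv.Perm α →* (E →L[ℝ] E)) (r d : ℕ) (b : ℕ → α) :
    List (E →L[ℝ] E) :=
  ((List.range (2 ^ d)).filter (fun x => (x / 2 ^ r) % 2 = 0)).map
    (fun x => half ρ (b x) (b (x + 2 ^ r)))

theorem bit_lt {r d x : ℕ} (hr : r < d) (hx : x < 2 ^ d) (h : (x / 2 ^ r) % 2 = 0) :
    x + 2 ^ r < 2 ^ d := by
  obtain ⟨e, rfl⟩ : ∃ e, d = r + 1 + e := ⟨d - (r + 1), by omega⟩
  have hp : 0 < 2 ^ r := by positivity
  have h1 : 2 ^ (r + 1 + e) = 2 ^ r * (2 * 2 ^ e) := by rw [pow_add, pow_succ]; ring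
  rw [h1] at hx ⊢
  have h2 : x / 2 ^ r < 2 * 2 ^ e := by
    rw [Nat.div_lt_iff_lt_mul hp]
    rw [mul_comm]; exact hx
  have h3 : x / 2 ^ r + 1 < 2 * 2 ^ e := by omega
  have h4 : x < 2 ^ r * (x / 2 ^ r + 1) := by
    have := Nat.div_add_mod x (2 ^ r)
    have := Nat.mod_lt x hp
    rw [mul_add]
    omega
  calc x + 2 ^ r < 2 ^ r * (x / 2 ^ r + 1) + 2 ^ r := by omega
    _ = 2 ^ r * (x / 2 ^ r + 1 + 1) := by ring
    _ ≤ 2 ^ r * (2 * 2 ^ e) := Nat.mul_le_mul_left _ h3

theorem mem_bitList {r d : ℕ} {b : ℕ → α} {T : E →L[ℝ] E} :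
    T ∈ bitList ρ r d b ↔ ∃ x, x < 2 ^ d ∧ (x / 2 ^ r) % 2 = 0 ∧
      half ρ (b x) (b (x + 2 ^ r)) = T := by
  unfold bitList
  simp only [List.mem_map, List.mem_filter, List.mem_range, decide_eq_true_eq, and_assoc]

/-- Switches of one bit commute. -/
theorem bitList_comm {r d : ℕ} (hr : r < d) {b : ℕ → α} (hb : Set.InjOn b (range (2 ^ d)))
    {S T : E →L[ℝ] E} (hS : S ∈ bitList ρ r d b) (hT : T ∈ bitList ρ r d b) : Commute S T := by
  rw [mem_bitList] at hS hT
  obtain ⟨x, hx, hx2, rfl⟩ := hS
  obtain ⟨y, hy, hy2, rfl⟩ := hT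
  by_cases hxy : x = y
  · subst hxy; exact Commute.refl _
  · have hx3 := bit_lt hr hx hx2
    have hy3 := bit_lt hr hy hy2
    have hinj : ∀ p q : ℕ, p < 2 ^ d → q < 2 ^ d → p ≠ q → b p ≠ b q := by
      intro p q hp hq hpq he
      exact hpq (hb (by simpa using hp) (by simpa using hq) he)
    have key : x ≠ y + 2 ^ r := by
      intro h
      rw [h, Nat.add_div_right _ (by positivity)] at hx2
      omega
    have key2 : y ≠ x + 2 ^ r := by
      intro h
      rw [h, Nat.add_div_right _ (by positivity)] at hy2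
      omega
    apply half_comm
    exact tr_comm_tr (hinj _ _ hx hy hxy) (hinj _ _ hx hy3 key) (hinj _ _ hx3 hy key2.symm)
      (hinj _ _ hx3 hy3 (by omega))

theorem bitList_idem {r d : ℕ} {b : ℕ → α} {S : E →L[ℝ] E} (hS : S ∈ bitList ρ r d b) :
    S * S = S := by
  rw [mem_bitList] at hS
  obtain ⟨x, _, _, rfl⟩ := hS
  exact half_idem _ _

theorem range_two_pow_succ (d : ℕ) :
    List.range (2 ^ (d + 1)) = List.range (2 ^ d) ++ (List.range (2 ^ d)).map (2 ^ d + ·) := by
  rw [pow_succ, mul_two, List.range_add]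

theorem bitList_succ {r d : ℕ} (hr : r < d) (b : ℕ → α) :
    bitList ρ r (d + 1) b = bitList ρ r d b ++ bitList ρ r d (fun i => b (i + 2 ^ d)) := by
  unfold bitList
  rw [range_two_pow_succ, List.filter_append, List.map_append]
  congr 1
  rw [List.filter_map, List.map_map]
  have h1 : ((fun x => decide (x / 2 ^ r % 2 = 0)) ∘ fun x => 2 ^ d + x) =
      fun x => decide (x / 2 ^ r % 2 = 0) := by
    funext y
    obtain ⟨e, rfl⟩ : ∃ e, d = r + 1 + e := ⟨d - (r + 1), by omega⟩
    have h2 : 2 ^ (r + 1 + e) + y = y + 2 ^ r * (2 * 2 ^ e) := by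
      rw [pow_add, pow_succ]; ring
    have h3 : (2 ^ (r + 1 + e) + y) / 2 ^ r % 2 = y / 2 ^ r % 2 := by
      rw [h2, Nat.add_mul_div_left _ _ (by positivity), Nat.add_mul_mod_self_left]
    simp only [Function.comp]
    exact decide_eq_decide.mpr (by rw [h3])
  rw [h1]
  apply List.map_congr_left
  intro x _
  simp only [Function.comp]
  congr 2 <;> ring

theorem bitList_top (d : ℕ) (b : ℕ → α) :
    (bitList ρ d (d + 1) b).prod = layer ρ (2 ^ d) b := by
  rw [layer_eq]
  unfold bitList
  congr 2
  rw [range_two_pow_succ, List.filter_append]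
  have h1 : List.filter (fun x => decide (x / 2 ^ d % 2 = 0)) (List.range (2 ^ d)) =
      List.range (2 ^ d) := by
    rw [List.filter_eq_self]
    intro x hx
    rw [List.mem_range] at hx
    simp [Nat.div_eq_of_lt hx]
  have h2 : List.filter (fun x => decide (x / 2 ^ d % 2 = 0))
      ((List.range (2 ^ d)).map (2 ^ d + ·)) = [] := by
    rw [List.filter_eq_nil_iff]
    intro x hx
    rw [List.mem_map] at hx
    obtain ⟨y, hy, rfl⟩ := hx
    rw [List.mem_range] at hy
    simp only [decide_eq_true_eq]
    rw [Nat.add_div_left _ (by positivity), Nat.div_eq_of_lt hy]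
    norm_num
  rw [h1, h2, List.append_nil]

/-- The pass is the product of the bit layers, bit 0 on the left. -/
theorem pass_eq_bits (d : ℕ) (b : ℕ → α) (hb : Set.InjOn b (range (2 ^ d))) :
    pass ρ d b = ((List.range d).map (fun r => (bitList ρ r d b).prod)).prod := by
  induction d generalizing b with
  | zero => simp [pass_zero]
  | succ d ih =>
    have hb0 : Set.InjOn b (range (2 ^ d)) := by
      intro i hi j hj h
      simp only [coe_range, Set.mem_Iio] at hi hj
      exact hb (by simp only [coe_range, Set.mem_Iio]; rw [pow_succ]; omega)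
        (by simp only [coe_range, Set.mem_Iio]; rw [pow_succ]; omega) h
    have hb1 : Set.InjOn (fun i => b (i + 2 ^ d)) (range (2 ^ d)) := by
      intro i hi j hj h
      simp only [coe_range, Set.mem_Iio] at hi hj
      have := hb (by simp only [coe_range, Set.mem_Iio]; rw [pow_succ]; omega)
        (by simp only [coe_range, Set.mem_Iio]; rw [pow_succ]; omega) h
      omega
    have hdef : pass ρ (d + 1) b =
        pass ρ d b * pass ρ d (fun i => b (i + 2 ^ d)) * layer ρ (2 ^ d) b := rfl
    rw [hdef, ih b hb0, ih _ hb1, List.range_succ, List.map_append, List.prod_append]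
    simp only [List.map_cons, List.map_nil, List.prod_singleton]
    rw [bitList_top]
    congr 1
    rw [prod_map_mul]
    · congr 1
      apply List.map_congr_left
      intro r hr
      rw [List.mem_range] at hr
      rw [bitList_succ hr, List.prod_append]
    · intro r hr s hs
      rw [List.mem_range] at hr hs
      apply Commute.list_prod_left
      intro S hS
      apply Commute.list_prod_right
      intro T hT
      rw [mem_bitList] at hS hT
      obtain ⟨x, hx, hx2, rfl⟩ := hS
      obtain ⟨y, hy, hy2, rfl⟩ := hT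
      have hx3 := bit_lt hr hx hx2
      have hy3 := bit_lt hs hy hy2
      have hinj : ∀ p q : ℕ, p < 2 ^ (d + 1) → q < 2 ^ (d + 1) → p ≠ q → b p ≠ b q := by
        intro p q hp hq hpq he
        exact hpq (hb (by simpa using hp) (by simpa using hq) he)
      have hpow : 2 ^ (d + 1) = 2 ^ d + 2 ^ d := by rw [pow_succ]; ring
      have hr0 : 0 < 2 ^ r := by positivity
      have hs0 : 0 < 2 ^ s := by positivity
      apply half_comm
      apply tr_comm_tr
      · exact hinj _ _ (by omega) (by omega) (by omega)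
      · exact hinj _ _ (by omega) (by omega) (by omega)
      · exact hinj _ _ (by omega) (by omega) (by omega)
      · exact hinj _ _ (by omega) (by omega) (by omega)

/-- Conjugation of a layer. -/
theorem rho_mul_layer (σ : Equiv.Perm α) (m : ℕ) (b : ℕ → α) :
    ρ σ * layer ρ m b = layer ρ m (fun i => σ (b i)) * ρ σ := by
  rw [layer_eq, layer_eq]
  generalize List.range m = l
  induction l with
  | nil => simp
  | cons i l ih =>
    simp only [List.map_cons, List.prod_cons]
    have h : ρ σ * half ρ (b i) (b (i + m)) = half ρ (σ (b i)) (σ (b (i + m))) * ρ σ := by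
      unfold half
      rw [mul_smul_comm, smul_mul_assoc, mul_add, add_mul, mul_one, one_mul, rho_mul_tr]
    rw [← mul_assoc, h, mul_assoc, ih, mul_assoc]

end Vale.Agent.ThorpA
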