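import Vale.Agent.ThorpA.Defs
import Vale.Agent.ThorpA.BridgeA

/-!
# P162 module G7b: one Thorp shuffle as an operator
-/

namespace Vale.Agent.ThorpA

open Finset
open scoped InnerProductSpace Nat

variable {E : Type*} [NormedAddCommGroup E] [InnerProductSpace ℝ E]

/-- The operator of a signed measure in a representation. -/
noncomputable def opG {n : ℕ} (ρ : Equiv.Perm (Fin n) →* (E →L[ℝ] E))
    (μ : Equiv.Perm (Fin n) → ℝ) : E →L[ℝ] E :=
  ∑ σ, μ σ • ρ σ

theorem opG_conv {n : ℕ} (ρ : Equiv.Perm (Fin n) →* (E →L[ℝ] E))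
    (μ ν : Equiv.Perm (Fin n) → ℝ) :
    opG ρ (conv μ ν) = opG ρ μ * opG ρ ν := by
  unfold opG conv
  rw [Finset.sum_mul]
  have h1 : ∀ h : Equiv.Perm (Fin n), (μ h • ρ h) * ∑ σ, ν σ • ρ σ =
      ∑ g, (μ h * ν (h⁻¹ * g)) • ρ g := by
    intro h
    rw [Finset.mul_sum]
    rw [← Equiv.sum_comp (Equiv.mulLeft h) (fun g => (μ h * ν (h⁻¹ * g)) • ρ g)]
    refine Finset.sum_congr rfl fun σ _ => ?_
    rw [Equiv.coe_mulLeft, smul_mul_smul_comm, ← map_mul, inv_mul_cancel_left]
  rw [Finset.sum_congr rfl fun h _ => h1 h, Finset.sum_comm]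
  refine Finset.sum_congr rfl fun g _ => ?_
  rw [Finset.sum_smul]

theorem opG_thorpPow {n : ℕ} (ρ : Equiv.Perm (Fin n) →* (E →L[ℝ] E)) (t : ℕ) :
    opG ρ (thorpPow n t) = opG ρ (thorpLaw n) ^ t := by
  induction t with
  | zero =>
    rw [pow_zero]
    unfold opG
    rw [thorpPow_zero]
    have : ∀ σ : Equiv.Perm (Fin n), (if σ = 1 then (1 : ℝ) else 0) • ρ σ =
        if σ = 1 then ρ σ else 0 := by
      intro σ
      split_ifs <;> simp
    rw [Finset.sum_congr rfl fun σ _ => this σ, Finset.sum_ite_eq' univ 1 (fun σ => ρ σ)]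
    simp
  | succ t ih =>
    have h : thorpPow n (t + 1) = conv (thorpLaw n) (thorpPow n t) := rfl
    rw [h, opG_conv, ih, pow_succ']

/-! ### Expanding a list of switches -/

section Words

variable {G : Type*} [Group G]

/-- The word `∏_{i < k, c i} t i`. -/
def word (t : ℕ → G) (c : ℕ → Bool) : ℕ → G
  | 0 => 1
  | k + 1 => word t c k * (if c k then t k else 1)

theorem word_congr (t : ℕ → G) {c c' : ℕ → Bool} {k : ℕ} (h : ∀ i < k, c i = c' i) :
    word t c k = word t c' k := by
  induction k with
  | zero => rfl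
  | succ k ih =>
    unfold word
    rw [ih fun i hi => h i (by omega), h k (by omega)]

/-- Extend a finite coin vector by `false`. -/
def ext {k : ℕ} (c : Fin k → Bool) (i : ℕ) : Bool := if h : i < k then c ⟨i, h⟩ else false

theorem sum_fin_succ_bool {k : ℕ} {A : Type*} [AddCommMonoid A] (F : (Fin (k + 1) → Bool) → A) :
    ∑ c, F c = ∑ c : Fin k → Bool, (F (Fin.snoc c true) + F (Fin.snoc c false)) := by
  rw [← (Fin.snocEquiv (fun _ : Fin (k + 1) => Bool)).sum_comp, Fintype.sum_prod_type,
    Finset.sum_comm]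
  refine Finset.sum_congr rfl fun c _ => ?_
  rw [Fintype.sum_bool]
  rfl

theorem half_prod {A : Type*} [Ring A] [Algebra ℝ A] (ρ : G →* A) (t : ℕ → G) (k : ℕ) :
    ((List.range k).map (fun i => (1 / 2 : ℝ) • (1 + ρ (t i)))).prod =
      ((1 / 2 : ℝ) ^ k) • ∑ c : Fin k → Bool, ρ (word t (ext c) k) := by
  induction k with
  | zero => simp [word]
  | succ k ih =>
    rw [List.range_succ, List.map_append, List.prod_append, ih]
    simp only [List.map_cons, List.map_nil, List.prod_singleton]
    rw [sum_fin_succ_bool, smul_mul_smul_comm, ← pow_succ]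
    congr 1
    rw [Finset.sum_mul]
    refine Finset.sum_congr rfl fun c _ => ?_
    have e1 : ∀ b : Bool, word t (ext (Fin.snoc c b : Fin (k + 1) → Bool)) k =
        word t (ext c) k := by
      intro b
      apply word_congr
      intro i hi
      unfold ext
      rw [dif_pos hi, dif_pos (by omega : i < k + 1)]
      have : (⟨i, by omega⟩ : Fin (k + 1)) = Fin.castSucc ⟨i, hi⟩ := rfl
      rw [this, Fin.snoc_castSucc]
    have e2 : ∀ b : Bool, ext (Fin.snoc c b : Fin (k + 1) → Bool) k = b := by
      intro b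
      unfold ext
      rw [dif_pos (by omega : k < k + 1)]
      have : (⟨k, by omega⟩ : Fin (k + 1)) = Fin.last k := rfl
      rw [this, Fin.snoc_last]
    have e3 : ∀ b : Bool, word t (ext (Fin.snoc c b : Fin (k + 1) → Bool)) (k + 1) =
        word t (ext c) k * (if b then t k else 1) := by
      intro b
      have : word t (ext (Fin.snoc c b : Fin (k + 1) → Bool)) (k + 1) =
        word t (ext (Fin.snoc c b : Fin (k + 1) → Bool)) k *
          (if ext (Fin.snoc c b : Fin (k + 1) → Bool) k then t k else 1) := rfl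
      rw [this, e1, e2]
    rw [e3, e3]
    simp only [if_true, Bool.false_eq_true, if_false, mul_one, map_mul]
    rw [mul_add, mul_one, add_comm]

end Words

/-! ### Positions and the perfect shuffle -/

/-- Position `i mod n`. -/
def posn (n : ℕ) [NeZero n] (i : ℕ) : Fin n := Fin.ofNat n i

theorem posn_val {n : ℕ} [NeZero n] {i : ℕ} (h : i < n) : ((posn n i : Fin n) : ℕ) = i :=
  Nat.mod_eq_of_lt h

theorem posn_coe {n : ℕ} [NeZero n] (x : Fin n) : posn n x = x := by
  apply Fin.ext
  exact posn_val x.2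

theorem posn_inj {n : ℕ} [NeZero n] {i j : ℕ} (hi : i < n) (hj : j < n)
    (h : posn n i = posn n j) : i = j := by
  have := congrArg Fin.val h
  rwa [posn_val hi, posn_val hj] at this

/-- The perfect shuffle on positions. -/
def rotFun (n : ℕ) (hn : 2 * (n / 2) = n) (x : Fin n) : Fin n :=
  if h : (x : ℕ) < n / 2 then ⟨2 * x, by omega⟩
  else ⟨2 * ((x : ℕ) - n / 2) + 1, by have := x.2; omega⟩

theorem rotFun_inj (n : ℕ) (hn : 2 * (n / 2) = n) : Function.Injective (rotFun n hn) := by
  intro x y h
  unfold rotFun at h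
  apply Fin.ext
  have hx := x.2
  have hy := y.2
  split_ifs at h with h1 h2 h2 <;> simp only [Fin.mk.injEq] at h <;> omega

noncomputable def rot (n : ℕ) (hn : 2 * (n / 2) = n) : Equiv.Perm (Fin n) :=
  Equiv.ofBijective (rotFun n hn) (Finite.injective_iff_bijective.mp (rotFun_inj n hn))

theorem rot_low {n : ℕ} [NeZero n] (hn : 2 * (n / 2) = n) {i : ℕ} (hi : i < n / 2) :
    rot n hn (posn n i) = posn n (2 * i) := by
  apply Fin.ext
  have h1 : ((posn n i : Fin n) : ℕ) = i := posn_val (by omega)
  rw [posn_val (by omega)]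
  change ((rotFun n hn (posn n i) : Fin n) : ℕ) = 2 * i
  unfold rotFun
  rw [dif_pos (by rw [h1]; exact hi)]
  simp only [h1]

theorem rot_high {n : ℕ} [NeZero n] (hn : 2 * (n / 2) = n) {i : ℕ} (hi : i < n / 2) :
    rot n hn (posn n (n / 2 + i)) = posn n (2 * i + 1) := by
  apply Fin.ext
  have h1 : ((posn n (n / 2 + i) : Fin n) : ℕ) = n / 2 + i := posn_val (by omega)
  rw [posn_val (by omega)]
  change ((rotFun n hn (posn n (n / 2 + i)) : Fin n) : ℕ) = 2 * i + 1
  unfold rotFun
  rw [dif_neg (by rw [h1]; omega)]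
  simp only [h1]
  omega

/-! ### The permutation of a coin vector -/

/-- The switches. -/
def sw (n : ℕ) [NeZero n] (i : ℕ) : Equiv.Perm (Fin n) :=
  Equiv.swap (posn n i) (posn n (i + n / 2))

theorem word_sw_low {n : ℕ} [NeZero n] (hn : 2 * (n / 2) = n) (c : ℕ → Bool) (k : ℕ)
    (hk : k ≤ n / 2) (j : ℕ) (hj : j < n / 2) :
    word (sw n) c k (posn n j) =
      (if j < k ∧ c j = true then posn n (j + n / 2) else posn n j) ∧
    word (sw n) c k (posn n (j + n / 2)) =
      (if j < k ∧ c j = true then posn n j else posn n (j + n / 2)) := by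
  induction k with
  | zero => simp [word]
  | succ k ih =>
    obtain ⟨ih1, ih2⟩ := ih (by omega)
    have hmul : ∀ x, word (sw n) c (k + 1) x =
        word (sw n) c k ((if c k then sw n k else 1) x) := fun _ => rfl
    by_cases hjk : j = k
    · subst hjk
      rw [hmul, hmul]
      simp only [lt_irrefl, false_and, if_false] at ih1 ih2
      cases hc : c j with
      | false =>
        simp only [Bool.false_eq_true, if_false, Equiv.Perm.one_apply, and_false, ih1, ih2,
          and_self]
      | true =>
        simp only [if_true, and_true, Nat.lt_succ_self]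
        unfold sw
        rw [Equiv.swap_apply_left, Equiv.swap_apply_right]
        exact ⟨ih2, ih1⟩
    · have hfix : ∀ x, (x = posn n j ∨ x = posn n (j + n / 2)) →
          (if c k then sw n k else 1) x = x := by
        intro x hx
        cases hc : c k with
        | false => simp
        | true =>
          simp only [if_true]
          unfold sw
          apply Equiv.swap_apply_of_ne_of_ne
          · rcases hx with rfl | rfl
            · intro h; exact hjk (posn_inj (by omega) (by omega) h)
            · intro h; have := posn_inj (by omega) (by omega) h; omega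
          · rcases hx with rfl | rfl
            · intro h; have := posn_inj (by omega) (by omega) h; omega
            · intro h; have := posn_inj (by omega) (by omega) h; omega
      rw [hmul, hmul, hfix _ (Or.inl rfl), hfix _ (Or.inr rfl), ih1, ih2]
      have hiff : (j < k + 1 ∧ c j = true) ↔ (j < k ∧ c j = true) := by
        constructor
        · rintro ⟨h1, h2⟩; exact ⟨by omega, h2⟩
        · rintro ⟨h1, h2⟩; exact ⟨by omega, h2⟩
      simp only [hiff, and_self]

/-- A permutation is compatible with the coins `c` iff it is the perfect shuffle after the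
switches. -/
theorem cond_iff {n : ℕ} [NeZero n] (hn : 2 * (n / 2) = n) (c : Fin (n / 2) → Bool)
    (g : Equiv.Perm (Fin n)) :
    (∀ (i : Fin (n / 2)) (x : Fin n),
      ((x : ℕ) = i → (g x : ℕ) = 2 * i + (if c i then 1 else 0)) ∧
      ((x : ℕ) = n / 2 + i → (g x : ℕ) = 2 * i + (if c i then 0 else 1))) ↔
    g = rot n hn * word (sw n) (ext c) (n / 2) := by
  have key : ∀ (i : ℕ) (hi : i < n / 2),
      (((rot n hn * word (sw n) (ext c) (n / 2)) (posn n i) : Fin n) : ℕ) =
        2 * i + (if c ⟨i, hi⟩ then 1 else 0) ∧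
      (((rot n hn * word (sw n) (ext c) (n / 2)) (posn n (n / 2 + i)) : Fin n) : ℕ) =
        2 * i + (if c ⟨i, hi⟩ then 0 else 1) := by
    intro i hi
    obtain ⟨h1, h2⟩ := word_sw_low hn (ext c) (n / 2) le_rfl i hi
    have he : ext c i = c ⟨i, hi⟩ := by unfold ext; rw [dif_pos hi]
    rw [he] at h1 h2
    rw [Equiv.Perm.mul_apply, Equiv.Perm.mul_apply, add_comm (n / 2) i, h1, h2]
    cases hc : c ⟨i, hi⟩ with
    | false =>
      simp only [Bool.false_eq_true, and_false, if_false]
      rw [rot_low hn hi, add_comm i, rot_high hn hi, posn_val (by omega), posn_val (by omega)]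
      exact ⟨rfl, rfl⟩
    | true =>
      simp only [hi, and_self, if_true]
      rw [rot_low hn hi, add_comm i, rot_high hn hi, posn_val (by omega), posn_val (by omega)]
      exact ⟨rfl, rfl⟩
  constructor
  · intro h
    apply Equiv.ext
    intro x
    apply Fin.ext
    have hx := x.2
    by_cases hlt : (x : ℕ) < n / 2
    · have e : x = posn n (x : ℕ) := (posn_coe x).symm
      rw [((h ⟨x, hlt⟩ x).1 rfl)]
      conv_rhs => rw [e]
      rw [(key x hlt).1]
    · have hlt2 : (x : ℕ) - n / 2 < n / 2 := by omega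
      have hval : (x : ℕ) = n / 2 + ((x : ℕ) - n / 2) := by omega
      have e : x = posn n (n / 2 + ((x : ℕ) - n / 2)) := by
        rw [← hval]; exact (posn_coe x).symm
      rw [((h ⟨(x : ℕ) - n / 2, hlt2⟩ x).2 hval)]
      conv_rhs => rw [e]
      rw [(key _ hlt2).2]
  · rintro rfl i x
    constructor
    · intro hx
      have e : x = posn n (i : ℕ) := by rw [← hx]; exact (posn_coe x).symm
      rw [e, (key i i.2).1]
    · intro hx
      have e : x = posn n (n / 2 + i) := by rw [← hx]; exact (posn_coe x).symm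
      rw [e, (key i i.2).2]

/-- One Thorp shuffle as an operator. -/
theorem thorp_op {n : ℕ} [NeZero n] (ρ : Equiv.Perm (Fin n) →* (E →L[ℝ] E))
    (hn : 2 * (n / 2) = n) :
    opG ρ (thorpLaw n) = ρ (rot n hn) * layer ρ (n / 2) (posn n) := by
  have h1 : layer ρ (n / 2) (posn n) =
      ((1 / 2 : ℝ) ^ (n / 2)) • ∑ c : Fin (n / 2) → Bool,
        ρ (word (sw n) (ext c) (n / 2)) := by
    have := half_prod ρ (sw n) (n / 2)
    exact this
  rw [h1, mul_smul_comm, Finset.mul_sum]
  unfold opG
  have h2 : ∀ g : Equiv.Perm (Fin n), thorpLaw n g =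
      (1 / 2 : ℝ) ^ (n / 2) * ∑ c : Fin (n / 2) → Bool,
        (if g = rot n hn * word (sw n) (ext c) (n / 2) then (1 : ℝ) else 0) := by
    intro g
    unfold thorpLaw
    rw [Finset.card_filter]
    push_cast
    rw [div_eq_mul_inv, mul_comm, one_div, inv_pow]
    congr 1
    refine Finset.sum_congr rfl fun c _ => ?_
    simp only [cond_iff hn c g]
  have h3 : ∀ g : Equiv.Perm (Fin n), thorpLaw n g • ρ g =
      (1 / 2 : ℝ) ^ (n / 2) • ∑ c : Fin (n / 2) → Bool,
        (if g = rot n hn * word (sw n) (ext c) (n / 2) then ρ g else 0) := by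
    intro g
    rw [h2, mul_smul, Finset.sum_smul]
    congr 1
    refine Finset.sum_congr rfl fun c _ => ?_
    split_ifs <;> simp
  rw [Finset.sum_congr rfl fun g _ => h3 g, ← Finset.smul_sum, Finset.sum_comm]
  congr 1
  refine Finset.sum_congr rfl fun c _ => ?_
  rw [Finset.sum_ite_eq' univ, if_pos (mem_univ _), map_mul]

end Vale.Agent.ThorpA
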