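import Mathlib

/-!
# P162: the Thorp shuffle, its law, its powers, total variation and the mixing time
-/

namespace Vale.Agent.ThorpA

open Finset

/-- The law of one Thorp shuffle of `n` cards (`n` even), as a function on permutations of the
positions `0, ..., n-1` (`g x` is the new position of the card in position `x`).
The coins are a uniform vector `c`; for `i < n/2` the cards in positions `i` and `n/2 + i` go to
positions `2i` and `2i+1`, in the order chosen by the coin `c i`. -/
noncomputable def thorpLaw (n : ℕ) (g : Equiv.Perm (Fin n)) : ℝ :=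
  ((univ.filter (fun c : Fin (n / 2) → Bool => ∀ (i : Fin (n / 2)) (x : Fin n),
    ((x : ℕ) = i → (g x : ℕ) = 2 * i + (if c i then 1 else 0)) ∧
    ((x : ℕ) = n / 2 + i → (g x : ℕ) = 2 * i + (if c i then 0 else 1)))).card : ℝ)
    / 2 ^ (n / 2)

/-- Convolution of two laws on the symmetric group. -/
noncomputable def conv {n : ℕ} (μ ν : Equiv.Perm (Fin n) → ℝ) (g : Equiv.Perm (Fin n)) : ℝ :=
  ∑ h : Equiv.Perm (Fin n), μ h * ν (h⁻¹ * g)

/-- The law after `t` independent Thorp shuffles. -/
noncomputable def thorpPow (n : ℕ) : ℕ → Equiv.Perm (Fin n) → ℝ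
  | 0 => fun g => if g = 1 then 1 else 0
  | t + 1 => conv (thorpLaw n) (thorpPow n t)

theorem thorpPow_zero (n : ℕ) : thorpPow n 0 = fun g => if g = 1 then 1 else 0 := rfl

theorem thorpPow_succ (n t : ℕ) : thorpPow n (t + 1) = conv (thorpLaw n) (thorpPow n t) := rfl

/-- Total variation distance between the law after `t` shuffles and the uniform law. -/
noncomputable def tvDist (n t : ℕ) : ℝ :=
  (1 / 2) * ∑ g : Equiv.Perm (Fin n), |thorpPow n t g - 1 / (n.factorial : ℝ)|

/-- The mixing time: the least `t` with total variation distance at most `1/4`. -/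
noncomputable def tmix (n : ℕ) : ℕ := sInf {t : ℕ | tvDist n t ≤ 1 / 4}

end Vale.Agent.ThorpA
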