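import Mathlib

/-!
# P162 module G1: the graded estimate (pure linear algebra, no representation)

Sites `ι` (finite, `m` sites), commuting orthogonal projections `n y` (`n y` = site y is odd),
edge operators `Δ y z` flipping the parity of `y` and of `z` and of nothing else.
`N = ∑ n y`, `D = 1/4 ∑_{y ≠ z} Δ y z` (ordered pairs), `X = D + N`.
-/

namespace Vale.Agent.ThorpA

open Finset
open scoped InnerProductSpace Nat

set_option linter.unusedSectionVars false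

variable {ι : Type*} [Fintype ι] [DecidableEq ι]
variable {E : Type*} [NormedAddCommGroup E] [InnerProductSpace ℝ E]

/-- The algebraic relations. -/
structure Graded (n : ι → E →L[ℝ] E) (Δ : ι → ι → E →L[ℝ] E) : Prop where
  n_idem : ∀ y, n y * n y = n y
  n_symm : ∀ y x x', ⟪n y x, x'⟫_ℝ = ⟪x, n y x'⟫_ℝ
  n_comm : ∀ y z, n y * n z = n z * n y
  Δ_swap : ∀ y z, Δ y z = Δ z y
  Δ_symm : ∀ y z x x', ⟪Δ y z x, x'⟫_ℝ = ⟪x, Δ y z x'⟫_ℝ
  Δ_norm : ∀ y z x, ‖Δ y z x‖ ≤ 4 * ‖x‖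
  nΔ : ∀ y z, y ≠ z → n y * Δ y z = Δ y z * (1 - n y)
  nΔ_comm : ∀ w y z, w ≠ y → w ≠ z → n w * Δ y z = Δ y z * n w

/-- Number of odd sites. -/
noncomputable def Nop (n : ι → E →L[ℝ] E) : E →L[ℝ] E := ∑ y, n y

/-- The operator `D`. -/
noncomputable def Dop (Δ : ι → ι → E →L[ℝ] E) : E →L[ℝ] E :=
  (1 / 4 : ℝ) • ∑ p ∈ (univ : Finset ι).offDiag, Δ p.1 p.2

section aux

variable {n : ι → E →L[ℝ] E} {Δ : ι → ι → E →L[ℝ] E}

theorem Graded.idem (h : Graded n Δ) (y : ι) (x : E) : n y (n y x) = n y x := by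
  have := congrArg (fun T : E →L[ℝ] E => T x) (h.n_idem y)
  simpa using this

theorem Graded.comm (h : Graded n Δ) (y z : ι) (x : E) : n y (n z x) = n z (n y x) := by
  have := congrArg (fun T : E →L[ℝ] E => T x) (h.n_comm y z)
  simpa using this

theorem Graded.flip1 (h : Graded n Δ) {y z : ι} (hyz : y ≠ z) (x : E) :
    n y (Δ y z x) = Δ y z (x - n y x) := by
  have := congrArg (fun T : E →L[ℝ] E => T x) (h.nΔ y z hyz)
  simpa using this

theorem Graded.flip2 (h : Graded n Δ) {y z : ι} (hyz : y ≠ z) (x : E) :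
    n z (Δ y z x) = Δ y z (x - n z x) := by
  rw [h.Δ_swap y z]
  exact h.flip1 hyz.symm x

theorem Graded.pass (h : Graded n Δ) {w y z : ι} (h1 : w ≠ y) (h2 : w ≠ z) (x : E) :
    n w (Δ y z x) = Δ y z (n w x) := by
  have := congrArg (fun T : E →L[ℝ] E => T x) (h.nΔ_comm w y z h1 h2)
  simpa using this

theorem Graded.norm_sq (h : Graded n Δ) (y : ι) (x : E) : ‖n y x‖ ^ 2 = ⟪x, n y x⟫_ℝ := by
  rw [← real_inner_self_eq_norm_sq, h.n_symm, h.idem]

theorem Nop_apply (x : E) : Nop n x = ∑ y, n y x := by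
  simp [Nop]

theorem Dop_apply (x : E) :
    Dop Δ x = (1 / 4 : ℝ) • ∑ p ∈ (univ : Finset ι).offDiag, Δ p.1 p.2 x := by
  simp [Dop]

theorem Graded.NΔ (h : Graded n Δ) {y z : ι} (hyz : y ≠ z) (x : E) :
    Nop n (Δ y z x) = Δ y z (Nop n x + (x - (2 : ℝ) • n y x) + (x - (2 : ℝ) • n z x)) := by
  have key : ∀ w, n w (Δ y z x) = Δ y z (n w x)
      + (if w = y then Δ y z (x - (2 : ℝ) • n y x) else 0)
      + (if w = z then Δ y z (x - (2 : ℝ) • n z x) else 0) := by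
    intro w
    by_cases h1 : w = y
    · subst h1
      rw [if_pos rfl, if_neg hyz, h.flip1 hyz, add_zero, ← map_add]
      congr 1
      module
    · by_cases h2 : w = z
      · subst h2
        rw [if_neg h1, if_pos rfl, h.flip2 hyz, add_zero, ← map_add]
        congr 1
        module
      · rw [if_neg h1, if_neg h2, h.pass h1 h2, add_zero, add_zero]
  rw [Nop_apply, Finset.sum_congr rfl (fun w _ => key w), Finset.sum_add_distrib,
    Finset.sum_add_distrib, Finset.sum_ite_eq' univ y, Finset.sum_ite_eq' univ z,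
    if_pos (mem_univ _), if_pos (mem_univ _), map_add, map_add, Nop_apply, map_sum]

/-- The three parts. -/
noncomputable def Wv (n : ι → E →L[ℝ] E) (Δ : ι → ι → E →L[ℝ] E) (w : E) : E :=
  (1 / 4 : ℝ) • ∑ p ∈ (univ : Finset ι).offDiag, Δ p.1 p.2 (n p.1 (n p.2 w))

noncomputable def Vv (n : ι → E →L[ℝ] E) (Δ : ι → ι → E →L[ℝ] E) (w : E) : E :=
  (1 / 2 : ℝ) • ∑ p ∈ (univ : Finset ι).offDiag, Δ p.1 p.2 (n p.1 (w - n p.2 w))

noncomputable def Uv (n : ι → E →L[ℝ] E) (Δ : ι → ι → E →L[ℝ] E) (w : E) : E :=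
  (1 / 4 : ℝ) • ∑ p ∈ (univ : Finset ι).offDiag,
    Δ p.1 p.2 ((w - n p.2 w) - n p.1 (w - n p.2 w))

theorem sum_offDiag_swap {M : Type*} [AddCommMonoid M] (f : ι × ι → M) :
    ∑ p ∈ (univ : Finset ι).offDiag, f p = ∑ p ∈ (univ : Finset ι).offDiag, f p.swap := by
  refine Finset.sum_nbij' (fun p => p.swap) (fun p => p.swap) ?_ ?_ ?_ ?_ ?_
  · intro p hp
    simp only [mem_offDiag, mem_univ, true_and, Prod.fst_swap, Prod.snd_swap] at hp ⊢
    exact hp.symm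
  · intro p hp
    simp only [mem_offDiag, mem_univ, true_and, Prod.fst_swap, Prod.snd_swap] at hp ⊢
    exact hp.symm
  · intro p _; simp
  · intro p _; simp
  · intro p _; simp

theorem Graded.split (h : Graded n Δ) (w : E) :
    Dop Δ w = Wv n Δ w + Vv n Δ w + Uv n Δ w := by
  have e1 : Vv n Δ w = (1 / 4 : ℝ) • ∑ p ∈ (univ : Finset ι).offDiag,
      Δ p.1 p.2 (n p.1 (w - n p.2 w)) + (1 / 4 : ℝ) • ∑ p ∈ (univ : Finset ι).offDiag,
      Δ p.1 p.2 (n p.2 (w - n p.1 w)) := by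
    have e2 : ∑ p ∈ (univ : Finset ι).offDiag, Δ p.1 p.2 (n p.2 (w - n p.1 w))
        = ∑ p ∈ (univ : Finset ι).offDiag, Δ p.1 p.2 (n p.1 (w - n p.2 w)) := by
      rw [sum_offDiag_swap]
      refine Finset.sum_congr rfl fun p _ => ?_
      rw [Prod.fst_swap, Prod.snd_swap, h.Δ_swap p.2 p.1]
    rw [e2, Vv]
    module
  rw [e1, Dop_apply, Wv, Uv, ← smul_add, ← smul_add, ← smul_add]
  congr 1
  rw [← Finset.sum_add_distrib, ← Finset.sum_add_distrib, ← Finset.sum_add_distrib]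
  refine Finset.sum_congr rfl fun p _ => ?_
  rw [← map_add, ← map_add, ← map_add]
  congr 1
  simp only [map_sub]
  rw [h.comm p.1 p.2]
  abel

/-- Sum of the squares. -/
theorem Graded.sum_sq (h : Graded n Δ) (w : E) : ∑ y, ‖n y w‖ ^ 2 = ⟪w, Nop n w⟫_ℝ := by
  rw [Nop_apply, inner_sum]
  exact Finset.sum_congr rfl fun y _ => h.norm_sq y w

theorem Graded.N_comm (h : Graded n Δ) (y : ι) (w : E) : Nop n (n y w) = n y (Nop n w) := by
  rw [Nop_apply, Nop_apply, map_sum]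
  exact Finset.sum_congr rfl fun z _ => h.comm z y w

theorem Graded.sum_sq2 (h : Graded n Δ) {w : E} {l : ℝ} (hw : Nop n w = l • w) :
    ∑ p : ι × ι, ‖n p.1 (n p.2 w)‖ ^ 2 = l ^ 2 * ‖w‖ ^ 2 := by
  rw [Fintype.sum_prod_type, Finset.sum_comm]
  have e1 : ∀ z, ∑ y, ‖n y (n z w)‖ ^ 2 = l * ‖n z w‖ ^ 2 := by
    intro z
    rw [h.sum_sq, h.N_comm, hw, map_smul, inner_smul_right, real_inner_self_eq_norm_sq]
  rw [Finset.sum_congr rfl (fun z _ => e1 z), ← Finset.mul_sum, h.sum_sq, hw, inner_smul_right,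
    real_inner_self_eq_norm_sq]
  ring

theorem sum_le_sqrt {κ : Type*} [Fintype κ] (f : κ → ℝ) (B c : ℝ) (hB : 0 ≤ B) (hc : 0 ≤ c)
    (h : ∑ k, f k ^ 2 ≤ B ^ 2) (hk : (Fintype.card κ : ℝ) ≤ c ^ 2) : ∑ k, f k ≤ c * B := by
  have h1 : (∑ k, f k) ^ 2 ≤ (Fintype.card κ : ℝ) * ∑ k, f k ^ 2 := by
    have := sq_sum_le_card_mul_sum_sq (s := (univ : Finset κ)) (f := f)
    simpa using this
  have h2 : (∑ k, f k) ^ 2 ≤ (c * B) ^ 2 := by
    calc (∑ k, f k) ^ 2 ≤ (Fintype.card κ : ℝ) * ∑ k, f k ^ 2 := h1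
      _ ≤ c ^ 2 * B ^ 2 := mul_le_mul hk h (Finset.sum_nonneg fun _ _ => sq_nonneg _)
          (sq_nonneg _)
      _ = (c * B) ^ 2 := by ring
  exact le_of_sq_le_sq h2 (mul_nonneg hc hB)

theorem Graded.sum2_le (h : Graded n Δ) {w : E} {l : ℝ} (hl : 0 ≤ l) (hw : Nop n w = l • w) :
    ∑ p ∈ (univ : Finset ι).offDiag, ‖n p.1 (n p.2 w)‖
      ≤ (Fintype.card ι : ℝ) * l * ‖w‖ := by
  have h1 : ∑ p ∈ (univ : Finset ι).offDiag, ‖n p.1 (n p.2 w)‖
      ≤ ∑ p : ι × ι, ‖n p.1 (n p.2 w)‖ :=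
    Finset.sum_le_sum_of_subset_of_nonneg (Finset.subset_univ _) fun _ _ _ => norm_nonneg _
  have h2 := sum_le_sqrt (fun p : ι × ι => ‖n p.1 (n p.2 w)‖) (l * ‖w‖) (Fintype.card ι : ℝ)
    (by positivity) (by positivity) (by rw [h.sum_sq2 hw]; apply le_of_eq; ring)
    (by rw [Fintype.card_prod]; push_cast; apply le_of_eq; ring)
  calc _ ≤ _ := h1
    _ ≤ _ := h2
    _ = _ := by ring

theorem Graded.sum1_le (h : Graded n Δ) {w : E} {l : ℝ} (hl : 0 ≤ l) (hw : Nop n w = l • w) :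
    ∑ y, ‖n y w‖ ≤ Real.sqrt (Fintype.card ι) * (Real.sqrt l * ‖w‖) := by
  refine sum_le_sqrt (fun y => ‖n y w‖) (Real.sqrt l * ‖w‖) (Real.sqrt (Fintype.card ι))
    (by positivity) (by positivity) ?_ ?_
  · rw [h.sum_sq, hw, inner_smul_right, real_inner_self_eq_norm_sq, mul_pow, Real.sq_sqrt hl]
  · rw [Real.sq_sqrt (by positivity)]

/-! Levels. -/

theorem Graded.levW (h : Graded n Δ) {w : E} {l : ℝ} (hw : Nop n w = l • w) :
    Nop n (Wv n Δ w) = (l - 2) • Wv n Δ w := by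
  have key : ∀ p ∈ (univ : Finset ι).offDiag, Nop n (Δ p.1 p.2 (n p.1 (n p.2 w)))
      = (l - 2) • Δ p.1 p.2 (n p.1 (n p.2 w)) := by
    intro p hp
    have hyz : p.1 ≠ p.2 := by simpa using (mem_offDiag.1 hp).2.2
    rw [h.NΔ hyz, ← map_smul (Δ p.1 p.2)]
    congr 1
    simp only [map_sub, h.N_comm, hw, h.idem, map_smul, h.comm p.2 p.1]
    module
  rw [Wv, map_smul, map_sum, Finset.sum_congr rfl key, ← Finset.smul_sum, smul_comm]

theorem Graded.levV (h : Graded n Δ) {w : E} {l : ℝ} (hw : Nop n w = l • w) :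
    Nop n (Vv n Δ w) = l • Vv n Δ w := by
  have key : ∀ p ∈ (univ : Finset ι).offDiag, Nop n (Δ p.1 p.2 (n p.1 (w - n p.2 w)))
      = l • Δ p.1 p.2 (n p.1 (w - n p.2 w)) := by
    intro p hp
    have hyz : p.1 ≠ p.2 := by simpa using (mem_offDiag.1 hp).2.2
    rw [h.NΔ hyz, ← map_smul (Δ p.1 p.2)]
    congr 1
    simp only [map_sub, h.N_comm, hw, h.idem, map_smul, h.comm p.2 p.1]
    module
  rw [Vv, map_smul, map_sum, Finset.sum_congr rfl key, ← Finset.smul_sum, smul_comm]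

theorem Graded.levU (h : Graded n Δ) {w : E} {l : ℝ} (hw : Nop n w = l • w) :
    Nop n (Uv n Δ w) = (l + 2) • Uv n Δ w := by
  have key : ∀ p ∈ (univ : Finset ι).offDiag,
      Nop n (Δ p.1 p.2 ((w - n p.2 w) - n p.1 (w - n p.2 w)))
      = (l + 2) • Δ p.1 p.2 ((w - n p.2 w) - n p.1 (w - n p.2 w)) := by
    intro p hp
    have hyz : p.1 ≠ p.2 := by simpa using (mem_offDiag.1 hp).2.2
    rw [h.NΔ hyz, ← map_smul (Δ p.1 p.2)]
    congr 1
    simp only [map_sub, h.N_comm, hw, h.idem, map_smul, h.comm p.2 p.1]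
    module
  rw [Uv, map_smul, map_sum, Finset.sum_congr rfl key, ← Finset.smul_sum, smul_comm]

/-! Norms. -/

theorem Graded.normW (h : Graded n Δ) {w : E} {l : ℝ} (hl : 0 ≤ l) (hw : Nop n w = l • w) :
    ‖Wv n Δ w‖ ≤ (Fintype.card ι : ℝ) * l * ‖w‖ := by
  refine le_trans ?_ (h.sum2_le hl hw)
  rw [Wv, norm_smul, Real.norm_of_nonneg (by norm_num : (0:ℝ) ≤ 1 / 4)]
  have h1 : ‖∑ p ∈ (univ : Finset ι).offDiag, Δ p.1 p.2 (n p.1 (n p.2 w))‖
      ≤ ∑ p ∈ (univ : Finset ι).offDiag, 4 * ‖n p.1 (n p.2 w)‖ :=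
    (norm_sum_le _ _).trans (Finset.sum_le_sum fun p _ => h.Δ_norm _ _ _)
  rw [← Finset.mul_sum] at h1
  linarith

theorem Graded.innerV (h : Graded n Δ) {w w' : E} {l : ℝ} (hl : 0 ≤ l)
    (hw : Nop n w = l • w) (hw' : Nop n w' = l • w') :
    ⟪w', Vv n Δ w⟫_ℝ ≤ 2 * (Fintype.card ι : ℝ) * l * (‖w'‖ * ‖w‖) := by
  have h1 : ∀ p ∈ (univ : Finset ι).offDiag,
      ⟪w', Δ p.1 p.2 (n p.1 (w - n p.2 w))⟫_ℝ ≤ 4 * (‖n p.2 w'‖ * ‖n p.1 w‖) := by
    intro p hp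
    have hyz : p.1 ≠ p.2 := by simpa using (mem_offDiag.1 hp).2.2
    have e1 : Δ p.1 p.2 (n p.1 (w - n p.2 w)) = n p.2 (Δ p.1 p.2 (n p.1 w)) := by
      rw [h.flip2 hyz, map_sub, h.comm p.2 p.1]
    rw [e1, ← h.n_symm]
    calc ⟪n p.2 w', Δ p.1 p.2 (n p.1 w)⟫_ℝ ≤ ‖n p.2 w'‖ * ‖Δ p.1 p.2 (n p.1 w)‖ :=
          real_inner_le_norm _ _
      _ ≤ ‖n p.2 w'‖ * (4 * ‖n p.1 w‖) :=
          mul_le_mul_of_nonneg_left (h.Δ_norm _ _ _) (norm_nonneg _)
      _ = _ := by ring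
  have h2 : ∑ p ∈ (univ : Finset ι).offDiag, 4 * (‖n p.2 w'‖ * ‖n p.1 w‖)
      ≤ ∑ p : ι × ι, 4 * (‖n p.2 w'‖ * ‖n p.1 w‖) :=
    Finset.sum_le_sum_of_subset_of_nonneg (Finset.subset_univ _) fun _ _ _ => by positivity
  have h3 : ∑ p : ι × ι, 4 * (‖n p.2 w'‖ * ‖n p.1 w‖)
      = 4 * ((∑ z, ‖n z w'‖) * ∑ y, ‖n y w‖) := by
    rw [← Finset.mul_sum, Fintype.sum_prod_type_right, Finset.sum_mul_sum]
  have h4 : (∑ z, ‖n z w'‖) * ∑ y, ‖n y w‖ ≤ (Fintype.card ι : ℝ) * l * (‖w'‖ * ‖w‖) := by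
    calc (∑ z, ‖n z w'‖) * ∑ y, ‖n y w‖
        ≤ (Real.sqrt (Fintype.card ι) * (Real.sqrt l * ‖w'‖)) *
          (Real.sqrt (Fintype.card ι) * (Real.sqrt l * ‖w‖)) :=
          mul_le_mul (h.sum1_le hl hw') (h.sum1_le hl hw)
            (Finset.sum_nonneg fun _ _ => norm_nonneg _) (by positivity)
      _ = (Real.sqrt (Fintype.card ι) * Real.sqrt (Fintype.card ι)) *
          (Real.sqrt l * Real.sqrt l) * (‖w'‖ * ‖w‖) := by ring
      _ = _ := by rw [Real.mul_self_sqrt (by positivity), Real.mul_self_sqrt hl]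
  rw [Vv, inner_smul_right, inner_sum]
  have h5 := Finset.sum_le_sum h1
  nlinarith [h5, h2, h3, h4]

theorem Graded.normV (h : Graded n Δ) {w : E} {l : ℝ} (hl : 0 ≤ l) (hw : Nop n w = l • w) :
    ‖Vv n Δ w‖ ≤ 2 * (Fintype.card ι : ℝ) * l * ‖w‖ := by
  have h1 := h.innerV hl hw (h.levV hw)
  rw [real_inner_self_eq_norm_sq] at h1
  rcases (norm_nonneg (Vv n Δ w)).eq_or_lt with h0 | h0
  · rw [← h0]; positivity
  · refine le_of_mul_le_mul_left ?_ h0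
    nlinarith

theorem Graded.innerU (h : Graded n Δ) {w w' : E} {l : ℝ} (hl : 0 ≤ l)
    (hw' : Nop n w' = l • w') :
    ⟪w', Uv n Δ w⟫_ℝ ≤ (Fintype.card ι : ℝ) * l * (‖w'‖ * ‖w‖) := by
  have h1 : ∀ p ∈ (univ : Finset ι).offDiag,
      ⟪w', Δ p.1 p.2 ((w - n p.2 w) - n p.1 (w - n p.2 w))⟫_ℝ
        ≤ 4 * (‖n p.1 (n p.2 w')‖ * ‖w‖) := by
    intro p hp
    have hyz : p.1 ≠ p.2 := by simpa using (mem_offDiag.1 hp).2.2
    have e1 : Δ p.1 p.2 ((w - n p.2 w) - n p.1 (w - n p.2 w)) = n p.2 (n p.1 (Δ p.1 p.2 w)) := by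
      rw [h.flip1 hyz, h.flip2 hyz]
      congr 1
      simp only [map_sub]
      rw [h.comm p.1 p.2]
      abel
    rw [e1, ← h.n_symm, ← h.n_symm]
    calc ⟪n p.1 (n p.2 w'), Δ p.1 p.2 w⟫_ℝ ≤ ‖n p.1 (n p.2 w')‖ * ‖Δ p.1 p.2 w‖ :=
          real_inner_le_norm _ _
      _ ≤ ‖n p.1 (n p.2 w')‖ * (4 * ‖w‖) :=
          mul_le_mul_of_nonneg_left (h.Δ_norm _ _ _) (norm_nonneg _)
      _ = _ := by ring
  have h5 := Finset.sum_le_sum h1
  rw [← Finset.mul_sum, ← Finset.sum_mul] at h5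
  have h6 := h.sum2_le hl hw'
  have h7 := mul_le_mul_of_nonneg_right h6 (norm_nonneg w)
  rw [Uv, inner_smul_right, inner_sum]
  nlinarith

theorem Graded.normU (h : Graded n Δ) {w : E} {l : ℝ} (hl : 0 ≤ l) (hw : Nop n w = l • w) :
    ‖Uv n Δ w‖ ≤ (Fintype.card ι : ℝ) * (l + 2) * ‖w‖ := by
  have h1 := h.innerU (w := w) (by linarith : (0:ℝ) ≤ l + 2) (h.levU hw)
  rw [real_inner_self_eq_norm_sq] at h1
  rcases (norm_nonneg (Uv n Δ w)).eq_or_lt with h0 | h0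
  · rw [← h0]; positivity
  · refine le_of_mul_le_mul_left ?_ h0
    nlinarith

/-- Sums of vectors of even levels below `2 J`, with total norm at most `B`. -/
inductive GB (N : E →L[ℝ] E) (J : ℕ) : ℝ → E → Prop
  | single (j : ℕ) (w : E) (B : ℝ) (hw : N w = (2 * (j : ℝ)) • w) (hj : j < J)
      (hB : ‖w‖ ≤ B) : GB N J B w
  | add (x y : E) (B C : ℝ) (hx : GB N J B x) (hy : GB N J C y) : GB N J (B + C) (x + y)

theorem GB.norm_le {N : E →L[ℝ] E} {J : ℕ} {B : ℝ} {x : E} (hx : GB N J B x) : ‖x‖ ≤ B := by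
  induction hx with
  | single j w B hw hj hB => exact hB
  | add x y B C _ _ h1 h2 => exact (norm_add_le _ _).trans (add_le_add h1 h2)

theorem GB.mono {N : E →L[ℝ] E} {J : ℕ} {B B' : ℝ} {x : E} (hJ : 0 < J) (hx : GB N J B x)
    (hB : B ≤ B') : GB N J B' x := by
  have h0 : GB N J (B' - B) (0 : E) := GB.single 0 0 _ (by simp) hJ (by simpa using hB)
  have := GB.add _ _ _ _ hx h0
  rwa [add_zero, add_sub_cancel] at this

theorem Graded.GB_step (h : Graded n Δ) (hm : 1 ≤ (Fintype.card ι : ℝ)) {J : ℕ} {B : ℝ} {x : E}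
    (hx : GB (Nop n) J B x) :
    GB (Nop n) (J + 1) ((Fintype.card ι : ℝ) * (10 * (J : ℝ) - 8) * B)
      ((Dop Δ + Nop n) x) := by
  induction hx with
  | add x y B C _ _ h1 h2 =>
    rw [map_add, mul_add]
    exact GB.add _ _ _ _ h1 h2
  | single j w B hw hj hB =>
    have hj0 : (0:ℝ) ≤ j := Nat.cast_nonneg j
    have hjJ : (j : ℝ) + 1 ≤ J := by exact_mod_cast hj
    have hw0 := norm_nonneg w
    set m : ℝ := (Fintype.card ι : ℝ) with hmdef
    have hW : GB (Nop n) (J + 1) (m * (2 * j) * ‖w‖) (Wv n Δ w) := by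
      rcases Nat.eq_zero_or_pos j with h0 | h0
      · have e : Wv n Δ w = 0 := by
          have := h.normW (by positivity) hw
          rw [h0] at this
          simpa using this
        rw [e]
        exact GB.single 0 0 _ (by simp) (by omega) (by rw [norm_zero]; positivity)
      · refine GB.single (j - 1) _ _ ?_ (by omega) (h.normW (by positivity) hw)
        rw [h.levW hw, Nat.cast_sub h0]
        congr 1
        push_cast
        ring
    have hV : GB (Nop n) (J + 1) (2 * m * (2 * j) * ‖w‖) (Vv n Δ w) :=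
      GB.single j _ _ (h.levV hw) (by omega) (h.normV (by positivity) hw)
    have hN : GB (Nop n) (J + 1) (2 * j * ‖w‖) (Nop n w) := by
      refine GB.single j _ _ ?_ (by omega) ?_
      · rw [hw, map_smul, hw]
      · rw [hw, norm_smul, Real.norm_of_nonneg (by positivity)]
    have hU : GB (Nop n) (J + 1) (m * (2 * j + 2) * ‖w‖) (Uv n Δ w) := by
      refine GB.single (j + 1) _ _ ?_ (by omega) (h.normU (by positivity) hw)
      rw [h.levU hw]
      congr 1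
      push_cast
      ring
    have hsum := GB.add _ _ _ _ (GB.add _ _ _ _ (GB.add _ _ _ _ hW hV) hU) hN
    rw [← h.split w] at hsum
    refine GB.mono (Nat.succ_pos J) hsum ?_
    have hm0 : (0:ℝ) ≤ m := by linarith
    have e1 : m * (2 * ↑j) * ‖w‖ + 2 * m * (2 * ↑j) * ‖w‖ + m * (2 * ↑j + 2) * ‖w‖
        + 2 * ↑j * ‖w‖ ≤ m * (10 * (j:ℝ) + 2) * ‖w‖ := by
      nlinarith [mul_nonneg (mul_nonneg hj0 hw0) (by linarith : (0:ℝ) ≤ m - 1)]
    have e2 : m * (10 * (j:ℝ) + 2) ≤ m * (10 * (J:ℝ) - 8) :=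
      mul_le_mul_of_nonneg_left (by linarith) hm0
    calc _ ≤ _ := e1
      _ ≤ m * (10 * (J:ℝ) - 8) * ‖w‖ := mul_le_mul_of_nonneg_right e2 hw0
      _ ≤ m * (10 * (J:ℝ) - 8) * B := mul_le_mul_of_nonneg_left hB
          (by apply mul_nonneg hm0; linarith)

end aux

theorem graded_bound {n : ι → E →L[ℝ] E} {Δ : ι → ι → E →L[ℝ] E} (h : Graded n Δ)
    (v : E) (hv : ∀ y, n y v = 0) (q : ℕ) :
    ‖((Dop Δ + Nop n) ^ q) (Dop Δ v)‖ ≤
      (12 * (Fintype.card ι : ℝ)) ^ q * (q ! : ℝ) * ‖Dop Δ v‖ := by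
  rcases Nat.eq_zero_or_pos (Fintype.card ι) with h0 | hpos
  · have : IsEmpty ι := Fintype.card_eq_zero_iff.1 h0
    have e : Dop Δ v = 0 := by
      rw [Dop_apply]
      rw [Finset.sum_eq_zero, smul_zero]
      intro p _
      exact (this.false p.1).elim
    rw [e, map_zero, norm_zero]
    positivity
  have hm : 1 ≤ (Fintype.card ι : ℝ) := by exact_mod_cast hpos
  have hN : Nop n v = 0 := by
    rw [Nop_apply]
    exact Finset.sum_eq_zero fun y _ => hv y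
  have hDv : Dop Δ v = Uv n Δ v := by
    rw [Dop_apply, Uv]
    congr 1
    refine Finset.sum_congr rfl fun p _ => ?_
    simp [hv]
  have hlev : Nop n (Dop Δ v) = (2 * ((1 : ℕ) : ℝ)) • Dop Δ v := by
    rw [hDv, h.levU (l := 0) (by rw [hN, zero_smul])]
    congr 1
    norm_num
  have key : ∀ q : ℕ, GB (Nop n) (q + 2)
      ((12 * (Fintype.card ι : ℝ)) ^ q * (q ! : ℝ) * ‖Dop Δ v‖)
      (((Dop Δ + Nop n) ^ q) (Dop Δ v)) := by
    intro q
    induction q with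
    | zero =>
      refine GB.single 1 _ _ (by simpa using hlev) (by norm_num) (by simp)
    | succ q ih =>
      have h1 := h.GB_step hm ih
      rw [pow_succ' (Dop Δ + Nop n) q]
      refine GB.mono (by omega) h1 ?_
      rw [Nat.factorial_succ, pow_succ]
      push_cast
      have hq : (0:ℝ) ≤ q := Nat.cast_nonneg q
      have hP : 0 ≤ (12 * (Fintype.card ι : ℝ)) ^ q * (q ! : ℝ) * ‖Dop Δ v‖ := by positivity
      have e1 : (Fintype.card ι : ℝ) * (10 * ((q:ℝ) + 2) - 8)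
          ≤ 12 * (Fintype.card ι : ℝ) * ((q:ℝ) + 1) := by nlinarith
      calc (Fintype.card ι : ℝ) * (10 * ((q:ℝ) + 2) - 8) *
            ((12 * (Fintype.card ι : ℝ)) ^ q * (q ! : ℝ) * ‖Dop Δ v‖)
          ≤ 12 * (Fintype.card ι : ℝ) * ((q:ℝ) + 1) *
            ((12 * (Fintype.card ι : ℝ)) ^ q * (q ! : ℝ) * ‖Dop Δ v‖) :=
            mul_le_mul_of_nonneg_right e1 hP
        _ = _ := by ring
  exact (key q).norm_le

/-- `D v` is orthogonal to `v` and `N v = 0`. -/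
theorem graded_first {n : ι → E →L[ℝ] E} {Δ : ι → ι → E →L[ℝ] E} (h : Graded n Δ)
    (v : E) (hv : ∀ y, n y v = 0) : ⟪v, (Dop Δ + Nop n) v⟫_ℝ = 0 := by
  have hN : Nop n v = 0 := by
    rw [Nop_apply]
    exact Finset.sum_eq_zero fun y _ => hv y
  rw [_root_.add_apply, hN, add_zero, Dop_apply, inner_smul_right, inner_sum,
    Finset.sum_eq_zero, mul_zero]
  intro p hp
  have hyz : p.1 ≠ p.2 := by simpa using (mem_offDiag.1 hp).2.2
  have e : Δ p.1 p.2 v = n p.1 (Δ p.1 p.2 v) := by rw [h.flip1 hyz, hv, sub_zero]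
  rw [e, ← h.n_symm, hv, inner_zero_left]

theorem Graded.D_symm {n : ι → E →L[ℝ] E} {Δ : ι → ι → E →L[ℝ] E} (h : Graded n Δ)
    (x y : E) : ⟪Dop Δ x, y⟫_ℝ = ⟪x, Dop Δ y⟫_ℝ := by
  rw [Dop_apply, Dop_apply, inner_smul_left, inner_smul_right, sum_inner, inner_sum]
  congr 1
  exact Finset.sum_congr rfl fun p _ => h.Δ_symm _ _ _ _

theorem Graded.N_symm {n : ι → E →L[ℝ] E} {Δ : ι → ι → E →L[ℝ] E} (h : Graded n Δ)
    (x y : E) : ⟪Nop n x, y⟫_ℝ = ⟪x, Nop n y⟫_ℝ := by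
  rw [Nop_apply, Nop_apply, sum_inner, inner_sum]
  exact Finset.sum_congr rfl fun p _ => h.n_symm _ _ _

/-- From `graded_bound`: `⟨v, X^(q+2) v⟩ = ⟨D v, X^q (D v)⟩` (`X` is symmetric, `X v = D v`). -/
theorem graded_moment {n : ι → E →L[ℝ] E} {Δ : ι → ι → E →L[ℝ] E} (h : Graded n Δ)
    (v : E) (hv : ∀ y, n y v = 0) (q : ℕ) :
    ⟪v, ((Dop Δ + Nop n) ^ (q + 2)) v⟫_ℝ ≤
      (12 * (Fintype.card ι : ℝ)) ^ q * (q ! : ℝ) * ‖Dop Δ v‖ ^ 2 := by
  have hN : Nop n v = 0 := by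
    rw [Nop_apply]
    exact Finset.sum_eq_zero fun y _ => hv y
  have hX : (Dop Δ + Nop n) v = Dop Δ v := by
    rw [_root_.add_apply, hN, add_zero]
  have hsymm : ∀ x y, ⟪(Dop Δ + Nop n) x, y⟫_ℝ = ⟪x, (Dop Δ + Nop n) y⟫_ℝ := by
    intro x y
    rw [_root_.add_apply, _root_.add_apply, inner_add_left,
      inner_add_right, h.D_symm, h.N_symm]
  have e : ((Dop Δ + Nop n) ^ (q + 2)) v
      = (Dop Δ + Nop n) (((Dop Δ + Nop n) ^ q) (Dop Δ v)) := by
    rw [pow_succ', pow_succ, mul_apply_eq_comp, mul_apply_eq_comp, hX]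
  rw [e, ← hsymm, hX]
  calc ⟪Dop Δ v, ((Dop Δ + Nop n) ^ q) (Dop Δ v)⟫_ℝ
      ≤ ‖Dop Δ v‖ * ‖((Dop Δ + Nop n) ^ q) (Dop Δ v)‖ := real_inner_le_norm _ _
    _ ≤ ‖Dop Δ v‖ * ((12 * (Fintype.card ι : ℝ)) ^ q * (q ! : ℝ) * ‖Dop Δ v‖) :=
        mul_le_mul_of_nonneg_left (graded_bound h v hv q) (norm_nonneg _)
    _ = _ := by ring

/-- Different edges give orthogonal vectors: `⟨Δ y z v, Δ y' z' v⟩ = 0` unless
`{y,z} = {y',z'}` (a site in one pair and not in the other is odd in one vector and even in the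
other one). -/
theorem graded_orth {n : ι → E →L[ℝ] E} {Δ : ι → ι → E →L[ℝ] E} (h : Graded n Δ)
    (v : E) (hv : ∀ y, n y v = 0) :
    ‖Dop Δ v‖ ^ 2 = (1 / 8) * ∑ p ∈ (univ : Finset ι).offDiag, ‖Δ p.1 p.2 v‖ ^ 2 := by
  have horth : ∀ p ∈ (univ : Finset ι).offDiag, ∀ p' ∈ (univ : Finset ι).offDiag,
      p' ≠ p → p' ≠ p.swap → ⟪Δ p.1 p.2 v, Δ p'.1 p'.2 v⟫_ℝ = 0 := by
    intro p hp p' hp' h1 h2
    have hyz : p.1 ≠ p.2 := by simpa using (mem_offDiag.1 hp).2.2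
    have hyz' : p'.1 ≠ p'.2 := by simpa using (mem_offDiag.1 hp').2.2
    by_cases c1 : p.1 ≠ p'.1 ∧ p.1 ≠ p'.2
    · have e : Δ p.1 p.2 v = n p.1 (Δ p.1 p.2 v) := by rw [h.flip1 hyz, hv, sub_zero]
      rw [e, h.n_symm, h.pass c1.1 c1.2, hv, map_zero, inner_zero_right]
    · by_cases c2 : p.2 ≠ p'.1 ∧ p.2 ≠ p'.2
      · have e : Δ p.1 p.2 v = n p.2 (Δ p.1 p.2 v) := by rw [h.flip2 hyz, hv, sub_zero]
        rw [e, h.n_symm, h.pass c2.1 c2.2, hv, map_zero, inner_zero_right]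
      · exfalso
        rw [not_and_or, not_not, not_not] at c1 c2
        rcases c1 with c1 | c1
        · rcases c2 with c2 | c2
          · exact hyz (c1.trans c2.symm)
          · exact h1 (Prod.ext c1.symm c2.symm)
        · rcases c2 with c2 | c2
          · exact h2 (Prod.ext c2.symm c1.symm)
          · exact hyz (c1.trans c2.symm)
  have e1 : ‖Dop Δ v‖ ^ 2 = (1 / 16) * ∑ p ∈ (univ : Finset ι).offDiag,
      ∑ p' ∈ (univ : Finset ι).offDiag, ⟪Δ p.1 p.2 v, Δ p'.1 p'.2 v⟫_ℝ := by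
    rw [← real_inner_self_eq_norm_sq, Dop_apply, real_inner_smul_left, inner_smul_right,
      sum_inner]
    have : ∀ p ∈ (univ : Finset ι).offDiag,
        ⟪Δ p.1 p.2 v, ∑ p' ∈ (univ : Finset ι).offDiag, Δ p'.1 p'.2 v⟫_ℝ
        = ∑ p' ∈ (univ : Finset ι).offDiag, ⟪Δ p.1 p.2 v, Δ p'.1 p'.2 v⟫_ℝ :=
      fun p _ => inner_sum _ _ _
    rw [Finset.sum_congr rfl this]
    ring
  have e2 : ∀ p ∈ (univ : Finset ι).offDiag,
      ∑ p' ∈ (univ : Finset ι).offDiag, ⟪Δ p.1 p.2 v, Δ p'.1 p'.2 v⟫_ℝ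
        = 2 * ‖Δ p.1 p.2 v‖ ^ 2 := by
    intro p hp
    have hyz : p.1 ≠ p.2 := by simpa using (mem_offDiag.1 hp).2.2
    have hps : p.swap ∈ (univ : Finset ι).offDiag := by simpa using hyz.symm
    have hne : p ≠ p.swap := by
      intro hc
      exact hyz (congrArg Prod.fst hc)
    have hsub : ({p, p.swap} : Finset (ι × ι)) ⊆ (univ : Finset ι).offDiag := by
      intro x hx
      rcases Finset.mem_insert.1 hx with rfl | hx
      · exact hp
      · rw [Finset.mem_singleton.1 hx]; exact hps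
    rw [← Finset.sum_subset hsub, Finset.sum_pair hne, Prod.fst_swap, Prod.snd_swap,
      h.Δ_swap p.2 p.1, real_inner_self_eq_norm_sq]
    · ring
    · intro x hx hx'
      rw [Finset.mem_insert, Finset.mem_singleton, not_or] at hx'
      exact horth p hp x hx hx'.1 hx'.2
  rw [e1, Finset.sum_congr rfl e2, ← Finset.mul_sum]
  ring

end Vale.Agent.ThorpA
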