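import Vale.Agent.ThorpA.Pair

/-!
# P162 module G5: the Laplacian is large on vectors of high level

`fixS ρ S` = vectors fixed by all transpositions inside `S` (all vectors if `|S| ≤ 1`).
If `g ⊥ fixS S` for every `S ⊆ F` with `|S| > s`, then `⟨g, Lap F g⟩ ≥ |F| (|F| - s) / 2 * ‖g‖^2`.

## Proof (strong induction on `N = |F|`, `s` and `g` arbitrary)
If `N ≤ s` trivial (`Lap ≥ 0`). The space `V` of such `g` is stable under `Lap F` (for
`a, b ∈ F`, `⟨tr a b g, k⟩ = ⟨g, tr a b k⟩` and `tr a b k ∈ fixS (swap a b '' S)`), and `Lap F` is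
symmetric, so it is enough to bound the eigenvalue `l` of an eigenvector `g ≠ 0` of `Lap F` in `V`
(spectral theorem for `(Lap F).restrict` on `V`).
Let `s'` be the largest cardinality of an `S ⊆ F` with `g` not orthogonal to `fixS S`
(exists: `fixS ∅ = ⊤`; `1 ≤ s' ≤ s`), fix such an `S` with `|S| = s'`, and put
`h = ∑_{σ fixing all points outside S} ρ σ g`. Then `h ∈ fixS S`, `h ≠ 0`
(`⟨h, k⟩ = (s')! ⟨g, k⟩` for `k ∈ fixS S`), `Lap F h = l • h`, and `h ⊥ fixS S''` for all
`S'' ⊆ F` with `|S''| > s'`.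
For `i ∈ F \ S`: `u = h + ∑_{j ∈ S} tr i j h ∈ fixS (insert i S)` and `⟨u,u⟩ = (s'+1) ⟨h,u⟩ = 0`, so
`∑_{j ∈ S} (1 - tr i j) h = (s' + 1) h`. Hence
`Lap F h = 0 + (N - s') (s' + 1) h + Lap (F \ S) h` and by induction
`l ≥ (N - s')(s' + 1) + (N - s')(N - 2 s')/2 = (N - s')(N + 2)/2 ≥ N (N - s)/2`.
-/

set_option linter.unusedSectionVars false

namespace Vale.Agent.ThorpA

open Finset
open scoped InnerProductSpace Nat

variable {α : Type*} [DecidableEq α] {E : Type*} [NormedAddCommGroup E] [InnerProductSpace ℝ E]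
variable {ρ : Equiv.Perm α →* (E →L[ℝ] E)}

/-- `tr a b (tr i j h) = tr i (swap a b j) h` -/
theorem tr_tr_fix {S : Finset α} {i : α} (hi : i ∉ S) {h : E}
    (hS : h ∈ fixS ρ S) {a b j : α} (ha : a ∈ insert i S) (hb : b ∈ insert i S)
    (hj : j ∈ insert i S) : tr ρ a b (tr ρ i j h) = tr ρ i (Equiv.swap a b j) h := by
  -- conjugation, pointwise
  have conj : ∀ (c d p q : α) (x : E), tr ρ c d (tr ρ p q x) =
      tr ρ (Equiv.swap c d p) (Equiv.swap c d q) (tr ρ c d x) := by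
    intro c d p q x
    have := congrArg (fun T : E →L[ℝ] E => T x) (rho_mul_tr (ρ := ρ) (Equiv.swap c d) p q)
    exact this
  have main : ∀ b ∈ S, tr ρ i b (tr ρ i j h) = tr ρ i (Equiv.swap i b j) h := by
    intro b hb
    have hib : i ≠ b := fun h => hi (h ▸ hb)
    by_cases h1 : j = i
    · subst h1
      rw [Equiv.swap_apply_left, tr_self]
      rfl
    · by_cases h2 : j = b
      · subst h2
        rw [Equiv.swap_apply_right, tr_apply_self, tr_self]
        rfl
      · have hjS : j ∈ S := (mem_insert.1 hj).resolve_left h1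
        rw [Equiv.swap_apply_of_ne_of_ne h1 h2]
        have e1 := conj i b i j h
        rw [Equiv.swap_apply_left, Equiv.swap_apply_of_ne_of_ne h1 h2] at e1
        have e2 := conj b j i b h
        rw [Equiv.swap_apply_of_ne_of_ne hib (Ne.symm h1), Equiv.swap_apply_left,
          hS b hb j hjS] at e2
        rw [e1, e2]
  rcases mem_insert.1 ha with ha' | ha'
  · subst ha'
    rcases mem_insert.1 hb with hb' | hb'
    · subst hb'
      rw [tr_self, Equiv.swap_self]
      rfl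
    · exact main b hb'
  · rcases mem_insert.1 hb with hb' | hb'
    · subst hb'
      rw [tr_comm, Equiv.swap_comm]
      exact main a ha'
    · have e1 := conj a b i j h
      have n1 : i ≠ a := fun e => hi (by rw [e]; exact ha')
      have n2 : i ≠ b := fun e => hi (by rw [e]; exact hb')
      rw [hS a ha' b hb', Equiv.swap_apply_of_ne_of_ne n1 n2] at e1
      exact e1

/-- The key computation: a vector fixed inside `S` and orthogonal to `fixS (insert i S)`. -/
theorem star_apply (hρ : IsOrth ρ) {S : Finset α} {i : α} (hi : i ∉ S) {h : E}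
    (hS : h ∈ fixS ρ S) (ho : ∀ k ∈ fixS ρ (insert i S), ⟪h, k⟫_ℝ = 0) :
    ∑ j ∈ S, (h - tr ρ i j h) = ((S.card : ℝ) + 1) • h := by
  set u : E := ∑ j ∈ insert i S, tr ρ i j h with hu
  have hsw : ∀ a ∈ insert i S, ∀ b ∈ insert i S, ∀ j ∈ insert i S,
      Equiv.swap a b j ∈ insert i S := by
    intro a ha b hb j hj
    rw [Equiv.swap_apply_def]
    split_ifs <;> assumption
  have huf : u ∈ fixS ρ (insert i S) := by
    intro a ha b hb
    rw [hu, map_sum]
    rw [Finset.sum_congr rfl fun j hj => tr_tr_fix hi hS ha hb hj]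
    refine Finset.sum_bij' (fun j _ => Equiv.swap a b j) (fun j _ => Equiv.swap a b j)
      (fun j hj => hsw a ha b hb j hj) (fun j hj => hsw a ha b hb j hj)
      (fun j _ => Equiv.swap_apply_self _ _ _) (fun j _ => Equiv.swap_apply_self _ _ _) ?_
    intro j _
    rfl
  have huh : ⟪h, u⟫_ℝ = 0 := ho u huf
  have huu : ⟪u, u⟫_ℝ = 0 := by
    conv_lhs => rw [hu]
    rw [sum_inner]
    refine Finset.sum_eq_zero fun j hj => ?_
    rw [tr_symm hρ, ← hu, huf i (mem_insert_self i S) j hj, huh]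
  have hu0 : u = 0 := inner_self_eq_zero.1 huu
  rw [hu, Finset.sum_insert hi, tr_self] at hu0
  have h1 : ∑ j ∈ S, tr ρ i j h = -h := by
    have h2 : h + ∑ j ∈ S, tr ρ i j h = 0 := hu0
    exact (neg_eq_of_add_eq_zero_right h2).symm
  rw [Finset.sum_sub_distrib, h1, Finset.sum_const, sub_neg_eq_add, add_smul, one_smul,
    ← Nat.cast_smul_eq_nsmul ℝ]

/-- lower bound of a symmetric operator from its eigenvalues -/
theorem rayleigh_lower {W : Type*} [NormedAddCommGroup W] [InnerProductSpace ℝ W]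
    [FiniteDimensional ℝ W] (T : W →ₗ[ℝ] W) (hT : T.IsSymmetric) (c : ℝ)
    (h : ∀ (l : ℝ) (v : W), v ≠ 0 → T v = l • v → c ≤ l) (x : W) :
    c * ‖x‖ ^ 2 ≤ ⟪x, T x⟫_ℝ := by
  set b := hT.eigenvectorBasis (n := Module.finrank ℝ W) rfl with hb
  have h1 := b.sum_inner_mul_inner x (T x)
  have h2 := b.sum_inner_mul_inner x x
  rw [real_inner_self_eq_norm_sq] at h2
  rw [← h1, ← h2, Finset.mul_sum]
  refine Finset.sum_le_sum fun i _ => ?_
  have h3 : T (b i) = (hT.eigenvalues rfl i) • b i := hT.apply_eigenvectorBasis rfl i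
  have h4 : c ≤ hT.eigenvalues rfl i := by
    refine h _ (b i) ?_ h3
    intro h0
    have := b.orthonormal.1 i
    rw [h0, norm_zero] at this
    exact zero_ne_one this
  have h5 : ⟪b i, T x⟫_ℝ = hT.eigenvalues rfl i * ⟪b i, x⟫_ℝ := by
    rw [← hT (b i) x, h3, real_inner_smul_left]
  rw [h5, real_inner_comm (b i) x]
  nlinarith [mul_self_nonneg ⟪b i, x⟫_ℝ]

section Avg

variable [Fintype α]

/-- permutations fixing every point outside `S` -/
def supp (S : Finset α) : Finset (Equiv.Perm α) :=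
  univ.filter fun σ => ∀ x, x ∉ S → σ x = x

theorem mem_supp {S : Finset α} {σ : Equiv.Perm α} : σ ∈ supp S ↔ ∀ x, x ∉ S → σ x = x := by
  simp [supp]

theorem supp_mem {S : Finset α} {σ : Equiv.Perm α} (h : σ ∈ supp S) {x : α} (hx : x ∈ S) :
    σ x ∈ S := by
  by_contra h1
  have h2 := mem_supp.1 h (σ x) h1
  have h3 := σ.injective h2
  rw [h3] at h1
  exact h1 hx

theorem supp_inv {S : Finset α} {σ : Equiv.Perm α} (h : σ ∈ supp S) : σ⁻¹ ∈ supp S := by
  rw [mem_supp] at h ⊢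
  intro x hx
  rw [Equiv.Perm.inv_eq_iff_eq]
  exact (h x hx).symm

theorem supp_mul {S : Finset α} {σ τ : Equiv.Perm α} (h : σ ∈ supp S) (h' : τ ∈ supp S) :
    σ * τ ∈ supp S := by
  rw [mem_supp] at h h' ⊢
  intro x hx
  rw [Equiv.Perm.mul_apply, h' x hx, h x hx]

theorem supp_swap {S : Finset α} {a b : α} (ha : a ∈ S) (hb : b ∈ S) :
    Equiv.swap a b ∈ supp S := by
  rw [mem_supp]
  intro x hx
  exact Equiv.swap_apply_of_ne_of_ne (fun h => hx (h ▸ ha)) (fun h => hx (h ▸ hb))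

/-- permutations supported in `S` fix the vectors of `fixS S` -/
theorem supp_fix {S : Finset α} {k : E} (hk : k ∈ fixS ρ S) (n : ℕ) :
    ∀ σ ∈ supp S, σ.support.card ≤ n → ρ σ k = k := by
  induction n with
  | zero =>
    intro σ _ hc
    have : σ = 1 := by
      rw [← Equiv.Perm.support_eq_empty_iff, ← card_eq_zero]
      omega
    rw [this, map_one]; rfl
  | succ n ih =>
    intro σ hσ hc
    by_cases h1 : σ = 1
    · rw [h1, map_one]; rfl
    · obtain ⟨x, hx⟩ : ∃ x, σ x ≠ x := by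
        by_contra hcon
        push Not at hcon
        exact h1 (Equiv.ext hcon)
      have hxS : x ∈ S := by
        by_contra hxS
        exact hx (mem_supp.1 hσ x hxS)
      have hsx : σ x ∈ S := supp_mem hσ hxS
      have hlt := Equiv.Perm.card_support_swap_mul hx
      have hτ : Equiv.swap x (σ x) * σ ∈ supp S := supp_mul (supp_swap hxS hsx) hσ
      have h2 := ih _ hτ (by omega)
      rw [map_mul] at h2
      have h3 : tr ρ x (σ x) (ρ σ k) = k := h2
      have h4 := congrArg (tr ρ x (σ x)) h3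
      rw [tr_apply_self, hk x hxS (σ x) hsx] at h4
      exact h4

theorem supp_fix' {S : Finset α} {k : E} (hk : k ∈ fixS ρ S) {σ : Equiv.Perm α}
    (hσ : σ ∈ supp S) : ρ σ k = k := supp_fix hk _ σ hσ le_rfl

/-- `⟨ρ σ x, y⟩ = ⟨x, ρ σ⁻¹ y⟩` -/
theorem inner_rho_left (hρ : IsOrth ρ) (σ : Equiv.Perm α) (x y : E) :
    ⟪ρ σ x, y⟫_ℝ = ⟪x, ρ σ⁻¹ y⟫_ℝ := by
  have h1 : ρ σ (ρ σ⁻¹ y) = y := by
    have := congrArg (fun T : E →L[ℝ] E => T y) (map_mul ρ σ σ⁻¹)
    rw [mul_inv_cancel, map_one] at this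
    exact this.symm
  rw [← inner_rho hρ σ x (ρ σ⁻¹ y), h1]

/-- the (unnormalised) average over the permutations supported in `S` -/
noncomputable def avS (ρ : Equiv.Perm α →* (E →L[ℝ] E)) (S : Finset α) (g : E) : E :=
  ∑ σ ∈ supp S, ρ σ g

theorem avS_mem (S : Finset α) (g : E) : avS ρ S g ∈ fixS ρ S := by
  intro a ha b hb
  unfold avS
  rw [map_sum]
  refine Finset.sum_bij' (fun σ _ => Equiv.swap a b * σ) (fun σ _ => Equiv.swap a b * σ)
    (fun σ hσ => supp_mul (supp_swap ha hb) hσ) (fun σ hσ => supp_mul (supp_swap ha hb) hσ)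
    (fun σ _ => by rw [← mul_assoc, Equiv.swap_mul_self, one_mul])
    (fun σ _ => by rw [← mul_assoc, Equiv.swap_mul_self, one_mul]) ?_
  intro σ _
  rw [map_mul]
  rfl

theorem inner_avS (hρ : IsOrth ρ) {S : Finset α} (g : E) {k : E} (hk : k ∈ fixS ρ S) :
    ⟪avS ρ S g, k⟫_ℝ = ((supp S).card : ℝ) * ⟪g, k⟫_ℝ := by
  unfold avS
  rw [sum_inner]
  have : ∀ σ ∈ supp S, ⟪ρ σ g, k⟫_ℝ = ⟪g, k⟫_ℝ := by
    intro σ hσ
    rw [inner_rho_left hρ, supp_fix' hk (supp_inv hσ)]
  rw [Finset.sum_congr rfl this, Finset.sum_const, nsmul_eq_mul]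

theorem supp_card_pos (S : Finset α) : 0 < (supp S).card :=
  card_pos.2 ⟨1, mem_supp.2 fun _ _ => rfl⟩

/-- rotate `fixS` -/
theorem rho_mem_fixS {S : Finset α} (σ : Equiv.Perm α) {k : E} (hk : k ∈ fixS ρ S) :
    ρ σ k ∈ fixS ρ (S.image σ) := by
  intro a ha b hb
  obtain ⟨a', ha', rfl⟩ := mem_image.1 ha
  obtain ⟨b', hb', rfl⟩ := mem_image.1 hb
  have := congrArg (fun T : E →L[ℝ] E => T k) (rho_mul_tr (ρ := ρ) σ a' b')
  have h2 : ρ σ (tr ρ a' b' k) = tr ρ (σ a') (σ b') (ρ σ k) := this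
  rw [← h2, hk a' ha' b' hb']

/-- orthogonality to `fixS T` for all large `T ⊆ F` -/
def Orth (ρ : Equiv.Perm α →* (E →L[ℝ] E)) (F : Finset α) (s : ℕ) (g : E) : Prop :=
  ∀ S ⊆ F, s < S.card → ∀ k ∈ fixS ρ S, ⟪g, k⟫_ℝ = 0

theorem Orth.rho (hρ : IsOrth ρ) {F : Finset α} {s : ℕ} {g : E} (hg : Orth ρ F s g)
    {σ : Equiv.Perm α} (hσ : ∀ a ∈ F, σ⁻¹ a ∈ F) : Orth ρ F s (ρ σ g) := by
  intro S hS hc k hk
  rw [inner_rho_left hρ]
  refine hg (S.image (σ⁻¹ : Equiv.Perm α)) ?_ ?_ _ (rho_mem_fixS σ⁻¹ hk)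
  · intro a ha
    obtain ⟨a', ha', rfl⟩ := mem_image.1 ha
    exact hσ a' (hS ha')
  · rwa [card_image_of_injective _ (σ⁻¹ : Equiv.Perm α).injective]

/-- the submodule of `Orth` vectors -/
def orthS (ρ : Equiv.Perm α →* (E →L[ℝ] E)) (F : Finset α) (s : ℕ) : Submodule ℝ E where
  carrier := {g | Orth ρ F s g}
  add_mem' := by
    intro x y hx hy S hS hc k hk
    rw [inner_add_left, hx S hS hc k hk, hy S hS hc k hk, add_zero]
  zero_mem' := by
    intro S _ _ k _
    exact inner_zero_left k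
  smul_mem' := by
    intro c x hx S hS hc k hk
    rw [real_inner_smul_left, hx S hS hc k hk, mul_zero]

theorem Orth.lapl (hρ : IsOrth ρ) {F : Finset α} {s : ℕ} {g : E} (hg : Orth ρ F s g) :
    Orth ρ F s (Lap ρ F g) := by
  have h1 : Lap ρ F g ∈ orthS ρ F s := by
    rw [Lap_apply]
    refine (orthS ρ F s).smul_mem _ ?_
    refine (orthS ρ F s).sum_mem fun a ha => (orthS ρ F s).sum_mem fun b hb => ?_
    have h2 : (1 - tr ρ a b) g = g - tr ρ a b g := rfl
    rw [h2]
    refine (orthS ρ F s).sub_mem hg ?_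
    refine Orth.rho hρ hg ?_
    intro c hc
    rw [Equiv.swap_inv, Equiv.swap_apply_def]
    split_ifs <;> assumption
  exact h1

/-- the decomposition of the Laplacian of `F = S ∪ R` -/
theorem Lap_split (F S : Finset α) (hSF : S ⊆ F) (h : E) :
    Lap ρ F h = Lap ρ S h + ∑ i ∈ F \ S, ∑ j ∈ S, (h - tr ρ i j h) + Lap ρ (F \ S) h := by
  have e : ∀ a b, (1 - tr ρ a b) h = h - tr ρ a b h := fun _ _ => rfl
  simp only [Lap_apply, e]
  have h1 : ∀ f : α → E, ∑ a ∈ F, f a = ∑ a ∈ S, f a + ∑ a ∈ F \ S, f a := by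
    intro f
    rw [add_comm]
    exact (Finset.sum_sdiff hSF).symm
  have h2 : ∑ a ∈ S, ∑ b ∈ F \ S, (h - tr ρ a b h) = ∑ i ∈ F \ S, ∑ j ∈ S, (h - tr ρ i j h) := by
    rw [Finset.sum_comm]
    refine Finset.sum_congr rfl fun i _ => Finset.sum_congr rfl fun j _ => ?_
    rw [tr_comm]
  rw [h1]
  have h3 : ∑ a ∈ S, ∑ b ∈ F, (h - tr ρ a b h) =
      ∑ a ∈ S, ∑ b ∈ S, (h - tr ρ a b h) + ∑ i ∈ F \ S, ∑ j ∈ S, (h - tr ρ i j h) := by
    rw [← h2, ← Finset.sum_add_distrib]
    exact Finset.sum_congr rfl fun a _ => h1 _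
  have h4 : ∑ a ∈ F \ S, ∑ b ∈ F, (h - tr ρ a b h) =
      ∑ i ∈ F \ S, ∑ j ∈ S, (h - tr ρ i j h) + ∑ a ∈ F \ S, ∑ b ∈ F \ S, (h - tr ρ a b h) := by
    rw [← Finset.sum_add_distrib]
    exact Finset.sum_congr rfl fun a _ => h1 _
  rw [h3, h4]
  module

theorem Lap_fixS {S : Finset α} {h : E} (hS : h ∈ fixS ρ S) : Lap ρ S h = 0 := by
  rw [Lap_apply]
  have : ∑ a ∈ S, ∑ b ∈ S, (1 - tr ρ a b) h = 0 := by
    refine Finset.sum_eq_zero fun a ha => Finset.sum_eq_zero fun b hb => ?_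
    have h2 : (1 - tr ρ a b) h = h - tr ρ a b h := rfl
    rw [h2, hS a ha b hb, sub_self]
  rw [this, smul_zero]

/-- the induction step: lower bound for eigenvalues -/
theorem eig_lower (hρ : IsOrth ρ) (F : Finset α)
    (IH : ∀ F' : Finset α, F'.card < F.card → ∀ (s : ℕ) (g : E), Orth ρ F' s g →
      ((F'.card : ℝ) * ((F'.card : ℝ) - s) / 2) * ‖g‖ ^ 2 ≤ ⟪g, Lap ρ F' g⟫_ℝ)
    (s : ℕ) (g : E) (hg : Orth ρ F s g) (hg0 : g ≠ 0) (l : ℝ) (hl : Lap ρ F g = l • g) :
    (F.card : ℝ) * ((F.card : ℝ) - s) / 2 ≤ l := by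
  classical
  have hl0 : 0 ≤ l := by
    have h1 := Lap_nonneg hρ F g
    rw [hl, real_inner_smul_right, real_inner_self_eq_norm_sq] at h1
    have h2 : 0 < ‖g‖ ^ 2 := by positivity
    by_contra hneg
    push Not at hneg
    nlinarith
  rcases Nat.eq_zero_or_pos F.card with hF0 | hFpos
  · rw [hF0]; simpa using hl0
  -- subsets `S ⊆ F` with `avS g ≠ 0`
  set P : Finset (Finset α) := F.powerset.filter fun S => avS ρ S g ≠ 0 with hP
  obtain ⟨a, ha⟩ := card_pos.1 hFpos
  have hsing : ({a} : Finset α) ∈ P := by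
    rw [hP, mem_filter, mem_powerset]
    refine ⟨by simpa using ha, ?_⟩
    have h1 : supp ({a} : Finset α) = {1} := by
      ext σ
      rw [mem_supp, mem_singleton]
      constructor
      · intro h
        ext x
        by_cases hx : x = a
        · subst hx
          by_contra hne
          have h2 := h (σ x) (by simpa using hne)
          exact hne (σ.injective h2)
        · exact h x (by simpa using hx)
      · rintro rfl x _
        rfl
    unfold avS
    rw [h1, sum_singleton, map_one]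
    exact hg0
  obtain ⟨S, hSP, hSmax⟩ := Finset.exists_max_image P (fun S => S.card) ⟨_, hsing⟩
  rw [hP, mem_filter, mem_powerset] at hSP
  obtain ⟨hSF, hh0⟩ := hSP
  set h := avS ρ S g with hh
  have hScard1 : 1 ≤ S.card := by
    have := hSmax _ hsing
    simpa using this
  have hfix : h ∈ fixS ρ S := avS_mem S g
  -- g is orthogonal to fixS T for larger T
  have hgT : Orth ρ F S.card g := by
    intro T hT hc k hk
    have h1 : avS ρ T g = 0 := by
      by_contra hne
      have : T ∈ P := by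
        rw [hP, mem_filter, mem_powerset]
        exact ⟨hT, hne⟩
      have := hSmax _ this
      omega
    have h2 := inner_avS hρ g hk
    rw [h1, inner_zero_left] at h2
    have h3 : ((supp T).card : ℝ) ≠ 0 := by
      exact_mod_cast (supp_card_pos T).ne'
    exact (mul_eq_zero.1 h2.symm).resolve_left h3
  -- cardinality at most s
  have hSs : S.card ≤ s := by
    by_contra hcon
    push Not at hcon
    have h1 : ⟪h, h⟫_ℝ = 0 := by
      rw [hh, inner_avS hρ g hfix, hg S hSF hcon h hfix, mul_zero]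
    exact hh0 (inner_self_eq_zero.1 h1)
  have hhO : Orth ρ F S.card h := by
    have : h ∈ orthS ρ F S.card := by
      rw [hh]
      unfold avS
      refine (orthS ρ F S.card).sum_mem fun σ hσ => ?_
      refine Orth.rho hρ hgT ?_
      intro c hc
      by_cases hcS : c ∈ S
      · exact hSF (supp_mem (supp_inv hσ) hcS)
      · rw [mem_supp.1 (supp_inv hσ) c hcS]
        exact hc
    exact this
  -- eigenvector
  have hLh : Lap ρ F h = l • h := by
    rw [hh]
    unfold avS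
    rw [map_sum, Finset.smul_sum]
    refine Finset.sum_congr rfl fun σ hσ => ?_
    have hcomm := Lap_comm_rho (ρ := ρ) F σ (by
      intro c
      constructor
      · intro hc
        by_cases hcS : c ∈ S
        · exact hSF (supp_mem hσ hcS)
        · rw [mem_supp.1 hσ c hcS]; exact hc
      · intro hc
        by_cases hcS : c ∈ S
        · exact hSF hcS
        · rw [mem_supp.1 hσ c hcS] at hc; exact hc)
    have h1 := congrArg (fun T : E →L[ℝ] E => T g) hcomm.eq
    have h2 : ρ σ (Lap ρ F g) = Lap ρ F (ρ σ g) := h1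
    rw [← h2, hl, map_smul]
  -- the decomposition
  have hdec := Lap_split (ρ := ρ) F S hSF h
  rw [Lap_fixS hfix, zero_add] at hdec
  have hstar : ∑ i ∈ F \ S, ∑ j ∈ S, (h - tr ρ i j h) =
      ((F \ S).card : ℝ) • ((S.card : ℝ) + 1) • h := by
    have h1 : ∀ i ∈ F \ S, ∑ j ∈ S, (h - tr ρ i j h) = ((S.card : ℝ) + 1) • h := by
      intro i hi
      rw [mem_sdiff] at hi
      refine star_apply hρ hi.2 hfix ?_
      intro k hk
      refine hhO (insert i S) (insert_subset hi.1 hSF) ?_ k hk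
      rw [card_insert_of_notMem hi.2]
      omega
    rw [Finset.sum_congr rfl h1, Finset.sum_const, ← Nat.cast_smul_eq_nsmul ℝ]
  rw [hstar, hLh] at hdec
  have hcardR : ((F \ S).card : ℝ) = (F.card : ℝ) - S.card := by
    rw [card_sdiff_of_subset hSF, Nat.cast_sub (card_le_card hSF)]
  have hlt : (F \ S).card < F.card := by
    rw [card_sdiff_of_subset hSF]
    omega
  have hIH := IH (F \ S) hlt S.card h (fun T hT hc k hk =>
    hhO T (hT.trans sdiff_subset) hc k hk)
  have hin : l * ‖h‖ ^ 2 = ((F.card : ℝ) - S.card) * ((S.card : ℝ) + 1) * ‖h‖ ^ 2 +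
      ⟪h, Lap ρ (F \ S) h⟫_ℝ := by
    have h1 := congrArg (fun z : E => ⟪h, z⟫_ℝ) hdec
    simp only [inner_add_right, real_inner_smul_right, real_inner_self_eq_norm_sq, hcardR] at h1
    rw [h1]; ring
  rw [hcardR] at hIH
  have hpos : 0 < ‖h‖ ^ 2 := by positivity
  have hle : ((F.card : ℝ) - S.card) * ((F.card : ℝ) + 2) / 2 ≤ l := by
    have h1 : (((F.card : ℝ) - S.card) * ((F.card : ℝ) + 2) / 2) * ‖h‖ ^ 2 ≤ l * ‖h‖ ^ 2 := by
      rw [hin]
      nlinarith [hIH]
    exact le_of_mul_le_mul_right h1 hpos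
  refine le_trans ?_ hle
  have h1 : (S.card : ℝ) ≤ s := by exact_mod_cast hSs
  have h2 : (S.card : ℝ) ≤ F.card := by exact_mod_cast card_le_card hSF
  have h3 : (0 : ℝ) ≤ F.card := by positivity
  nlinarith

end Avg

theorem level_bound [Fintype α] [FiniteDimensional ℝ E] (hρ : IsOrth ρ) (F : Finset α) (s : ℕ)
    (g : E) (hg : ∀ S ⊆ F, s < S.card → ∀ k ∈ fixS ρ S, ⟪g, k⟫_ℝ = 0) :
    ((F.card : ℝ) * ((F.card : ℝ) - s) / 2) * ‖g‖ ^ 2 ≤ ⟪g, Lap ρ F g⟫_ℝ := by
  have main : ∀ (N : ℕ) (F : Finset α), F.card = N → ∀ (s : ℕ) (g : E), Orth ρ F s g →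
      ((F.card : ℝ) * ((F.card : ℝ) - s) / 2) * ‖g‖ ^ 2 ≤ ⟪g, Lap ρ F g⟫_ℝ := by
    intro N
    induction N using Nat.strong_induction_on with
    | _ N ih =>
      intro F hF s g hg
      have IH : ∀ F' : Finset α, F'.card < F.card → ∀ (s : ℕ) (g : E), Orth ρ F' s g →
          ((F'.card : ℝ) * ((F'.card : ℝ) - s) / 2) * ‖g‖ ^ 2 ≤ ⟪g, Lap ρ F' g⟫_ℝ := by
        intro F' hF' s g hg
        exact ih F'.card (by omega) F' rfl s g hg
      -- restrict the Laplacian to the invariant subspace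
      set T : orthS ρ F s →ₗ[ℝ] orthS ρ F s :=
        ((Lap ρ F : E →L[ℝ] E) : E →ₗ[ℝ] E).restrict (p := orthS ρ F s) (q := orthS ρ F s)
          (fun x hx => Orth.lapl hρ hx) with hTdef
      have hT : T.IsSymmetric := by
        intro x y
        exact Lap_symm hρ F x y
      have h1 := rayleigh_lower T hT ((F.card : ℝ) * ((F.card : ℝ) - s) / 2) (by
        intro l v hv hlv
        refine eig_lower hρ F IH s v v.2 (fun h0 => hv (Subtype.ext h0)) l ?_
        have := congrArg (fun z : orthS ρ F s => (z : E)) hlv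
        exact this) ⟨g, hg⟩
      exact h1
  exact main F.card F rfl s g hg

end Vale.Agent.ThorpA
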