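import Vale.Agent.ThorpA.Rep
import Vale.Agent.ThorpA.Graded

/-!
# P162 module G2: the exact identity `L_0 + L_1 = L/2 - D - N`

Two families of positions `x₀, x₁ : ι → α`, all distinct. `s_y = swap (x₀ y) (x₁ y)`,
`n_y = (1 - ρ s_y)/2`, `Δ_{yz} = t(x₀y,x₀z) + t(x₁y,x₁z) - t(x₀y,x₁z) - t(x₁y,x₀z)`.
-/

namespace Vale.Agent.ThorpA

open Finset
open scoped InnerProductSpace Nat

variable {α : Type*} [DecidableEq α] {E : Type*} [NormedAddCommGroup E] [InnerProductSpace ℝ E]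
variable {ρ : Equiv.Perm α →* (E →L[ℝ] E)}

/-! ### The Laplacian -/

theorem offDiag_sub {β : Type*} [DecidableEq β] (S : Finset β) : S.offDiag ⊆ S ×ˢ S := by
  intro p hp
  rw [mem_offDiag] at hp
  exact mem_product.mpr ⟨hp.1, hp.2.1⟩

theorem tr_self (a : α) : tr ρ a a = 1 := by
  unfold tr
  rw [Equiv.swap_self, ← Equiv.Perm.one_def, map_one]

/-- The Laplacian as a double sum (the diagonal terms vanish). -/
theorem Lap_eq (S : Finset α) :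
    Lap ρ S = (1 / 2 : ℝ) • ∑ a ∈ S, ∑ b ∈ S, (1 - tr ρ a b) := by
  unfold Lap
  congr 1
  rw [← Finset.sum_product', ← Finset.sum_subset (offDiag_sub S)]
  intro p hp hn
  rw [mem_product] at hp
  have : p.1 = p.2 := by
    by_contra h
    exact hn (mem_offDiag.mpr ⟨hp.1, hp.2, h⟩)
  rw [this, tr_self, sub_self]

theorem one_sub_tr_symm (hρ : IsOrth ρ) (a b : α) (x y : E) :
    ⟪(1 - tr ρ a b) x, y⟫_ℝ = ⟪x, (1 - tr ρ a b) y⟫_ℝ := by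
  have e : ∀ z : E, (1 - tr ρ a b) z = z - tr ρ a b z := fun _ => rfl
  rw [e, e, inner_sub_left, inner_sub_right, tr_symm hρ]

/-- `‖v - t v‖^2 = 2 ⟨v, v - t v⟩`. -/
theorem norm_sub_tr_sq (hρ : IsOrth ρ) (a b : α) (v : E) :
    ‖v - tr ρ a b v‖ ^ 2 = 2 * ⟪v, v - tr ρ a b v⟫_ℝ := by
  rw [norm_sub_sq_real, tr_norm hρ, inner_sub_right, real_inner_self_eq_norm_sq]
  ring

theorem inner_one_sub_tr_nonneg (hρ : IsOrth ρ) (a b : α) (v : E) :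
    0 ≤ ⟪v, (1 - tr ρ a b) v⟫_ℝ := by
  have e : (1 - tr ρ a b) v = v - tr ρ a b v := rfl
  rw [e]
  have := norm_sub_tr_sq hρ a b v
  nlinarith [sq_nonneg ‖v - tr ρ a b v‖]

theorem Lap_apply (S : Finset α) (x : E) :
    Lap ρ S x = (1 / 2 : ℝ) • ∑ a ∈ S, ∑ b ∈ S, (1 - tr ρ a b) x := by
  rw [Lap_eq]
  have e : ∀ (c : ℝ) (T : E →L[ℝ] E), (c • T) x = c • T x := fun _ _ => rfl
  rw [e]
  congr 1
  rw [ContinuousLinearMap.sum_apply]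
  refine Finset.sum_congr rfl fun a _ => ?_
  rw [ContinuousLinearMap.sum_apply]

theorem Lap_symm (hρ : IsOrth ρ) (S : Finset α) (x y : E) :
    ⟪Lap ρ S x, y⟫_ℝ = ⟪x, Lap ρ S y⟫_ℝ := by
  rw [Lap_apply, Lap_apply, real_inner_smul_left, real_inner_smul_right]
  congr 1
  rw [sum_inner, inner_sum]
  refine Finset.sum_congr rfl fun a _ => ?_
  rw [sum_inner, inner_sum]
  refine Finset.sum_congr rfl fun b _ => ?_
  exact one_sub_tr_symm hρ a b x y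

theorem inner_Lap (S : Finset α) (x : E) :
    ⟪x, Lap ρ S x⟫_ℝ = (1 / 2) * ∑ a ∈ S, ∑ b ∈ S, ⟪x, (1 - tr ρ a b) x⟫_ℝ := by
  rw [Lap_apply, real_inner_smul_right]
  congr 1
  rw [inner_sum]
  refine Finset.sum_congr rfl fun a _ => ?_
  rw [inner_sum]

/-- `⟨x, (1 - t) x⟩ = ‖x - t x‖^2 / 2 ≥ 0`. -/
theorem Lap_nonneg (hρ : IsOrth ρ) (S : Finset α) (x : E) : 0 ≤ ⟪x, Lap ρ S x⟫_ℝ := by
  rw [inner_Lap]
  apply mul_nonneg (by norm_num)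
  exact Finset.sum_nonneg fun a _ => Finset.sum_nonneg fun b _ => inner_one_sub_tr_nonneg hρ a b x

/-- A permutation that maps `S` to `S` commutes with `Lap S`. -/
theorem Lap_comm_rho (S : Finset α) (σ : Equiv.Perm α) (hσ : ∀ a, a ∈ S ↔ σ a ∈ S) :
    Commute (ρ σ) (Lap ρ S) := by
  rw [Lap_eq]
  apply Commute.smul_right
  unfold Commute SemiconjBy
  rw [Finset.mul_sum, Finset.sum_mul]
  have h1 : ∀ a b, ρ σ * (1 - tr ρ a b) = (1 - tr ρ (σ a) (σ b)) * ρ σ := by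
    intro a b
    rw [mul_sub, sub_mul, mul_one, one_mul, rho_mul_tr]
  have h2 : ∀ f : α → (E →L[ℝ] E), ∑ a ∈ S, f (σ a) = ∑ a ∈ S, f a := by
    intro f
    refine Finset.sum_bij (fun a _ => σ a) (fun a ha => (hσ a).mp ha)
      (fun a _ b _ h => σ.injective h) (fun b hb => ⟨σ⁻¹ b, ?_, ?_⟩) (fun a _ => rfl)
    · rw [hσ]; simpa using hb
    · simp
  calc ∑ a ∈ S, ρ σ * ∑ b ∈ S, (1 - tr ρ a b)
      = ∑ a ∈ S, (∑ b ∈ S, (1 - tr ρ (σ a) b)) * ρ σ := by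
        refine Finset.sum_congr rfl fun a _ => ?_
        rw [Finset.mul_sum, ← h2 (fun b => 1 - tr ρ (σ a) b), Finset.sum_mul]
        exact Finset.sum_congr rfl fun b _ => h1 a b
    _ = ∑ a ∈ S, (∑ b ∈ S, (1 - tr ρ a b)) * ρ σ :=
        h2 (fun a => (∑ b ∈ S, (1 - tr ρ a b)) * ρ σ)

theorem Lap_comm_tr {S : Finset α} {a b : α} (ha : a ∈ S) (hb : b ∈ S) :
    Commute (tr ρ a b) (Lap ρ S) := by
  apply Lap_comm_rho
  intro c
  by_cases h1 : c = a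
  · subst h1
    rw [Equiv.swap_apply_left]
    exact ⟨fun _ => hb, fun _ => ha⟩
  · by_cases h2 : c = b
    · subst h2
      rw [Equiv.swap_apply_right]
      exact ⟨fun _ => ha, fun _ => hb⟩
    · rw [Equiv.swap_apply_of_ne_of_ne h1 h2]

theorem Lap_comm_tr_out {S : Finset α} {a b : α} (ha : a ∉ S) (hb : b ∉ S) :
    Commute (tr ρ a b) (Lap ρ S) := by
  apply Lap_comm_rho
  intro c
  by_cases h1 : c = a
  · subst h1
    rw [Equiv.swap_apply_left]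
    exact ⟨fun h => absurd h ha, fun h => absurd h hb⟩
  · by_cases h2 : c = b
    · subst h2
      rw [Equiv.swap_apply_right]
      exact ⟨fun h => absurd h hb, fun h => absurd h ha⟩
    · rw [Equiv.swap_apply_of_ne_of_ne h1 h2]

theorem Lap_comm_of (S : Finset α) (A : E →L[ℝ] E)
    (h : ∀ a ∈ S, ∀ b ∈ S, Commute (tr ρ a b) A) : Commute (Lap ρ S) A := by
  rw [Lap_eq]
  apply Commute.smul_left
  apply Commute.sum_left
  intro a ha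
  apply Commute.sum_left
  intro b hb
  exact (Commute.one_left A).sub_left (h a ha b hb)

/-- Sub-Laplacians of disjoint or nested sets commute. -/
theorem Lap_comm_disj {S T : Finset α} (h : Disjoint S T) : Commute (Lap ρ S) (Lap ρ T) :=
  Lap_comm_of S _ fun _ ha _ hb => Lap_comm_tr_out
    (Finset.disjoint_left.mp h ha) (Finset.disjoint_left.mp h hb)

theorem Lap_comm_sub {S T : Finset α} (h : S ⊆ T) : Commute (Lap ρ S) (Lap ρ T) :=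
  Lap_comm_of S _ fun _ ha _ hb => Lap_comm_tr (h ha) (h hb)

theorem tr_comm_tr {a b c d : α} (h1 : a ≠ c) (h2 : a ≠ d) (h3 : b ≠ c) (h4 : b ≠ d) :
    Commute (tr ρ a b) (tr ρ c d) := by
  unfold Commute SemiconjBy
  have h := rho_mul_tr (ρ := ρ) (Equiv.swap a b) c d
  rw [Equiv.swap_apply_of_ne_of_ne h1.symm h3.symm,
    Equiv.swap_apply_of_ne_of_ne h2.symm h4.symm] at h
  exact h

/-! ### The pairs -/

section Pairs

variable {ι : Type*} [Fintype ι] [DecidableEq ι]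

/-- Projection on the event that site `y` is odd. -/
noncomputable def nOp (ρ : Equiv.Perm α →* (E →L[ℝ] E)) (x₀ x₁ : ι → α) (y : ι) : E →L[ℝ] E :=
  (1 / 2 : ℝ) • (1 - tr ρ (x₀ y) (x₁ y))

/-- The edge operator. -/
noncomputable def dOp (ρ : Equiv.Perm α →* (E →L[ℝ] E)) (x₀ x₁ : ι → α) (y z : ι) : E →L[ℝ] E :=
  tr ρ (x₀ y) (x₀ z) + tr ρ (x₁ y) (x₁ z) - tr ρ (x₀ y) (x₁ z) - tr ρ (x₁ y) (x₀ z)

variable {x₀ x₁ : ι → α}

theorem dOp_apply (y z : ι) (v : E) : dOp ρ x₀ x₁ y z v =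
    tr ρ (x₀ y) (x₀ z) v + tr ρ (x₁ y) (x₁ z) v - tr ρ (x₀ y) (x₁ z) v
      - tr ρ (x₁ y) (x₀ z) v := rfl

/-- The switch anticommutes with the edge operator. -/
theorem switch_dOp (h0 : Function.Injective x₀) (h1 : Function.Injective x₁)
    (h01 : ∀ y z, x₀ y ≠ x₁ z) {y z : ι} (hyz : y ≠ z) :
    tr ρ (x₀ y) (x₁ y) * dOp ρ x₀ x₁ y z = - (dOp ρ x₀ x₁ y z * tr ρ (x₀ y) (x₁ y)) := by
  have a1 : x₀ z ≠ x₀ y := fun h => hyz (h0 h).symm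
  have a2 : x₀ z ≠ x₁ y := h01 z y
  have a3 : x₁ z ≠ x₀ y := (h01 y z).symm
  have a4 : x₁ z ≠ x₁ y := fun h => hyz (h1 h).symm
  have e1 := rho_mul_tr (ρ := ρ) (Equiv.swap (x₀ y) (x₁ y)) (x₀ y) (x₀ z)
  have e2 := rho_mul_tr (ρ := ρ) (Equiv.swap (x₀ y) (x₁ y)) (x₁ y) (x₁ z)
  have e3 := rho_mul_tr (ρ := ρ) (Equiv.swap (x₀ y) (x₁ y)) (x₀ y) (x₁ z)
  have e4 := rho_mul_tr (ρ := ρ) (Equiv.swap (x₀ y) (x₁ y)) (x₁ y) (x₀ z)
  rw [Equiv.swap_apply_left, Equiv.swap_apply_of_ne_of_ne a1 a2] at e1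
  rw [Equiv.swap_apply_right, Equiv.swap_apply_of_ne_of_ne a3 a4] at e2
  rw [Equiv.swap_apply_left, Equiv.swap_apply_of_ne_of_ne a3 a4] at e3
  rw [Equiv.swap_apply_right, Equiv.swap_apply_of_ne_of_ne a1 a2] at e4
  have f : tr ρ (x₀ y) (x₁ y) = ρ (Equiv.swap (x₀ y) (x₁ y)) := rfl
  unfold dOp
  rw [f, mul_sub, mul_sub, mul_add, e1, e2, e3, e4]
  noncomm_ring

theorem pair_graded (hρ : IsOrth ρ) (h0 : Function.Injective x₀) (h1 : Function.Injective x₁)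
    (h01 : ∀ y z, x₀ y ≠ x₁ z) : Graded (nOp ρ x₀ x₁) (dOp ρ x₀ x₁) where
  n_idem := by
    intro y
    unfold nOp
    have h := tr_mul_self (ρ := ρ) (x₀ y) (x₁ y)
    rw [smul_mul_smul_comm]
    have e : (1 - tr ρ (x₀ y) (x₁ y)) * (1 - tr ρ (x₀ y) (x₁ y)) =
        (2 : ℝ) • (1 - tr ρ (x₀ y) (x₁ y)) := by
      rw [mul_sub, sub_mul, sub_mul, h, one_mul, mul_one, two_smul]
      simp only [one_mul]
      abel
    rw [e, smul_smul]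
    norm_num
  n_symm := by
    intro y x x'
    have e : ∀ z : E, nOp ρ x₀ x₁ y z = (1 / 2 : ℝ) • ((1 - tr ρ (x₀ y) (x₁ y)) z) :=
      fun _ => rfl
    rw [e, e, real_inner_smul_left, real_inner_smul_right, one_sub_tr_symm hρ]
  n_comm := by
    intro y z
    by_cases hyz : y = z
    · subst hyz; rfl
    · have hc : Commute (tr ρ (x₀ y) (x₁ y)) (tr ρ (x₀ z) (x₁ z)) :=
        tr_comm_tr (fun h => hyz (h0 h)) (h01 y z) (h01 z y).symm (fun h => hyz (h1 h))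
      unfold nOp
      have hc2 : Commute ((1 / 2 : ℝ) • (1 - tr ρ (x₀ y) (x₁ y)))
          ((1 / 2 : ℝ) • (1 - tr ρ (x₀ z) (x₁ z))) := by
        apply Commute.smul_left
        apply Commute.smul_right
        exact ((Commute.one_left _).sub_left
          ((Commute.one_right _).sub_right hc))
      exact hc2.eq
  Δ_swap := by
    intro y z
    unfold dOp
    rw [tr_comm (x₀ z) (x₀ y), tr_comm (x₁ z) (x₁ y), tr_comm (x₀ z) (x₁ y),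
      tr_comm (x₁ z) (x₀ y)]
    abel
  Δ_symm := by
    intro y z x x'
    rw [dOp_apply, dOp_apply]
    simp only [inner_sub_left, inner_add_left, inner_sub_right, inner_add_right, tr_symm hρ]
  Δ_norm := by
    intro y z x
    rw [dOp_apply]
    have t1 := norm_sub_le (tr ρ (x₀ y) (x₀ z) x + tr ρ (x₁ y) (x₁ z) x
      - tr ρ (x₀ y) (x₁ z) x) (tr ρ (x₁ y) (x₀ z) x)
    have t2 := norm_sub_le (tr ρ (x₀ y) (x₀ z) x + tr ρ (x₁ y) (x₁ z) x)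
      (tr ρ (x₀ y) (x₁ z) x)
    have t3 := norm_add_le (tr ρ (x₀ y) (x₀ z) x) (tr ρ (x₁ y) (x₁ z) x)
    simp only [tr_norm hρ] at t1 t2 t3
    linarith
  nΔ := by
    intro y z hyz
    have h := switch_dOp (ρ := ρ) h0 h1 h01 hyz
    unfold nOp
    rw [smul_mul_assoc, sub_mul, one_mul, h, mul_sub, mul_one, mul_smul_comm, mul_sub, mul_one,
      smul_sub, smul_sub, smul_neg]
    have e : dOp ρ x₀ x₁ y z = (1 / 2 : ℝ) • dOp ρ x₀ x₁ y z + (1 / 2 : ℝ) • dOp ρ x₀ x₁ y z := by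
      rw [← add_smul]; norm_num
    nth_rewrite 3 [e]
    abel
  nΔ_comm := by
    intro w y z hwy hwz
    have b1 : ∀ u ∈ ({y, z} : Finset ι), x₀ w ≠ x₀ u ∧ x₀ w ≠ x₁ u ∧ x₁ w ≠ x₀ u ∧
        x₁ w ≠ x₁ u := by
      intro u hu
      have hwu : w ≠ u := by
        rw [mem_insert, mem_singleton] at hu
        rcases hu with rfl | rfl
        · exact hwy
        · exact hwz
      exact ⟨fun h => hwu (h0 h), h01 w u, (h01 u w).symm, fun h => hwu (h1 h)⟩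
    obtain ⟨y1, y2, y3, y4⟩ := b1 y (by simp)
    obtain ⟨z1, z2, z3, z4⟩ := b1 z (by simp)
    have hc : Commute (tr ρ (x₀ w) (x₁ w)) (dOp ρ x₀ x₁ y z) := by
      unfold dOp
      exact (((tr_comm_tr y1 z1 y3 z3).add_right (tr_comm_tr y2 z2 y4 z4)).sub_right
        (tr_comm_tr y1 z2 y3 z4)).sub_right (tr_comm_tr y2 z1 y4 z3)
    unfold nOp
    exact (((Commute.one_left _).sub_left hc).smul_left _).eq

/-- `D + N` is a quarter of the sum of all edge operators, diagonal included. -/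
theorem DN_eq :
    Dop (dOp ρ x₀ x₁) + Nop (nOp ρ x₀ x₁) = (1 / 4 : ℝ) • ∑ y, ∑ z, dOp ρ x₀ x₁ y z := by
  have h1 : ∑ y, ∑ z, dOp ρ x₀ x₁ y z = ∑ p ∈ (univ : Finset ι).offDiag, dOp ρ x₀ x₁ p.1 p.2
      + ∑ y, dOp ρ x₀ x₁ y y := by
    rw [← Finset.sum_product', ← Finset.diag_union_offDiag, Finset.sum_union
      (Finset.disjoint_diag_offDiag _), Finset.sum_diag, add_comm]
  have h2 : ∀ y, dOp ρ x₀ x₁ y y = (4 : ℝ) • nOp ρ x₀ x₁ y := by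
    intro y
    unfold dOp nOp
    rw [tr_self, tr_self, tr_comm (x₁ y) (x₀ y), smul_smul]
    have : (4 : ℝ) * (1 / 2) = 2 := by norm_num
    rw [this, two_smul]
    abel
  rw [h1, smul_add]
  unfold Dop Nop
  congr 1
  rw [Finset.smul_sum]
  refine Finset.sum_congr rfl fun y _ => ?_
  rw [h2, smul_smul]
  norm_num

theorem Lap_union (h0 : Function.Injective x₀) (h1 : Function.Injective x₁)
    (h01 : ∀ y z, x₀ y ≠ x₁ z) :
    Lap ρ (univ.image x₀ ∪ univ.image x₁) = (1 / 2 : ℝ) • (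
      ((∑ y, ∑ z, (1 - tr ρ (x₀ y) (x₀ z))) + ∑ y, ∑ z, (1 - tr ρ (x₀ y) (x₁ z))) +
      ((∑ y, ∑ z, (1 - tr ρ (x₁ y) (x₀ z))) + ∑ y, ∑ z, (1 - tr ρ (x₁ y) (x₁ z)))) := by
  have hd : Disjoint (univ.image x₀) (univ.image x₁) := by
    rw [Finset.disjoint_left]
    intro a ha hb
    rw [mem_image] at ha hb
    obtain ⟨y, _, rfl⟩ := ha
    obtain ⟨z, _, hz⟩ := hb
    exact h01 y z hz.symm
  rw [Lap_eq]
  congr 1
  rw [Finset.sum_union hd, Finset.sum_image (fun y _ z _ h => h0 h),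
    Finset.sum_image (fun y _ z _ h => h1 h)]
  congr 1
  · rw [← Finset.sum_add_distrib]
    refine Finset.sum_congr rfl fun y _ => ?_
    rw [Finset.sum_union hd, Finset.sum_image (fun y _ z _ h => h0 h),
      Finset.sum_image (fun y _ z _ h => h1 h)]
  · rw [← Finset.sum_add_distrib]
    refine Finset.sum_congr rfl fun y _ => ?_
    rw [Finset.sum_union hd, Finset.sum_image (fun y _ z _ h => h0 h),
      Finset.sum_image (fun y _ z _ h => h1 h)]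

theorem Lap_image {x : ι → α} (h0 : Function.Injective x) :
    Lap ρ (univ.image x) = (1 / 2 : ℝ) • ∑ y, ∑ z, (1 - tr ρ (x y) (x z)) := by
  rw [Lap_eq]
  congr 1
  rw [Finset.sum_image (fun y _ z _ h => h0 h)]
  refine Finset.sum_congr rfl fun y _ => ?_
  rw [Finset.sum_image (fun y _ z _ h => h0 h)]

theorem pair_identity (h0 : Function.Injective x₀) (h1 : Function.Injective x₁)
    (h01 : ∀ y z, x₀ y ≠ x₁ z) :
    Lap ρ (univ.image x₀) + Lap ρ (univ.image x₁) =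
      (1 / 2 : ℝ) • Lap ρ (univ.image x₀ ∪ univ.image x₁)
        - (Dop (dOp ρ x₀ x₁) + Nop (nOp ρ x₀ x₁)) := by
  rw [DN_eq, Lap_union h0 h1 h01, Lap_image h0, Lap_image h1]
  have e : ∑ y, ∑ z, dOp ρ x₀ x₁ y z =
      (∑ y, ∑ z, (1 - tr ρ (x₀ y) (x₁ z))) + (∑ y, ∑ z, (1 - tr ρ (x₁ y) (x₀ z)))
      - (∑ y, ∑ z, (1 - tr ρ (x₀ y) (x₀ z))) - ∑ y, ∑ z, (1 - tr ρ (x₁ y) (x₁ z)) := by
    simp only [← Finset.sum_add_distrib, ← Finset.sum_sub_distrib]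
    refine Finset.sum_congr rfl fun y _ => Finset.sum_congr rfl fun z _ => ?_
    unfold dOp
    abel
  rw [e]
  generalize (∑ y, ∑ z, (1 - tr ρ (x₀ y) (x₀ z))) = A
  generalize (∑ y, ∑ z, (1 - tr ρ (x₁ y) (x₁ z))) = B
  generalize (∑ y, ∑ z, (1 - tr ρ (x₀ y) (x₁ z))) = C
  generalize (∑ y, ∑ z, (1 - tr ρ (x₁ y) (x₀ z))) = D
  module

/-- `D + N` commutes with the big Laplacian. -/
theorem pair_comm (x₀ x₁ : ι → α) :
    Commute (Lap ρ (univ.image x₀ ∪ univ.image x₁))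
      (Dop (dOp ρ x₀ x₁) + Nop (nOp ρ x₀ x₁)) := by
  have m0 : ∀ y, x₀ y ∈ univ.image x₀ ∪ univ.image x₁ :=
    fun y => mem_union_left _ (mem_image_of_mem _ (mem_univ y))
  have m1 : ∀ y, x₁ y ∈ univ.image x₀ ∪ univ.image x₁ :=
    fun y => mem_union_right _ (mem_image_of_mem _ (mem_univ y))
  rw [DN_eq]
  apply Commute.smul_right
  apply Commute.sum_right
  intro y _
  apply Commute.sum_right
  intro z _
  unfold dOp
  exact ((((Lap_comm_tr (m0 y) (m0 z)).symm).add_right (Lap_comm_tr (m1 y) (m1 z)).symm).sub_right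
    (Lap_comm_tr (m0 y) (m1 z)).symm).sub_right (Lap_comm_tr (m1 y) (m0 z)).symm

theorem norm_four_sq (a b c d : E) :
    ‖a + b + c + d‖ ^ 2 ≤ 4 * (‖a‖ ^ 2 + ‖b‖ ^ 2 + ‖c‖ ^ 2 + ‖d‖ ^ 2) := by
  have t1 := norm_add_le (a + b + c) d
  have t2 := norm_add_le (a + b) c
  have t3 := norm_add_le a b
  have t : ‖a + b + c + d‖ ≤ ‖a‖ + ‖b‖ + ‖c‖ + ‖d‖ := by linarith
  have h0 : 0 ≤ ‖a + b + c + d‖ := norm_nonneg _
  have h := pow_le_pow_left₀ h0 t 2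
  nlinarith [sq_nonneg (‖a‖ - ‖b‖), sq_nonneg (‖a‖ - ‖c‖), sq_nonneg (‖a‖ - ‖d‖),
    sq_nonneg (‖b‖ - ‖c‖), sq_nonneg (‖b‖ - ‖d‖), sq_nonneg (‖c‖ - ‖d‖)]

/-- `‖D v‖^2 = 1/8 ∑ ‖Δ v‖^2`, `‖Δ_{yz} v‖^2 ≤ 8 ∑_{4 terms} ⟨v, (1-t) v⟩` because
`Δ = -(1-t00) - (1-t11) + (1-t01) + (1-t10)` and `(1-t)^2 = 2 (1-t)`. -/
theorem pair_D_le (hρ : IsOrth ρ) (h0 : Function.Injective x₀) (h1 : Function.Injective x₁)
    (h01 : ∀ y z, x₀ y ≠ x₁ z) (v : E) (hv : ∀ y, tr ρ (x₀ y) (x₁ y) v = v) :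
    ‖Dop (dOp ρ x₀ x₁) v‖ ^ 2 ≤ 2 * ⟪v, Lap ρ (univ.image x₀ ∪ univ.image x₁) v⟫_ℝ := by
  have hn : ∀ y, nOp ρ x₀ x₁ y v = 0 := by
    intro y
    have e : nOp ρ x₀ x₁ y v = (1 / 2 : ℝ) • (v - tr ρ (x₀ y) (x₁ y) v) := rfl
    rw [e, hv y, sub_self, smul_zero]
  rw [graded_orth (pair_graded hρ h0 h1 h01) v hn]
  have key : ∀ y z, ‖dOp ρ x₀ x₁ y z v‖ ^ 2 ≤ 8 * (
      ⟪v, (1 - tr ρ (x₀ y) (x₀ z)) v⟫_ℝ + ⟪v, (1 - tr ρ (x₁ y) (x₁ z)) v⟫_ℝ +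
      ⟪v, (1 - tr ρ (x₀ y) (x₁ z)) v⟫_ℝ + ⟪v, (1 - tr ρ (x₁ y) (x₀ z)) v⟫_ℝ) := by
    intro y z
    have e : ∀ a b : α, (1 - tr ρ a b) v = v - tr ρ a b v := fun _ _ => rfl
    rw [dOp_apply]
    have hsum : tr ρ (x₀ y) (x₀ z) v + tr ρ (x₁ y) (x₁ z) v - tr ρ (x₀ y) (x₁ z) v
        - tr ρ (x₁ y) (x₀ z) v = (-(v - tr ρ (x₀ y) (x₀ z) v)) + (-(v - tr ρ (x₁ y) (x₁ z) v))
        + (v - tr ρ (x₀ y) (x₁ z) v) + (v - tr ρ (x₁ y) (x₀ z) v) := by abel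
    rw [hsum]
    refine (norm_four_sq _ _ _ _).trans ?_
    rw [norm_neg, norm_neg, norm_sub_tr_sq hρ, norm_sub_tr_sq hρ, norm_sub_tr_sq hρ,
      norm_sub_tr_sq hρ, e, e, e, e]
    linarith
  have hsum : ∑ p ∈ (univ : Finset ι).offDiag, ‖dOp ρ x₀ x₁ p.1 p.2 v‖ ^ 2 ≤
      ∑ y, ∑ z, 8 * (
      ⟪v, (1 - tr ρ (x₀ y) (x₀ z)) v⟫_ℝ + ⟪v, (1 - tr ρ (x₁ y) (x₁ z)) v⟫_ℝ +
      ⟪v, (1 - tr ρ (x₀ y) (x₁ z)) v⟫_ℝ + ⟪v, (1 - tr ρ (x₁ y) (x₀ z)) v⟫_ℝ) := by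
    rw [← Finset.sum_product' (univ : Finset ι) (univ : Finset ι) (fun y z => 8 * (
      ⟪v, (1 - tr ρ (x₀ y) (x₀ z)) v⟫_ℝ + ⟪v, (1 - tr ρ (x₁ y) (x₁ z)) v⟫_ℝ +
      ⟪v, (1 - tr ρ (x₀ y) (x₁ z)) v⟫_ℝ + ⟪v, (1 - tr ρ (x₁ y) (x₀ z)) v⟫_ℝ))]
    refine (Finset.sum_le_sum fun p _ => key p.1 p.2).trans ?_
    apply Finset.sum_le_sum_of_subset_of_nonneg (offDiag_sub _)
    intro p _ _
    have := inner_one_sub_tr_nonneg hρ (x₀ p.1) (x₀ p.2) v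
    have := inner_one_sub_tr_nonneg hρ (x₁ p.1) (x₁ p.2) v
    have := inner_one_sub_tr_nonneg hρ (x₀ p.1) (x₁ p.2) v
    have := inner_one_sub_tr_nonneg hρ (x₁ p.1) (x₀ p.2) v
    linarith
  have hL : ⟪v, Lap ρ (univ.image x₀ ∪ univ.image x₁) v⟫_ℝ = (1 / 2) * ∑ y, ∑ z, (
      ⟪v, (1 - tr ρ (x₀ y) (x₀ z)) v⟫_ℝ + ⟪v, (1 - tr ρ (x₁ y) (x₁ z)) v⟫_ℝ +
      ⟪v, (1 - tr ρ (x₀ y) (x₁ z)) v⟫_ℝ + ⟪v, (1 - tr ρ (x₁ y) (x₀ z)) v⟫_ℝ) := by
    rw [Lap_union h0 h1 h01]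
    have e : ∀ (c : ℝ) (T : E →L[ℝ] E), (c • T) v = c • T v := fun _ _ => rfl
    have e2 : ∀ (T T' : E →L[ℝ] E), (T + T') v = T v + T' v := fun _ _ => rfl
    rw [e, real_inner_smul_right]
    congr 1
    simp only [e2, inner_add_right, ContinuousLinearMap.sum_apply, inner_sum,
      Finset.sum_add_distrib]
    ring
  rw [hL]
  simp only [← Finset.mul_sum] at hsum
  linarith

end Pairs

end Vale.Agent.ThorpA
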