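import Mathlib

/-!
# P162: operators attached to an orthogonal representation of a symmetric group

`ρ : Perm α →* (E →L[ℝ] E)` with every `ρ σ` an isometry. `tr` = transposition operator,
`Lap S` = Laplacian of the complete graph on `S` (interchange process), `pass d b` = one pass of
the butterfly network through the block `b 0, ..., b (2^d - 1)` (first the layer of the top bit,
then the two half blocks).
-/

namespace Vale.Agent.ThorpA

open Finset
open scoped InnerProductSpace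

section Defs

variable {α : Type*} [DecidableEq α] {E : Type*} [NormedAddCommGroup E] [InnerProductSpace ℝ E]

/-- All `ρ σ` are isometries. -/
def IsOrth (ρ : Equiv.Perm α →* (E →L[ℝ] E)) : Prop := ∀ σ x, ‖ρ σ x‖ = ‖x‖

/-- Operator of a transposition. -/
noncomputable def tr (ρ : Equiv.Perm α →* (E →L[ℝ] E)) (a b : α) : E →L[ℝ] E :=
  ρ (Equiv.swap a b)

/-- Laplacian of the interchange process on the complete graph with vertex set `S`. -/
noncomputable def Lap (ρ : Equiv.Perm α →* (E →L[ℝ] E)) (S : Finset α) : E →L[ℝ] E :=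
  (1 / 2 : ℝ) • ∑ p ∈ S.offDiag, (1 - tr ρ p.1 p.2)

/-- The layer of switches between `b i` and `b (i + m)`, `i < m`. -/
noncomputable def layer (ρ : Equiv.Perm α →* (E →L[ℝ] E)) (m : ℕ) (b : ℕ → α) : E →L[ℝ] E :=
  ((List.range m).map (fun i => (1 / 2 : ℝ) • (1 + tr ρ (b i) (b (i + m))))).prod

/-- One pass of the butterfly network. -/
noncomputable def pass (ρ : Equiv.Perm α →* (E →L[ℝ] E)) : ℕ → (ℕ → α) → (E →L[ℝ] E)
  | 0, _ => 1
  | d + 1, b => pass ρ d b * pass ρ d (fun i => b (i + 2 ^ d)) * layer ρ (2 ^ d) b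

theorem pass_zero (ρ : Equiv.Perm α →* (E →L[ℝ] E)) (b : ℕ → α) : pass ρ 0 b = 1 := rfl

theorem pass_succ (ρ : Equiv.Perm α →* (E →L[ℝ] E)) (d : ℕ) (b : ℕ → α) :
    pass ρ (d + 1) b = pass ρ d b * pass ρ d (fun i => b (i + 2 ^ d)) * layer ρ (2 ^ d) b := rfl

/-- The block of positions `b 0, ..., b (2^d - 1)`. -/
def blk (d : ℕ) (b : ℕ → α) : Finset α := (range (2 ^ d)).image b

/-- Vectors fixed by all transpositions inside `S`. -/
def fixS (ρ : Equiv.Perm α →* (E →L[ℝ] E)) (S : Finset α) : Submodule ℝ E where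
  carrier := {x | ∀ a ∈ S, ∀ b ∈ S, tr ρ a b x = x}
  add_mem' := by
    intro x y hx hy a ha b hb
    rw [map_add, hx a ha b hb, hy a ha b hb]
  zero_mem' := by
    intro a _ b _
    exact map_zero _
  smul_mem' := by
    intro c x hx a ha b hb
    rw [map_smul, hx a ha b hb]

end Defs

section Basic

variable {α : Type*} [DecidableEq α] {E : Type*} [NormedAddCommGroup E] [InnerProductSpace ℝ E]
variable {ρ : Equiv.Perm α →* (E →L[ℝ] E)}

theorem inner_rho (hρ : IsOrth ρ) (σ : Equiv.Perm α) (x y : E) :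
    ⟪ρ σ x, ρ σ y⟫_ℝ = ⟪x, y⟫_ℝ := by
  have h1 := hρ σ (x + y)
  have h2 := hρ σ x
  have h3 := hρ σ y
  have e1 := norm_add_sq_real x y
  have e2 := norm_add_sq_real (ρ σ x) (ρ σ y)
  rw [← map_add, h1, h2, h3] at e2
  linarith

theorem tr_mul_self (a b : α) : tr ρ a b * tr ρ a b = 1 := by
  unfold tr
  rw [← map_mul, Equiv.swap_mul_self, map_one]

theorem tr_apply_self (a b : α) (x : E) : tr ρ a b (tr ρ a b x) = x := by
  have h := tr_mul_self (ρ := ρ) a b
  have h2 := congrArg (fun T : E →L[ℝ] E => T x) h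
  simpa using h2

theorem tr_comm (a b : α) : tr ρ a b = tr ρ b a := by
  unfold tr
  rw [Equiv.swap_comm]

theorem tr_symm (hρ : IsOrth ρ) (a b : α) (x y : E) :
    ⟪tr ρ a b x, y⟫_ℝ = ⟪x, tr ρ a b y⟫_ℝ := by
  have h := inner_rho hρ (Equiv.swap a b) (tr ρ a b x) y
  have h2 : ρ (Equiv.swap a b) (tr ρ a b x) = x := tr_apply_self a b x
  rw [h2] at h
  exact h.symm

theorem tr_norm (hρ : IsOrth ρ) (a b : α) (x : E) : ‖tr ρ a b x‖ = ‖x‖ := hρ _ x

/-- Conjugation of a transposition. -/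
theorem rho_mul_tr (σ : Equiv.Perm α) (a b : α) :
    ρ σ * tr ρ a b = tr ρ (σ a) (σ b) * ρ σ := by
  unfold tr
  rw [← map_mul, ← map_mul]
  congr 1
  rw [Equiv.mul_swap_eq_swap_mul]

end Basic

end Vale.Agent.ThorpA
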