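import Vale.Agent.ThorpA.Bridge

/-!
# P162 module G8: from operators to total variation

`∑_g ‖opOf μ δ_g‖^2 = n! ∑ μ^2`; `μ` a law: `4 TV^2 ≤ n! ∑ μ^2 - 1` (Cauchy-Schwarz).
-/

namespace Vale.Agent.ThorpA

open Finset
open scoped InnerProductSpace Nat

theorem thorpLaw_nonneg (n : ℕ) (g : Equiv.Perm (Fin n)) : 0 ≤ thorpLaw n g := by
  unfold thorpLaw
  positivity

/-- the trivial representation -/
noncomputable def triv (n : ℕ) : Equiv.Perm (Fin n) →* (ℝ →L[ℝ] ℝ) := 1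

theorem layer_triv (n m : ℕ) (b : ℕ → Fin n) : layer (triv n) m b = 1 := by
  unfold layer tr triv
  have h : ∀ i : ℕ, (1 / 2 : ℝ) • ((1 : ℝ →L[ℝ] ℝ) +
      (1 : Equiv.Perm (Fin n) →* (ℝ →L[ℝ] ℝ)) (Equiv.swap (b i) (b (i + m)))) = 1 := by
    intro i
    rw [MonoidHom.one_apply, ← two_smul ℝ (1 : ℝ →L[ℝ] ℝ), smul_smul]
    norm_num
  simp only [h]
  simp

/-- The law has total mass 1 (`n` even): every coin vector gives exactly one permutation. -/
theorem thorpLaw_sum (m : ℕ) : ∑ g, thorpLaw (2 * m) g = 1 := by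
  rcases Nat.eq_zero_or_pos m with h0 | h0
  · subst h0
    have h1 : ∀ g : Equiv.Perm (Fin (2 * 0)), thorpLaw (2 * 0) g = 1 := by
      intro g
      unfold thorpLaw
      have h2 : (univ.filter (fun c : Fin (2 * 0 / 2) → Bool => ∀ (i : Fin (2 * 0 / 2))
          (x : Fin (2 * 0)),
          ((x : ℕ) = i → (g x : ℕ) = 2 * i + (if c i then 1 else 0)) ∧
          ((x : ℕ) = 2 * 0 / 2 + i → (g x : ℕ) = 2 * i + (if c i then 0 else 1)))) = univ := by
        ext c
        simp only [mem_filter, mem_univ, true_and, iff_true]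
        intro i
        exact i.elim0
      rw [h2]
      simp
    simp only [h1]
    simp
  · have : NeZero (2 * m) := ⟨by omega⟩
    have hn : 2 * (2 * m / 2) = 2 * m := by omega
    have h := thorp_op (triv (2 * m)) hn
    rw [layer_triv, mul_one] at h
    unfold opG at h
    have h2 : ∀ σ : Equiv.Perm (Fin (2 * m)), triv (2 * m) σ = 1 := fun σ => rfl
    simp only [h2] at h
    rw [← Finset.sum_smul] at h
    have h3 := congrArg (fun T : ℝ →L[ℝ] ℝ => T 1) h
    simpa using h3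

theorem thorpPow_nonneg (n t : ℕ) (g : Equiv.Perm (Fin n)) : 0 ≤ thorpPow n t g := by
  induction t generalizing g with
  | zero =>
    rw [thorpPow_zero]
    beta_reduce
    split_ifs <;> norm_num
  | succ t ih =>
    have h : thorpPow n (t + 1) g = ∑ h : Equiv.Perm (Fin n),
      thorpLaw n h * thorpPow n t (h⁻¹ * g) := rfl
    rw [h]
    exact Finset.sum_nonneg fun h _ => mul_nonneg (thorpLaw_nonneg n h) (ih _)

theorem sum_conv {n : ℕ} (μ ν : Equiv.Perm (Fin n) → ℝ) :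
    ∑ g, conv μ ν g = (∑ g, μ g) * ∑ g, ν g := by
  unfold conv
  rw [Finset.sum_comm, Finset.sum_mul]
  refine Finset.sum_congr rfl fun h _ => ?_
  rw [← Finset.mul_sum]
  congr 1
  exact Equiv.sum_comp (Equiv.mulLeft h⁻¹) ν

theorem thorpPow_sum (m t : ℕ) : ∑ g, thorpPow (2 * m) t g = 1 := by
  induction t with
  | zero =>
    rw [thorpPow_zero]
    simp
  | succ t ih =>
    have h : ∀ g, thorpPow (2 * m) (t + 1) g = conv (thorpLaw (2 * m)) (thorpPow (2 * m) t) g :=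
      fun g => rfl
    simp only [h]
    rw [sum_conv, ih, thorpLaw_sum, mul_one]

theorem sum_opOf {n : ℕ} (μ : Equiv.Perm (Fin n) → ℝ) :
    ∑ g : Equiv.Perm (Fin n), ‖opOf μ (EuclideanSpace.single g 1)‖ ^ 2 =
      (n ! : ℝ) * ∑ g, μ g ^ 2 := by
  classical
  have h1 : ∀ g x : Equiv.Perm (Fin n), opOf μ (EuclideanSpace.single g 1) x = μ (x * g⁻¹) := by
    intro g x
    unfold opOf opG
    rw [_root_.sum_apply]
    have h2 : ∀ σ : Equiv.Perm (Fin n), ((μ σ • reg n σ) (EuclideanSpace.single g 1)) x =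
        if σ = x * g⁻¹ then μ σ else 0 := by
      intro σ
      rw [_root_.smul_apply]
      change μ σ * (EuclideanSpace.single g (1 : ℝ)) (σ⁻¹ * x) = _
      rw [PiLp.single_apply]
      have h3 : σ⁻¹ * x = g ↔ σ = x * g⁻¹ := by
        constructor
        · intro h; rw [← h]; group
        · intro h; rw [h]; group
      simp only [h3]
      split_ifs <;> simp
    have h4 : (∑ σ, (μ σ • reg n σ) (EuclideanSpace.single g 1)) x =
        ∑ σ, ((μ σ • reg n σ) (EuclideanSpace.single g 1)) x := by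
      simp
    rw [h4]
    simp only [h2]
    simp
  have h5 : ∀ g : Equiv.Perm (Fin n), ‖opOf μ (EuclideanSpace.single g 1)‖ ^ 2 =
      ∑ x, μ x ^ 2 := by
    intro g
    rw [EuclideanSpace.norm_sq_eq]
    simp only [h1, Real.norm_eq_abs, sq_abs]
    exact Equiv.sum_comp (Equiv.mulRight g⁻¹) (fun x => μ x ^ 2)
  simp only [h5]
  rw [Finset.sum_const, Finset.card_univ, Fintype.card_perm, Fintype.card_fin, nsmul_eq_mul]

theorem tv_le {m t : ℕ} (h : ((2 * m)! : ℝ) * ∑ g, thorpPow (2 * m) t g ^ 2 ≤ 5 / 4) :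
    tvDist (2 * m) t ≤ 1 / 4 := by
  unfold tvDist
  set N : ℝ := ((2 * m)! : ℝ) with hN
  have hN0 : 0 < N := by rw [hN]; exact_mod_cast Nat.factorial_pos _
  set p : Equiv.Perm (Fin (2 * m)) → ℝ := thorpPow (2 * m) t with hp
  have hs : ∑ g, p g = 1 := thorpPow_sum m t
  have hcard : ((Finset.univ : Finset (Equiv.Perm (Fin (2 * m)))).card : ℝ) = N := by
    rw [Finset.card_univ, Fintype.card_perm, Fintype.card_fin, hN]
  have hcs : (∑ g, |p g - 1 / N|) ^ 2 ≤ N * ∑ g, |p g - 1 / N| ^ 2 := by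
    have := sq_sum_le_card_mul_sum_sq (s := (Finset.univ : Finset (Equiv.Perm (Fin (2 * m)))))
      (f := fun g => |p g - 1 / N|)
    rwa [hcard] at this
  have hexp : N * ∑ g, |p g - 1 / N| ^ 2 = N * ∑ g, p g ^ 2 - 1 := by
    have h1 : ∀ g, |p g - 1 / N| ^ 2 = p g ^ 2 - (2 / N) * p g + 1 / N ^ 2 := by
      intro g
      rw [sq_abs]
      field_simp
      ring
    simp only [h1]
    rw [Finset.sum_add_distrib, Finset.sum_sub_distrib, ← Finset.mul_sum, hs, Finset.sum_const,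
      nsmul_eq_mul, hcard]
    field_simp
    ring
  have h2 : (∑ g, |p g - 1 / N|) ^ 2 ≤ (1 / 2) ^ 2 := by
    rw [hexp] at hcs
    linarith
  have h3 := abs_le_of_sq_le_sq h2 (by norm_num)
  have h4 := (abs_le.mp h3).2
  linarith

/-- Total variation distance is nonincreasing in `t`. -/
theorem tv_antitone (m : ℕ) : Antitone (fun t => tvDist (2 * m) t) := by
  apply antitone_nat_of_succ_le
  intro t
  unfold tvDist
  apply mul_le_mul_of_nonneg_left _ (by norm_num)
  set u : ℝ := 1 / ((2 * m)! : ℝ) with hu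
  have h1 : ∀ g, |thorpPow (2 * m) (t + 1) g - u| ≤
      ∑ h, thorpLaw (2 * m) h * |thorpPow (2 * m) t (h⁻¹ * g) - u| := by
    intro g
    have h2 : thorpPow (2 * m) (t + 1) g - u =
        ∑ h, thorpLaw (2 * m) h * (thorpPow (2 * m) t (h⁻¹ * g) - u) := by
      have h3 : thorpPow (2 * m) (t + 1) g = ∑ h : Equiv.Perm (Fin (2 * m)),
        thorpLaw (2 * m) h * thorpPow (2 * m) t (h⁻¹ * g) := rfl
      simp only [mul_sub, Finset.sum_sub_distrib, ← Finset.sum_mul]
      rw [thorpLaw_sum, one_mul, h3]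
    rw [h2]
    refine (Finset.abs_sum_le_sum_abs _ _).trans (le_of_eq ?_)
    refine Finset.sum_congr rfl fun h _ => ?_
    rw [abs_mul, abs_of_nonneg (thorpLaw_nonneg _ _)]
  calc ∑ g, |thorpPow (2 * m) (t + 1) g - u|
      ≤ ∑ g, ∑ h, thorpLaw (2 * m) h * |thorpPow (2 * m) t (h⁻¹ * g) - u| :=
        Finset.sum_le_sum fun g _ => h1 g
    _ = ∑ h, thorpLaw (2 * m) h * ∑ g, |thorpPow (2 * m) t (h⁻¹ * g) - u| := by
        rw [Finset.sum_comm]
        refine Finset.sum_congr rfl fun h _ => ?_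
        rw [Finset.mul_sum]
    _ = ∑ h, thorpLaw (2 * m) h * ∑ g, |thorpPow (2 * m) t g - u| := by
        refine Finset.sum_congr rfl fun h _ => ?_
        congr 1
        exact Equiv.sum_comp (Equiv.mulLeft h⁻¹) (fun g => |thorpPow (2 * m) t g - u|)
    _ = _ := by rw [← Finset.sum_mul, thorpLaw_sum, one_mul]

theorem Lap_pass_comm (d : ℕ) :
    Commute (Lap (reg (2 ^ d)) univ) (pass (reg (2 ^ d)) d (pos d)) := by
  refine pass_comm (ρ := reg (2 ^ d)) d (pos d) (Lap (reg (2 ^ d)) univ) ?_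
  intro i _ j _
  exact (Lap_comm_tr (ρ := reg (2 ^ d)) (S := univ) (Finset.mem_univ (pos d i))
    (Finset.mem_univ (pos d j))).symm

theorem pass_pow_eig (d K : ℕ) (x : EuclideanSpace ℝ (Equiv.Perm (Fin (2 ^ d)))) (l : ℝ)
    (hx : Lap (reg (2 ^ d)) univ x = l • x) :
    Lap (reg (2 ^ d)) univ ((pass (reg (2 ^ d)) d (pos d) ^ K) x) =
      l • (pass (reg (2 ^ d)) d (pos d) ^ K) x ∧
    ‖(pass (reg (2 ^ d)) d (pos d) ^ K) x‖ ^ 2 ≤
      Real.exp (-(((K : ℝ) / (36 * 2 ^ d)) * l)) * ‖x‖ ^ 2 := by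
  induction K with
  | zero => simpa using hx
  | succ K ih =>
    obtain ⟨ih1, ih2⟩ := ih
    set P := pass (reg (2 ^ d)) d (pos d) with hP
    set y := (P ^ K) x with hy
    have e : (P ^ (K + 1)) x = P y := by
      rw [pow_succ']
      rfl
    have hcomm : Lap (reg (2 ^ d)) univ (P y) = P (Lap (reg (2 ^ d)) univ y) := by
      have h1 := (Lap_pass_comm d).eq
      have h2 := congrArg (fun T : EuclideanSpace ℝ (Equiv.Perm (Fin (2 ^ d))) →L[ℝ]
        EuclideanSpace ℝ (Equiv.Perm (Fin (2 ^ d))) => T y) h1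
      simpa using h2
    refine ⟨?_, ?_⟩
    · rw [e, hcomm, ih1, map_smul]
    · rw [e]
      have h3 := pass_eig (reg_orth (2 ^ d)) d (pos d) (pos_injOn d) y l (by
        rw [blk_pos]; exact ih1)
      refine h3.trans ?_
      calc Real.exp (-(l / (36 * 2 ^ d))) * ‖y‖ ^ 2
          ≤ Real.exp (-(l / (36 * 2 ^ d))) *
            (Real.exp (-(((K : ℝ) / (36 * 2 ^ d)) * l)) * ‖x‖ ^ 2) :=
            mul_le_mul_of_nonneg_left ih2 (Real.exp_pos _).le
        _ = Real.exp (-((((K + 1 : ℕ) : ℝ) / (36 * 2 ^ d)) * l)) * ‖x‖ ^ 2 := by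
            rw [← mul_assoc, ← Real.exp_add]
            congr 2
            push_cast
            ring

/-- `K` passes with `K ≥ 72 (2 d log 2 + log 8)`: `θ = K / (36 * 2^d)`. -/
theorem tv_pass (d K : ℕ) (hd : 1 ≤ d) (hK : 72 * (2 * (d : ℝ) + 3) ≤ K) :
    tvDist (2 ^ d) (d * K) ≤ 1 / 4 := by
  obtain ⟨e, rfl⟩ : ∃ e, d = e + 1 := ⟨d - 1, by omega⟩
  have h2 : 2 ^ (e + 1) = 2 * 2 ^ e := by rw [pow_succ]; ring
  set D := e + 1 with hD
  set P := pass (reg (2 ^ D)) D (pos D) with hP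
  have hop : opOf (thorpPow (2 ^ D) (D * K)) = P ^ K := by
    rw [opOf_thorpPow, pow_mul, opOf_thorp D hd]
  have hb := hs_bound (2 ^ D) Nat.one_le_two_pow (P ^ K) ((K : ℝ) / (36 * 2 ^ D))
    (fun x l hx => (pass_pow_eig D K x l hx).2) (by
      push_cast
      have e1 : (K : ℝ) / (36 * 2 ^ D) * 2 ^ D / 2 = K / 72 := by
        have : (0 : ℝ) < 2 ^ D := by positivity
        field_simp
        ring
      rw [e1]
      have h3 : (2 : ℝ) * D + 3 ≤ K / 72 := by
        rw [le_div_iff₀ (by norm_num)]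
        linarith
      have h4 : (2 : ℝ) ^ (2 * D + 3) ≤ Real.exp (K / 72) := by
        have h5 : (2 : ℝ) ≤ Real.exp 1 := by
          have := Real.exp_one_gt_d9
          linarith
        calc (2 : ℝ) ^ (2 * D + 3) ≤ Real.exp 1 ^ (2 * D + 3) :=
              pow_le_pow_left₀ (by norm_num) h5 _
          _ = Real.exp (((2 * D + 3 : ℕ) : ℝ) * 1) := by rw [Real.exp_nat_mul]
          _ ≤ Real.exp (K / 72) := by
              apply Real.exp_le_exp.mpr
              push_cast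
              linarith
      rw [Real.exp_neg]
      have h6 : (0 : ℝ) < Real.exp (K / 72) := Real.exp_pos _
      rw [← div_eq_mul_inv, div_le_iff₀ h6]
      have h7 : ∀ n : ℕ, ((2 : ℝ) ^ n) ^ 2 = (2 : ℝ) ^ (2 * n + 3) / 8 := by
        intro n
        rw [pow_add, ← pow_mul, mul_comm n 2]
        norm_num
      rw [h7 D]
      linarith)
  rw [← hop, sum_opOf] at hb
  have hfin : ∀ n : ℕ, n = 2 * 2 ^ e → (n ! : ℝ) * ∑ g, thorpPow n (D * K) g ^ 2 ≤ 5 / 4 →
      tvDist n (D * K) ≤ 1 / 4 := by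
    intro n hn h
    subst hn
    exact tv_le h
  exact hfin _ h2 hb

theorem stage_one : ∃ C : ℝ, ∀ d : ℕ, 1 ≤ d →
    (tmix (2 ^ d) : ℝ) ≤ C * (d : ℝ) ^ 2 ∧ ∀ t, tmix (2 ^ d) ≤ t → tvDist (2 ^ d) t ≤ 1 / 4 := by
  refine ⟨360, ?_⟩
  intro d hd
  have hpass := tv_pass d (144 * d + 216) hd (by push_cast; linarith)
  have hmem : d * (144 * d + 216) ∈ {t : ℕ | tvDist (2 ^ d) t ≤ 1 / 4} := hpass
  have hle : tmix (2 ^ d) ≤ d * (144 * d + 216) := Nat.sInf_le hmem
  have hmin : tvDist (2 ^ d) (tmix (2 ^ d)) ≤ 1 / 4 := Nat.sInf_mem ⟨_, hmem⟩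
  constructor
  · have h1 : ((tmix (2 ^ d) : ℕ) : ℝ) ≤ ((d * (144 * d + 216) : ℕ) : ℝ) := by exact_mod_cast hle
    refine h1.trans ?_
    push_cast
    have h2 : (1 : ℝ) ≤ d := by exact_mod_cast hd
    nlinarith
  · intro t ht
    obtain ⟨e, rfl⟩ : ∃ e, d = e + 1 := ⟨d - 1, by omega⟩
    have h2 : 2 ^ (e + 1) = 2 * 2 ^ e := by rw [pow_succ]; ring
    have hanti : ∀ n : ℕ, n = 2 * 2 ^ e → Antitone (fun t => tvDist n t) := by
      intro n hn
      subst hn
      exact tv_antitone _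
    exact (hanti _ h2 ht).trans hmin

end Vale.Agent.ThorpA
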